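import Crest.Agent.R39.Defs

set_option autoImplicit false

namespace Crest.Agent.R39

open Finset

theorem exists_rep {α : Type} (r : α → α → Prop) :
    ∃ rep : α → α, (∀ x y, r x y → rep x = rep y) ∧ ∀ x, Relation.EqvGen r x (rep x) := by
  refine ⟨fun x => Quot.out (Quot.mk r x), fun x y h => by simp only [Quot.sound h], fun x => ?_⟩
  exact Quot.eqvGen_exact (Quot.out_eq (Quot.mk r x)).symm

namespace Tri

variable {B W V : Type} [Fintype B] [Fintype W] [Fintype V]
  [DecidableEq B] [DecidableEq W] [DecidableEq V] (T : Tri B W V)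

theorem Basic_h11_cardB (R : Finset (B ⊕ W)) :
    (univ.filter (fun e : B × ZMod 3 => Sum.inl e.1 ∈ R)).card = 3 * nB R := by
  have : (univ.filter (fun e : B × ZMod 3 => Sum.inl e.1 ∈ R))
      = (univ.filter (fun t : B => Sum.inl t ∈ R)) ×ˢ (univ : Finset (ZMod 3)) := by
    ext e; simp
  rw [this, card_product, card_univ, ZMod.card, nB, mul_comm]

theorem Basic_h11_cardW (R : Finset (B ⊕ W)) :
    (univ.filter (fun e : B × ZMod 3 => T.wh e ∈ R)).card = 3 * nW R := by
  have h : (univ.filter (fun e : B × ZMod 3 => T.wh e ∈ R)).card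
      = ((univ.filter (fun w : W => Sum.inr w ∈ R)) ×ˢ (univ : Finset (ZMod 3))).card := by
    refine card_bij' (fun e _ => (T.m e.2 e.1, e.2)) (fun e _ => ((T.m e.2).symm e.1, e.2))
      ?_ ?_ ?_ ?_
    · intro e he
      simpa [wh] using he
    · intro e he
      simpa [wh] using he
    · intro e _
      simp
    · intro e _
      simp
  rw [h, card_product, card_univ, ZMod.card, nW, mul_comm]

theorem card_touched_B (R : Finset (B ⊕ W)) :
    (T.touched R).card = 3 * nB R + (T.outW R).card := by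
  rw [← Basic_h11_cardB R, ← card_union_of_disjoint]
  · congr 1
    ext e
    simp only [touched, outW, mem_filter, mem_univ, true_and, mem_union]
    tauto
  · rw [disjoint_left]
    intro e h1 h2
    simp only [outW, mem_filter, mem_univ, true_and] at h1 h2
    exact h2.1 h1

theorem card_touched_W (R : Finset (B ⊕ W)) :
    (T.touched R).card = 3 * nW R + (T.outB R).card := by
  rw [← T.Basic_h11_cardW R, ← card_union_of_disjoint]
  · congr 1
    ext e
    simp only [touched, outB, mem_filter, mem_univ, true_and, mem_union]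
    tauto
  · rw [disjoint_left]
    intro e h1 h2
    simp only [outB, mem_filter, mem_univ, true_and] at h1 h2
    exact h2.2 h1

theorem card_cut (R : Finset (B ⊕ W)) :
    (T.cut R).card = (T.outB R).card + (T.outW R).card := by
  rw [← card_union_of_disjoint]
  · congr 1
    ext e
    simp only [cut, outB, outW, mem_filter, mem_univ, true_and, mem_union]
    tauto
  · rw [disjoint_left]
    intro e h1 h2
    simp only [outB, outW, mem_filter, mem_univ, true_and] at h1 h2
    exact h2.1 h1.1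

theorem card_eq_nB_add_nW (R : Finset (B ⊕ W)) : R.card = nB R + nW R := by
  have h1 : (univ.filter (fun t : B => Sum.inl t ∈ R)) = R.toLeft := by
    ext t; simp
  have h2 : (univ.filter (fun w : W => Sum.inr w ∈ R)) = R.toRight := by
    ext t; simp
  rw [nB, nW, h1, h2, Finset.card_toLeft_add_card_toRight]

theorem nB_add_compl (R : Finset (B ⊕ W)) : nB R + nB Rᶜ = Fintype.card B := by
  have := Finset.card_filter_add_card_filter_not (s := (univ : Finset B))
    (fun t : B => Sum.inl t ∈ R)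
  simpa [nB] using this

theorem nW_add_compl (R : Finset (B ⊕ W)) : nW R + nW Rᶜ = Fintype.card W := by
  have := Finset.card_filter_add_card_filter_not (s := (univ : Finset W))
    (fun t : W => Sum.inr t ∈ R)
  simpa [nW] using this

include T in
theorem card_W : Fintype.card W = Fintype.card B := (Fintype.card_congr (T.m 0)).symm

theorem Basic_h3_card_col (i : ZMod 3) (p : B × ZMod 3 → Prop) [DecidablePred p] :
    ((univ.filter p).filter (fun e => e.2 = i)).card = (univ.filter (fun t : B => p (t, i))).card := by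
  symm
  apply Finset.card_bij (fun t _ => (t, i))
  · intro t ht
    simp only [mem_filter, mem_univ, true_and] at ht ⊢
    exact ⟨ht, trivial⟩
  · intro a _ b _ h
    exact (Prod.mk.inj h).1
  · rintro ⟨t, j⟩ h
    simp only [mem_filter, mem_univ, true_and] at h
    obtain ⟨h1, h2⟩ := h
    subst h2
    exact ⟨t, by simpa using h1, rfl⟩

theorem card_out_colour (R : Finset (B ⊕ W)) (i : ZMod 3) :
    ((T.outB R).filter (fun e => e.2 = i)).card + nW R
      = ((T.outW R).filter (fun e => e.2 = i)).card + nB R := by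
  unfold outB outW
  rw [Basic_h3_card_col, Basic_h3_card_col]
  have h1 : nW R = (univ.filter (fun t : B => T.wh (t, i) ∈ R)).card := by
    unfold nW
    symm
    apply Finset.card_bij (fun t _ => T.m i t)
    · intro t ht
      rw [mem_filter] at ht ⊢
      exact ⟨mem_univ _, ht.2⟩
    · intro a _ b _ h
      exact (T.m i).injective h
    · intro w hw
      refine ⟨(T.m i).symm w, ?_, by simp⟩
      rw [mem_filter] at hw ⊢
      refine ⟨mem_univ _, ?_⟩
      show Sum.inr (T.m i ((T.m i).symm w)) ∈ R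
      rw [Equiv.apply_symm_apply]
      exact hw.2
  rw [h1]
  unfold nB
  simp only [Finset.card_filter]
  rw [← Finset.sum_add_distrib, ← Finset.sum_add_distrib]
  apply Finset.sum_congr rfl
  intro t _
  by_cases h1 : Sum.inl t ∈ R <;> by_cases h2 : T.wh (t, i) ∈ R <;> simp [h1, h2]

theorem cor_mem_Vall (x : B ⊕ W) (j : ZMod 3) : T.cor x j ∈ T.Vall := by
  unfold Vall
  simp only [mem_filter, mem_univ, true_and]
  rcases x with t | w
  · exact ⟨t, j, rfl⟩
  · refine ⟨(T.m (j + 1)).symm w, j, ?_⟩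
    have hj : j ≠ j + 1 := by revert j; decide
    have := T.compat (j + 1) j ((T.m (j + 1)).symm w) hj
    rw [Equiv.apply_symm_apply] at this
    rw [← this]
    rfl

theorem const_of_edges (h3 : T.Cut3) {α : Type} (f : B ⊕ W → α)
    (hf : ∀ e : B × ZMod 3, f (Sum.inl e.1) = f (T.wh e)) (x y : B ⊕ W) : f x = f y := by
  classical
  by_contra hxy
  have h := h3 (univ.filter (fun z => f z = f x)) ⟨x, by simp⟩ (by
    intro h
    have : y ∈ univ.filter (fun z => f z = f x) := by rw [h]; exact mem_univ _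
    simp only [mem_filter, mem_univ, true_and] at this
    exact hxy this.symm)
  have h0 : T.cut (univ.filter (fun z => f z = f x)) = ∅ := by
    unfold cut
    apply Finset.filter_eq_empty_iff.mpr
    intro e _
    simp only [mem_filter, mem_univ, true_and, not_not]
    rw [hf e]
  rw [h0] at h
  simp at h

theorem Basic_h26_side (t : B) (i : ZMod 3) :
    T.cor (T.wh (t, i)) (i + 1) = T.c t (i + 1) ∧ T.cor (T.wh (t, i)) (i + 2) = T.c t (i + 2) := by
  have h1 : ∀ i : ZMod 3, i + 1 ≠ i := by decide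
  have h2 : ∀ i : ZMod 3, i + 2 ≠ i := by decide
  exact ⟨T.compat i (i + 1) t (h1 i), T.compat i (i + 2) t (h2 i)⟩

theorem Basic_h26_sum3 (g : ZMod 3 → ZMod 2) : ∑ i : ZMod 3, (g (i + 1) + g (i + 2)) = 0 := by
  rw [Finset.sum_add_distrib, Fintype.sum_equiv (Equiv.addRight (1 : ZMod 3)) (fun i => g (i + 1)) g (fun _ => rfl),
    Fintype.sum_equiv (Equiv.addRight (2 : ZMod 3)) (fun i => g (i + 2)) g (fun _ => rfl)]
  exact CharTwo.add_self_eq_zero _

/-- a function that is constant along the sides of a triangle is constant on its corners -/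
theorem cor_const {α : Type} (R : Finset (B ⊕ W)) (f : V → α)
    (hf : ∀ e ∈ T.touched R, f (T.c e.1 (e.2 + 1)) = f (T.c e.1 (e.2 + 2)))
    (x : B ⊕ W) (hx : x ∈ R) (j k : ZMod 3) : f (T.cor x j) = f (T.cor x k) := by
  have key : ∀ i : ZMod 3, f (T.cor x (i + 1)) = f (T.cor x (i + 2)) := by
    intro i
    rcases x with t | w
    · exact hf (t, i) (by simp [touched, hx])
    · obtain ⟨t, rfl⟩ := (T.m i).surjective w
      have h := hf (t, i) (Finset.mem_filter.2 ⟨Finset.mem_univ _, Or.inr hx⟩)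
      have hs := T.Basic_h26_side t i
      simp only [wh] at hs
      rw [hs.1, hs.2]
      exact h
  have h12 : f (T.cor x 1) = f (T.cor x 2) := by simpa using key 0
  have h20 : f (T.cor x 2) = f (T.cor x 0) := by
    have := key 1
    rwa [show (1 : ZMod 3) + 1 = 2 by decide, show (1 : ZMod 3) + 2 = 0 by decide] at this
  have h0 : ∀ j : ZMod 3, f (T.cor x j) = f (T.cor x 0) := by
    intro j
    have hj : ∀ j : ZMod 3, j = 0 ∨ j = 1 ∨ j = 2 := by decide
    rcases hj j with rfl | rfl | rfl
    · rfl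
    · exact h12.trans h20
    · exact h20
  exact (h0 j).trans (h0 k).symm

theorem conn_of_cut (h3 : T.Cut3) {α : Type} (R : Finset (B ⊕ W)) (hR : R ≠ univ) (f : V → α)
    (κ : α) (hf : ∀ e ∈ T.touched R, f (T.c e.1 (e.2 + 1)) = f (T.c e.1 (e.2 + 2)))
    (hκ : ∀ e ∈ T.cut R, f (T.c e.1 (e.2 + 1)) = κ) : ∀ v ∈ T.VR R, f v = κ := by
  classical
  have hG := T.const_of_edges h3 (fun x => if x ∈ R then f (T.cor x 0) else κ) (by
    rintro ⟨t, i⟩
    have hs := T.Basic_h26_side t i
    by_cases h1 : (Sum.inl t : B ⊕ W) ∈ R <;> by_cases h2 : T.wh (t, i) ∈ R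
    · simp only [h1, h2, if_true]
      rw [T.cor_const R f hf _ h1 0 (i + 1), T.cor_const R f hf _ h2 0 (i + 1), hs.1]
      rfl
    · simp only [h1, h2, if_true, if_false]
      rw [T.cor_const R f hf _ h1 0 (i + 1)]
      exact hκ (t, i) (by simp [cut, h1, h2])
    · simp only [h1, h2, if_true, if_false]
      rw [T.cor_const R f hf _ h2 0 (i + 1), hs.1]
      exact (hκ (t, i) (by simp [cut, h1, h2])).symm
    · simp only [h1, h2, if_false])
  obtain ⟨y, hy⟩ : ∃ y, y ∉ R := by
    by_contra h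
    exact hR (Finset.eq_univ_iff_forall.2 fun y => by_contra fun hy => h ⟨y, hy⟩)
  intro v hv
  simp only [VR, Finset.mem_filter, Finset.mem_univ, true_and] at hv
  obtain ⟨x, hx, j, rfl⟩ := hv
  have := hG x y
  simp only [hx, hy, if_true, if_false] at this
  rw [T.cor_const R f hf x hx j 0, this]

theorem Vall_const (h3 : T.Cut3) {α : Type} (f : V → α)
    (hf : ∀ e : B × ZMod 3, f (T.c e.1 (e.2 + 1)) = f (T.c e.1 (e.2 + 2))) :
    ∀ u ∈ T.Vall, ∀ v ∈ T.Vall, f u = f v := by
  have hf' : ∀ e ∈ T.touched univ, f (T.c e.1 (e.2 + 1)) = f (T.c e.1 (e.2 + 2)) :=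
    fun e _ => hf e
  have hG := T.const_of_edges h3 (fun x => f (T.cor x 0)) (by
    rintro ⟨t, i⟩
    have hs := T.Basic_h26_side t i
    show f (T.cor (Sum.inl t) 0) = f (T.cor (T.wh (t, i)) 0)
    rw [T.cor_const univ f hf' _ (mem_univ _) 0 (i + 1),
      T.cor_const univ f hf' (T.wh (t, i)) (mem_univ _) 0 (i + 1), hs.1]
    rfl)
  intro u hu v hv
  simp only [Vall, Finset.mem_filter, Finset.mem_univ, true_and] at hu hv
  obtain ⟨t, j, rfl⟩ := hu
  obtain ⟨t', j', rfl⟩ := hv
  have h1 := T.cor_const univ f hf' (Sum.inl t) (mem_univ _) j 0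
  have h2 := T.cor_const univ f hf' (Sum.inl t') (mem_univ _) j' 0
  exact h1.trans ((hG (Sum.inl t) (Sum.inl t')).trans h2.symm)

/-- a cut is a cycle mod 2 -/
theorem cut_cycle (R : Finset (B ⊕ W)) (f : V → ZMod 2) :
    ∑ e ∈ T.cut R, (f (T.c e.1 (e.2 + 1)) + f (T.c e.1 (e.2 + 2))) = 0 := by
  classical
  let χ : B ⊕ W → ZMod 2 := fun x => if x ∈ R then 1 else 0
  have h1 : ∑ e ∈ T.cut R, (f (T.c e.1 (e.2 + 1)) + f (T.c e.1 (e.2 + 2)))
      = ∑ e : B × ZMod 3, (χ (Sum.inl e.1) + χ (T.wh e)) *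
          (f (T.c e.1 (e.2 + 1)) + f (T.c e.1 (e.2 + 2))) := by
    rw [cut, Finset.sum_filter]
    refine Finset.sum_congr rfl fun e _ => ?_
    have h11 : (1 : ZMod 2) + 1 = 0 := by decide
    by_cases ha : (Sum.inl e.1 : B ⊕ W) ∈ R <;> by_cases hb : T.wh e ∈ R <;>
      simp [χ, ha, hb, h11]
  have h2 : ∑ e : B × ZMod 3, χ (Sum.inl e.1) *
      (f (T.c e.1 (e.2 + 1)) + f (T.c e.1 (e.2 + 2))) = 0 := by
    rw [Fintype.sum_prod_type]
    refine Finset.sum_eq_zero fun t _ => ?_
    simp only
    rw [← Finset.mul_sum, Basic_h26_sum3 (fun j => f (T.c t j)), mul_zero]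
  have h3 : ∑ e : B × ZMod 3, χ (T.wh e) *
      (f (T.c e.1 (e.2 + 1)) + f (T.c e.1 (e.2 + 2))) = 0 := by
    rw [Fintype.sum_prod_type_right]
    have : ∀ i : ZMod 3, ∑ t : B, χ (T.wh (t, i)) * (f (T.c t (i + 1)) + f (T.c t (i + 2)))
        = ∑ w : W, χ (Sum.inr w) * (f (T.d w (i + 1)) + f (T.d w (i + 2))) := by
      intro i
      refine Fintype.sum_equiv (T.m i) _ _ fun t => ?_
      have hs := T.Basic_h26_side t i
      rw [← hs.1, ← hs.2]
      rfl
    simp only
    rw [Finset.sum_congr rfl fun i _ => this i, Finset.sum_comm]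
    refine Finset.sum_eq_zero fun w _ => ?_
    rw [← Finset.mul_sum, Basic_h26_sum3 (fun j => f (T.d w j)), mul_zero]
  rw [h1]
  simp only [add_mul]
  rw [Finset.sum_add_distrib, h2, h3, add_zero]

theorem card_le_VR (b0 : B) (s : {t : B // t ≠ b0} → ZMod 3) (hs : IsState (T.cp b0) (T.Vp b0) s)
    (R : Finset (B ⊕ W)) (D : Finset {t : B // t ≠ b0})
    (hD : ∀ t ∈ D, T.c t.1 (s t) ∈ T.VR R) : D.card ≤ (T.VR R).card := by
  refine Finset.card_le_card_of_injOn (fun t => T.cp b0 t (s t)) (fun t ht => hD t ht) ?_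
  exact fun a _ b _ h => hs.2 h

theorem card_le_VR_root (b0 : B) (s : {t : B // t ≠ b0} → ZMod 3)
    (hs : IsState (T.cp b0) (T.Vp b0) s)
    (R : Finset (B ⊕ W)) (hb : Sum.inl b0 ∈ R) (D : Finset {t : B // t ≠ b0})
    (hD : ∀ t ∈ D, T.c t.1 (s t) ∈ T.VR R) : D.card + 3 ≤ (T.VR R).card := by
  have hinj : Function.Injective (T.c b0) := fun i j h => T.colour b0 b0 i j h
  have h1 : (D.image (fun t => T.cp b0 t (s t))).card = D.card :=
    Finset.card_image_of_injective _ hs.2
  have h2 : ((univ : Finset (ZMod 3)).image (T.c b0)).card = 3 := by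
    rw [Finset.card_image_of_injective _ hinj, Finset.card_univ, ZMod.card]
  have hdisj : Disjoint (D.image (fun t => T.cp b0 t (s t)))
      ((univ : Finset (ZMod 3)).image (T.c b0)) := by
    rw [Finset.disjoint_left]
    intro v hv hv'
    obtain ⟨t, _, rfl⟩ := Finset.mem_image.1 hv
    obtain ⟨j, _, hj⟩ := Finset.mem_image.1 hv'
    have := hs.1 t
    simp only [Vp, Finset.mem_filter] at this
    exact this.2 j hj
  rw [← h1, ← h2, ← Finset.card_union_of_disjoint hdisj]
  apply Finset.card_le_card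
  intro v hv
  rcases Finset.mem_union.1 hv with hv | hv
  · obtain ⟨t, ht, rfl⟩ := Finset.mem_image.1 hv
    exact hD t ht
  · obtain ⟨j, _, rfl⟩ := Finset.mem_image.1 hv
    simp only [VR, Finset.mem_filter, Finset.mem_univ, true_and]
    exact ⟨Sum.inl b0, hb, j, rfl⟩

theorem parity_edge (μ : B → ZMod 3) (hμ : Function.Bijective (fun t => T.m (μ t) t))
    (f : B ⊕ W → ZMod 2) (t0 : B) (i0 : ZMod 3) (hi0 : i0 ≠ μ t0)
    (hf : ∀ t i, i ≠ μ t → (t, i) ≠ (t0, i0) → f (Sum.inl t) = f (Sum.inr (T.m i t))) :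
    f (Sum.inl t0) = f (Sum.inr (T.m i0 t0)) := by
  set g : B × ZMod 3 → ZMod 2 := fun e => f (Sum.inl e.1) - f (Sum.inr (T.m e.2 e.1)) with hg
  set S : ZMod 2 := ∑ t : B, f (Sum.inl t) - ∑ w : W, f (Sum.inr w) with hS
  have hcol : ∀ i : ZMod 3, ∑ t : B, g (t, i) = S := by
    intro i
    simp only [hg, hS, Finset.sum_sub_distrib]
    congr 1
    exact Equiv.sum_comp (T.m i) (fun w => f (Sum.inr w))
  have hall : ∑ e : B × ZMod 3, g e = S := by
    rw [Fintype.sum_prod_type, Finset.sum_comm]
    simp only [hcol]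
    rw [Finset.sum_const, Finset.card_univ, ZMod.card]
    generalize S = s
    revert s
    decide
  have hmu : ∑ t : B, g (t, μ t) = S := by
    simp only [hg, hS, Finset.sum_sub_distrib]
    congr 1
    exact (Equiv.ofBijective _ hμ).sum_comp (fun w => f (Sum.inr w))
  have hsplit : ∑ e : B × ZMod 3, g e = ∑ t : B, g (t, μ t) + g (t0, i0) := by
    have e1 : ∀ e : B × ZMod 3,
        g e = (if e.2 = μ e.1 then g e else 0) + (if e = (t0, i0) then g e else 0) := by
      rintro ⟨t, i⟩
      by_cases h1 : i = μ t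
      · have h2 : (t, i) ≠ (t0, i0) := by
          intro h
          obtain ⟨ha, hb⟩ := Prod.mk.inj h
          apply hi0
          rw [← hb, ← ha]
          exact h1
        simp [h1] at h2 ⊢
        intro a b
        exact absurd b (h2 a)
      · by_cases h2 : (t, i) = (t0, i0)
        · simp only [h1, if_false, h2, if_true, zero_add]
        · simp only [h1, if_false, h2, zero_add]
          simp only [hg]
          rw [hf t i h1 h2, sub_self]
    rw [Finset.sum_congr rfl (fun e _ => e1 e), Finset.sum_add_distrib]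
    congr 1
    · rw [Fintype.sum_prod_type]
      apply Finset.sum_congr rfl
      intro t _
      simp
    · simp
  have : g (t0, i0) = 0 := by
    have h := hsplit
    rw [hall, hmu] at h
    exact left_eq_add.mp h
  exact sub_eq_zero.mp this

end Tri

end Crest.Agent.R39
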