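import Crest.Agent.R39.Defs

set_option autoImplicit false

namespace Crest.Agent.R39

open Finset Polynomial

variable {P V : Type} [Fintype P] [DecidableEq P]

/-- two triangles share a used corner -/
def relU (c : P → ZMod 3 → V) (u : P → ZMod 3) (t t' : P) : Prop :=
  ∃ j j', j ≠ u t ∧ j' ≠ u t' ∧ c t j = c t' j'

/-- representative of the loop through `t` -/
noncomputable def rep (c : P → ZMod 3 → V) (u : P → ZMod 3) (t : P) : P :=
  Quot.out (Quot.mk (relU c u) t)

/-- the loop with representative `z` (empty if `z` is not a representative) -/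
noncomputable def fib (c : P → ZMod 3 → V) (p : (P → ZMod 3) × (P → ZMod 3)) (z : P) : Finset P :=
  univ.filter (fun t => rep c (uu p.1 p.2) t = z)

/-- swap the two states on the loops whose representative is in `J` -/
noncomputable def swp (c : P → ZMod 3 → V) (J : Finset P) (p : (P → ZMod 3) × (P → ZMod 3)) :
    (P → ZMod 3) × (P → ZMod 3) :=
  (fun t => if rep c (uu p.1 p.2) t ∈ J then p.2 t else p.1 t,
   fun t => if rep c (uu p.1 p.2) t ∈ J then p.1 t else p.2 t)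

open Classical in
noncomputable def Pairs (c : P → ZMod 3 → V) (V' : Finset V) :
    Finset ((P → ZMod 3) × (P → ZMod 3)) :=
  univ.filter (fun p => IsState c V' p.1 ∧ IsState c V' p.2 ∧ ∀ t, p.1 t ≠ p.2 t)

theorem mem_Pairs (c : P → ZMod 3 → V) (V' : Finset V) (p : (P → ZMod 3) × (P → ZMod 3)) :
    p ∈ Pairs c V' ↔ IsState c V' p.1 ∧ IsState c V' p.2 ∧ ∀ t, p.1 t ≠ p.2 t := by
  simp [Pairs]

noncomputable def wt (lam : P → ZMod 3 → ℝ) (t : P) (a b : ZMod 3) : ℝ[X] :=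
  C ((eps (a - b) : ℤ) : ℝ) * (1 + C (lam t b) * X)

/-- the sign of the lowest coefficient for `k` loops on `n` triangles -/
noncomputable def tau (n k : ℕ) : ℝ := (-1) ^ k * (-1) ^ ((n - 3 * k) / 2)

theorem sum_ne_zero_of_sign {ι : Type} (S : Finset ι) (hS : S.Nonempty) (F : ι → ℝ[X])
    (τ : ℕ → ℝ) (h : ∀ p ∈ S, ∃ (k : ℕ) (g : ℝ[X]), F p = X ^ k * g ∧ 0 < τ k * g.eval 0) :
    ∑ p ∈ S, F p ≠ 0 := by
  classical
  choose! k g hF hpos using h
  obtain ⟨p0, hp0, hmin⟩ := S.exists_min_image k hS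
  intro h0
  have hc : ∑ p ∈ S, τ (k p0) * (F p).coeff (k p0) = 0 := by
    rw [← Finset.mul_sum, ← Polynomial.finset_sum_coeff, h0]
    simp
  have hterm : ∀ p ∈ S, k p = k p0 → 0 < τ (k p0) * (F p).coeff (k p0) := by
    intro p hp hk
    rw [hF p hp, Polynomial.coeff_X_pow_mul', if_pos hk.le, hk, Nat.sub_self,
      Polynomial.coeff_zero_eq_eval_zero]
    have := hpos p hp
    rwa [hk] at this
  have hnn : ∀ p ∈ S, 0 ≤ τ (k p0) * (F p).coeff (k p0) := by
    intro p hp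
    by_cases hk : k p = k p0
    · exact (hterm p hp hk).le
    · have h1 := hmin p hp
      rw [hF p hp, Polynomial.coeff_X_pow_mul', if_neg (by omega), mul_zero]
  have := Finset.sum_pos' hnn ⟨p0, hp0, hterm p0 hp0 rfl⟩
  linarith

theorem ClaimA_h2_ne_uu {a b : ZMod 3} (h : a ≠ b) : a ≠ -(a + b) ∧ b ≠ -(a + b) := by
  revert a b; decide

theorem ClaimA_h2_cases {a b j : ZMod 3} (h : a ≠ b) (hj : j ≠ -(a + b)) : j = a ∨ j = b := by
  revert a b j; decide

omit [Fintype P] [DecidableEq P] in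
theorem ClaimA_h2_rep_eq_iff (c : P → ZMod 3 → V) (u : P → ZMod 3) (t t' : P) :
    rep c u t = rep c u t' ↔ Quot.mk (relU c u) t = Quot.mk (relU c u) t' := by
  constructor
  · intro h
    have h1 := Quot.out_eq (Quot.mk (relU c u) t)
    have h2 := Quot.out_eq (Quot.mk (relU c u) t')
    unfold rep at h
    rw [← h1, ← h2, h]
  · intro h
    unfold rep
    rw [h]

omit [Fintype P] [DecidableEq P] in
theorem ClaimA_h2_rep_eq (c : P → ZMod 3 → V) (u : P → ZMod 3) (t t' : P) (h : relU c u t t') :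
    rep c u t = rep c u t' :=
  (ClaimA_h2_rep_eq_iff c u t t').2 (Quot.sound h)

omit [Fintype P] in
theorem ClaimA_h2_uu_swp (c : P → ZMod 3 → V) (J : Finset P) (p : (P → ZMod 3) × (P → ZMod 3)) :
    uu (swp c J p).1 (swp c J p).2 = uu p.1 p.2 := by
  funext t
  simp only [uu, swp]
  split_ifs
  · rw [add_comm]
  · rfl

theorem isLoop_fib (c : P → ZMod 3 → V) (V' : Finset V) (p : (P → ZMod 3) × (P → ZMod 3))
    (hp : p ∈ Pairs c V') (z : P) (hz : (fib c p z).Nonempty) : IsLoop c p.1 p.2 (fib c p z) := by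
  rw [mem_Pairs] at hp
  obtain ⟨hr, hs, hne⟩ := hp
  refine ⟨hz, ?_, ?_⟩
  · intro t t' h
    have : rep c (uu p.1 p.2) t = rep c (uu p.1 p.2) t' :=
      ClaimA_h2_rep_eq c _ t t' ⟨p.1 t, p.2 t', (ClaimA_h2_ne_uu (hne t)).1,
        (ClaimA_h2_ne_uu (hne t')).2, h⟩
    simp only [fib, mem_filter, mem_univ, true_and, this]
  · intro f hf t ht t' ht'
    simp only [fib, mem_filter, mem_univ, true_and] at ht ht'
    have hq := (ClaimA_h2_rep_eq_iff c _ t t').1 (ht.trans ht'.symm)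
    have hrel : ∀ a b, relU c (uu p.1 p.2) a b → f a = f b := by
      rintro a b ⟨j, j', hj, hj', h⟩
      rcases ClaimA_h2_cases (hne a) hj with rfl | rfl <;>
        rcases ClaimA_h2_cases (hne b) hj' with rfl | rfl
      · rw [hr.2 h]
      · exact hf a b h
      · exact (hf b a h.symm).symm
      · rw [hs.2 h]
    exact congrArg (Quot.lift f hrel) hq

theorem swp_swp (c : P → ZMod 3 → V) (J : Finset P) (p : (P → ZMod 3) × (P → ZMod 3)) :
    swp c J (swp c J p) = p := by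
  have h := ClaimA_h2_uu_swp c J p
  refine Prod.ext ?_ ?_
  · funext t
    show (if rep c (uu (swp c J p).1 (swp c J p).2) t ∈ J then (swp c J p).2 t
      else (swp c J p).1 t) = p.1 t
    rw [h]
    simp only [swp]
    split_ifs <;> rfl
  · funext t
    show (if rep c (uu (swp c J p).1 (swp c J p).2) t ∈ J then (swp c J p).1 t
      else (swp c J p).2 t) = p.2 t
    rw [h]
    simp only [swp]
    split_ifs <;> rfl

theorem swp_mem (c : P → ZMod 3 → V) (V' : Finset V) (J : Finset P)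
    (p : (P → ZMod 3) × (P → ZMod 3)) (hp : p ∈ Pairs c V') : swp c J p ∈ Pairs c V' := by
  rw [mem_Pairs] at hp ⊢
  obtain ⟨hr, hs, hne⟩ := hp
  have key : ∀ (a b : P → ZMod 3), IsState c V' a → IsState c V' b →
      (∀ t, a t ≠ uu p.1 p.2 t) → (∀ t, b t ≠ uu p.1 p.2 t) →
      IsState c V' (fun t => if rep c (uu p.1 p.2) t ∈ J then a t else b t) := by
    intro a b ha hb hau hbu
    refine ⟨fun t => ?_, fun t t' h => ?_⟩
    · by_cases ht : rep c (uu p.1 p.2) t ∈ J
      · simp only [ht, if_true]; exact ha.1 t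
      · simp only [ht, if_false]; exact hb.1 t
    · have hrep : rep c (uu p.1 p.2) t = rep c (uu p.1 p.2) t' := by
        refine ClaimA_h2_rep_eq c _ t t' ⟨_, _, ?_, ?_, h⟩
        · beta_reduce
          split_ifs
          · exact hau t
          · exact hbu t
        · beta_reduce
          split_ifs
          · exact hau t'
          · exact hbu t'
      by_cases ht : rep c (uu p.1 p.2) t ∈ J
      · have ht' : rep c (uu p.1 p.2) t' ∈ J := hrep ▸ ht
        simp only [ht, ht', if_true] at h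
        exact ha.2 h
      · have ht' : rep c (uu p.1 p.2) t' ∉ J := hrep ▸ ht
        simp only [ht, ht', if_false] at h
        exact hb.2 h
  have h1 : ∀ t, p.1 t ≠ uu p.1 p.2 t := fun t => (ClaimA_h2_ne_uu (hne t)).1
  have h2 : ∀ t, p.2 t ≠ uu p.1 p.2 t := fun t => (ClaimA_h2_ne_uu (hne t)).2
  refine ⟨key p.2 p.1 hs hr h2 h1, key p.1 p.2 hr hs h1 h2, fun t => ?_⟩
  simp only [swp]
  split_ifs
  · exact (hne t).symm
  · exact hne t

theorem sum_swp (c : P → ZMod 3 → V) (lam : P → ZMod 3 → ℝ) (p : (P → ZMod 3) × (P → ZMod 3)) :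
    ∑ J : Finset P, ∏ t, wt lam t ((swp c J p).1 t) ((swp c J p).2 t)
      = ∏ z, (∏ t ∈ fib c p z, wt lam t (p.2 t) (p.1 t)
          + ∏ t ∈ fib c p z, wt lam t (p.1 t) (p.2 t)) := by
  rw [Fintype.prod_add]
  refine Finset.sum_congr rfl (fun J _ => ?_)
  have h1 : ∏ t, wt lam t ((swp c J p).1 t) ((swp c J p).2 t)
      = ∏ z, ∏ t ∈ fib c p z, wt lam t ((swp c J p).1 t) ((swp c J p).2 t) :=
    (Finset.prod_fiberwise univ (fun t => rep c (uu p.1 p.2) t)
      (fun t => wt lam t ((swp c J p).1 t) ((swp c J p).2 t))).symm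
  rw [h1, ← Finset.prod_mul_prod_compl J]
  congr 1
  · refine Finset.prod_congr rfl (fun z hz => Finset.prod_congr rfl (fun t ht => ?_))
    have hr : rep c (uu p.1 p.2) t = z := (Finset.mem_filter.mp ht).2
    have hm : rep c (uu p.1 p.2) t ∈ J := hr ▸ hz
    simp only [swp, if_pos hm]
  · refine Finset.prod_congr rfl (fun z hz => Finset.prod_congr rfl (fun t ht => ?_))
    have hr : rep c (uu p.1 p.2) t = z := (Finset.mem_filter.mp ht).2
    have hm : rep c (uu p.1 p.2) t ∉ J := by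
      rw [hr]; exact Finset.mem_compl.mp hz
    simp only [swp, if_neg hm]

theorem ClaimA_h21_eps_neg (a b : ZMod 3) : eps (b - a) = -eps (a - b) := by
  revert a b
  decide

omit [Fintype P] in
theorem ClaimA_h21_prod (a : P → ℝ) (γ : Finset P) :
    ∃ h : ℝ[X], ∏ t ∈ γ, (1 + C (a t) * X) = 1 + X * h ∧ h.eval 0 = ∑ t ∈ γ, a t := by
  induction γ using Finset.induction_on with
  | empty => exact ⟨0, by simp, by simp⟩
  | insert x s hx ih =>
    obtain ⟨h, h1, h2⟩ := ih
    refine ⟨C (a x) + h + C (a x) * X * h, ?_, ?_⟩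
    · rw [Finset.prod_insert hx, h1]; ring
    · rw [Finset.sum_insert hx, ← h2]; simp

theorem loop_factor (lam : P → ZMod 3 → ℝ) (r s : P → ZMod 3) (γ : Finset P) (hodd : Odd γ.card) :
    ∃ g : ℝ[X], ∏ t ∈ γ, wt lam t (s t) (r t) + ∏ t ∈ γ, wt lam t (r t) (s t) = X * g ∧
      g.eval 0 = -((∏ t ∈ γ, (eps (r t - s t) : ℝ)) * ∑ t ∈ γ, (lam t (r t) - lam t (s t))) := by
  obtain ⟨h1, e1, v1⟩ := ClaimA_h21_prod (fun t => lam t (r t)) γ
  obtain ⟨h2, e2, v2⟩ := ClaimA_h21_prod (fun t => lam t (s t)) γ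
  have hE : ∏ t ∈ γ, ((eps (s t - r t) : ℤ) : ℝ) = -∏ t ∈ γ, ((eps (r t - s t) : ℤ) : ℝ) := by
    have : ∀ t ∈ γ, ((eps (s t - r t) : ℤ) : ℝ) = (-1) * ((eps (r t - s t) : ℤ) : ℝ) := by
      intro t _
      rw [ClaimA_h21_eps_neg (r t) (s t)]
      push_cast
      ring
    rw [Finset.prod_congr rfl this, Finset.prod_mul_distrib, Finset.prod_const, hodd.neg_one_pow]
    ring
  refine ⟨C (∏ t ∈ γ, ((eps (r t - s t) : ℤ) : ℝ)) * (h2 - h1), ?_, ?_⟩
  · simp only [wt]
    rw [Finset.prod_mul_distrib, Finset.prod_mul_distrib, e1, e2, ← map_prod, ← map_prod, hE,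
      map_neg]
    ring
  · rw [Polynomial.eval_mul, Polynomial.eval_C, Polynomial.eval_sub, v1, v2, Finset.sum_sub_distrib]
    ring

theorem pair_factor (c : P → ZMod 3 → V) (V' : Finset V) (lam : P → ZMod 3 → ℝ)
    (hL : LoopSign c V' lam) (p : (P → ZMod 3) × (P → ZMod 3)) (hp : p ∈ Pairs c V') :
    ∃ (k : ℕ) (g : ℝ[X]), ∏ z, (∏ t ∈ fib c p z, wt lam t (p.2 t) (p.1 t)
          + ∏ t ∈ fib c p z, wt lam t (p.1 t) (p.2 t)) = X ^ k * g ∧
      0 < tau (Fintype.card P) k * g.eval 0 := by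
  have hp' := (mem_Pairs c V' p).mp hp
  have key : ∀ z, ∃ (k a : ℕ) (g : ℝ[X]),
      ∏ t ∈ fib c p z, wt lam t (p.2 t) (p.1 t) + ∏ t ∈ fib c p z, wt lam t (p.1 t) (p.2 t)
        = X ^ k * g ∧ (fib c p z).card = 2 * a + 3 * k ∧
        0 < (-1 : ℝ) ^ k * (-1 : ℝ) ^ a * g.eval 0 := by
    intro z
    rcases (fib c p z).eq_empty_or_nonempty with h0 | h0
    · refine ⟨0, 0, 1 + 1, ?_, ?_, ?_⟩
      · rw [h0]; simp
      · rw [h0]; simp
      · simp
    · obtain ⟨a, ha, hpos⟩ := hL p.1 p.2 hp'.1 hp'.2.1 hp'.2.2 _ (isLoop_fib c V' p hp z h0)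
      have hodd : Odd (fib c p z).card := ⟨a + 1, by rw [ha]; ring⟩
      obtain ⟨g, hg, hg0⟩ := loop_factor lam p.1 p.2 (fib c p z) hodd
      refine ⟨1, a, g, by rw [hg, pow_one], by rw [ha], ?_⟩
      rw [hg0]
      have : (-1 : ℝ) ^ 1 * (-1 : ℝ) ^ a *
          -((∏ t ∈ fib c p z, (eps (p.1 t - p.2 t) : ℝ)) *
            ∑ t ∈ fib c p z, (lam t (p.1 t) - lam t (p.2 t)))
          = (-1 : ℝ) ^ a * ((∏ t ∈ fib c p z, (eps (p.1 t - p.2 t) : ℝ)) *
            ∑ t ∈ fib c p z, (lam t (p.1 t) - lam t (p.2 t))) := by ring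
      rw [this]
      exact hpos
  choose k a g hfac hcard hpos using key
  refine ⟨∑ z, k z, ∏ z, g z, ?_, ?_⟩
  · rw [Finset.prod_congr rfl (fun z _ => hfac z), Finset.prod_mul_distrib,
      Finset.prod_pow_eq_pow_sum]
  · have hc : Fintype.card P = 2 * ∑ z, a z + 3 * ∑ z, k z := by
      have h1 : (univ : Finset P).card = ∑ z, (fib c p z).card :=
        Finset.card_eq_sum_card_fiberwise (f := fun t => rep c (uu p.1 p.2) t)
          (fun t _ => Finset.mem_coe.mpr (Finset.mem_univ _))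
      rw [← Finset.card_univ, h1, Finset.sum_congr rfl (fun z _ => hcard z),
        Finset.sum_add_distrib, ← Finset.mul_sum, ← Finset.mul_sum]
    have hd : (Fintype.card P - 3 * ∑ z, k z) / 2 = ∑ z, a z := by omega
    have hall : 0 < ∏ z, ((-1 : ℝ) ^ k z * (-1 : ℝ) ^ a z * (g z).eval 0) :=
      Finset.prod_pos (fun z _ => hpos z)
    rw [Finset.prod_mul_distrib, Finset.prod_mul_distrib, Finset.prod_pow_eq_pow_sum,
      Finset.prod_pow_eq_pow_sum] at hall
    rw [tau, hd, Polynomial.eval_prod]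
    exact hall

theorem pairs_sum_ne_zero (c : P → ZMod 3 → V) (V' : Finset V) (lam : P → ZMod 3 → ℝ)
    (hL : LoopSign c V' lam) (hex : (Pairs c V').Nonempty) :
    ∑ p ∈ Pairs c V', ∏ t, wt lam t (p.1 t) (p.2 t) ≠ 0 := by
  classical
  intro h0
  have hJ : ∀ J : Finset P, ∑ p ∈ Pairs c V', ∏ t, wt lam t ((swp c J p).1 t) ((swp c J p).2 t)
      = ∑ p ∈ Pairs c V', ∏ t, wt lam t (p.1 t) (p.2 t) := fun J =>
    Finset.sum_nbij' (swp c J) (swp c J) (fun p hp => swp_mem c V' J p hp)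
      (fun p hp => swp_mem c V' J p hp) (fun p _ => swp_swp c J p) (fun p _ => swp_swp c J p)
      (fun _ _ => rfl)
  have h1 : ∑ p ∈ Pairs c V', ∑ J : Finset P,
      ∏ t, wt lam t ((swp c J p).1 t) ((swp c J p).2 t) = 0 := by
    rw [Finset.sum_comm]
    exact Finset.sum_eq_zero fun J _ => (hJ J).trans h0
  refine sum_ne_zero_of_sign (Pairs c V') hex _ (tau (Fintype.card P)) (fun p hp => ?_) h1
  rw [sum_swp]
  exact pair_factor c V' lam hL p hp

theorem claimA (c : P → ZMod 3 → V) (V' : Finset V) (lam : P → ZMod 3 → ℝ)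
    (hL : LoopSign c V' lam)
    (hex : ∃ r s, IsState c V' r ∧ IsState c V' s ∧ ∀ t, r t ≠ s t) :
    ∃ s, IsState c V' s ∧ ∑ r ∈ States c V', ∏ t, eps (r t - s t) ≠ 0 := by
  classical
  by_contra hno
  push Not at hno
  obtain ⟨r0, s0, hr0, hs0, hrs0⟩ := hex
  apply pairs_sum_ne_zero c V' lam hL ⟨(r0, s0), (mem_Pairs c V' _).2 ⟨hr0, hs0, hrs0⟩⟩
  have h1 : ∑ p ∈ Pairs c V', ∏ t, wt lam t (p.1 t) (p.2 t)
      = ∑ p ∈ States c V' ×ˢ States c V', ∏ t, wt lam t (p.1 t) (p.2 t) := by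
    apply Finset.sum_subset
    · intro p hp
      rw [mem_Pairs] at hp
      exact Finset.mem_product.2 ⟨(mem_States _ _ _).2 hp.1, (mem_States _ _ _).2 hp.2.1⟩
    · intro p hp hnp
      rw [Finset.mem_product, mem_States, mem_States] at hp
      rw [mem_Pairs] at hnp
      have : ∃ t, p.1 t = p.2 t := by
        by_contra hc
        push Not at hc
        exact hnp ⟨hp.1, hp.2, hc⟩
      obtain ⟨t, ht⟩ := this
      exact Finset.prod_eq_zero (Finset.mem_univ t) (by simp [wt, eps, ht])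
  rw [h1, Finset.sum_product_right]
  refine Finset.sum_eq_zero fun s hs => ?_
  have h2 := hno s ((mem_States _ _ _).1 hs)
  have h3 : ∀ r : P → ZMod 3, ∏ t, wt lam t (r t) (s t)
      = C (((∏ t, eps (r t - s t) : ℤ)) : ℝ) * ∏ t, (1 + C (lam t (s t)) * X) := by
    intro r
    simp only [wt, Finset.prod_mul_distrib, Int.cast_prod, map_prod]
  simp only [h3]
  rw [← Finset.sum_mul, ← map_sum, ← Int.cast_sum, h2]
  simp

end Crest.Agent.R39
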