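import Mathlib

set_option autoImplicit false

namespace Crest.Agent.R39

open Matrix Module

section
variable {K C0 C1 C2 : Type} [Field K] [Fintype C0] [Fintype C1] [Fintype C2]

omit [Fintype C0] in
theorem LinAlg_h10_rank_null (A : Matrix C0 C1 K) :
    A.rank + finrank K (LinearMap.ker A.mulVecLin) = Fintype.card C1 := by
  have := LinearMap.finrank_range_add_finrank_ker A.mulVecLin
  rw [Module.finrank_fintype_fun_eq_card] at this
  exact this

theorem euler_ineq (D1 : Matrix C0 C1 K) (D2 : Matrix C1 C2 K) (h : D1 * D2 = 0) :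
    Fintype.card C2 + Fintype.card C0 ≤ Fintype.card C1
      + finrank K (LinearMap.ker D2.mulVecLin) + finrank K (LinearMap.ker D1ᵀ.mulVecLin) := by
  have h1 := Matrix.rank_add_rank_le_card_of_mul_eq_zero h
  have h2 := LinAlg_h10_rank_null D2
  have h3 := LinAlg_h10_rank_null D1ᵀ
  rw [Matrix.rank_transpose] at h3
  omega

theorem exact_of_euler (D1 : Matrix C0 C1 K) (D2 : Matrix C1 C2 K) (h : D1 * D2 = 0)
    (h2 : finrank K (LinearMap.ker D2.mulVecLin) ≤ 1)
    (h0 : finrank K (LinearMap.ker D1ᵀ.mulVecLin) ≤ 1)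
    (hc : Fintype.card C1 + 2 ≤ Fintype.card C2 + Fintype.card C0)
    (z : C1 → K) (hz : D1 *ᵥ z = 0) : ∃ y, D2 *ᵥ y = z := by
  have a1 := LinAlg_h10_rank_null D1
  have a2 := LinAlg_h10_rank_null D2
  have a3 := LinAlg_h10_rank_null D1ᵀ
  rw [Matrix.rank_transpose] at a3
  have hle : LinearMap.range D2.mulVecLin ≤ LinearMap.ker D1.mulVecLin := by
    rintro _ ⟨y, rfl⟩
    simp only [LinearMap.mem_ker, Matrix.mulVecLin_apply, Matrix.mulVec_mulVec, h,
      Matrix.zero_mulVec]
  have hr : finrank K (LinearMap.range D2.mulVecLin) = D2.rank := rfl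
  have heq : LinearMap.range D2.mulVecLin = LinearMap.ker D1.mulVecLin :=
    Submodule.eq_of_le_of_finrank_le hle (by rw [hr]; omega)
  have hz' : z ∈ LinearMap.range D2.mulVecLin := by
    rw [heq]; simpa using hz
  obtain ⟨y, hy⟩ := hz'
  exact ⟨y, by simpa using hy⟩

theorem fredholm (A : Matrix C0 C1 K) (y : C0 → K)
    (h : ∀ z : C0 → K, z ᵥ* A = 0 → z ⬝ᵥ y = 0) : ∃ x, A *ᵥ x = y := by
  classical
  by_contra hne
  have hy : y ∉ LinearMap.range A.mulVecLin := by
    rintro ⟨x, hx⟩
    exact hne ⟨x, by simpa using hx⟩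
  obtain ⟨φ, hφ, hφS⟩ := Submodule.exists_le_ker_of_notMem hy
  have hrep : ∀ v : C0 → K, (fun i => φ (Pi.single i 1)) ⬝ᵥ v = φ v := by
    intro v
    have hv : v = ∑ i, v i • (Pi.single i (1 : K) : C0 → K) := by
      ext j
      simp [Finset.sum_apply, Pi.single_apply]
    conv_rhs => rw [hv]
    rw [map_sum]
    simp [dotProduct, mul_comm]
  apply hφ
  rw [← hrep]
  apply h
  ext j
  have h1 : φ (A *ᵥ (Pi.single j 1)) = 0 := hφS ⟨Pi.single j 1, rfl⟩
  rw [← hrep, Matrix.dotProduct_mulVec] at h1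
  simpa using h1

theorem finrank_le_one_of (S : Submodule K (C0 → K)) (y0 : C0 → K)
    (h : ∀ y ∈ S, ∃ a : K, y = a • y0) : finrank K S ≤ 1 := by
  have hle : S ≤ Submodule.span K {y0} := by
    intro y hy
    obtain ⟨a, rfl⟩ := h y hy
    exact Submodule.smul_mem _ _ (Submodule.mem_span_singleton_self y0)
  refine (Submodule.finrank_mono hle).trans ?_
  simpa using finrank_span_le_card (R := K) ({y0} : Set (C0 → K))

theorem finrank_le_card_of_rep [DecidableEq C0] (S : Submodule K (C0 → K)) (rep : C0 → C0)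
    (h : ∀ y ∈ S, ∀ x, y x = y (rep x)) : finrank K S ≤ (Finset.univ.image rep).card := by
  let f : S →ₗ[K] ((Finset.univ.image rep) → K) :=
    { toFun := fun y x => (y : C0 → K) x
      map_add' := fun a b => rfl
      map_smul' := fun a b => rfl }
  have hf : Function.Injective f := by
    intro a b hab
    ext x
    rw [h a a.2 x, h b b.2 x]
    exact congrFun hab ⟨rep x, Finset.mem_image_of_mem _ (Finset.mem_univ x)⟩
  have := LinearMap.finrank_le_finrank_of_injective hf
  rwa [Module.finrank_fintype_fun_eq_card, Fintype.card_coe] at this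

end

end Crest.Agent.R39
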