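import Crest.Agent.R39.Defs
import Crest.Agent.R39.LinAlg

set_option autoImplicit false

namespace Crest.Agent.R39

open Finset

variable {P V : Type} [Fintype P] [DecidableEq P] [Fintype V] [DecidableEq V]

def flipOn (s : P → ZMod 3) (C : Finset P) (r : P → ZMod 3) : P → ZMod 3 :=
  fun t => if t ∈ C then uu r s t else r t

/-- the sides `(t, s t)`, `t ∈ C`, have even degree at every vertex of `V'` -/
def EvenOn (c : P → ZMod 3 → V) (V' : Finset V) (s : P → ZMod 3) (C : Finset P) : Prop :=
  ∀ v ∈ V', ∑ t ∈ C, ((if c t (s t + 1) = v then 1 else 0) + (if c t (s t + 2) = v then 1 else 0)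
    : ZMod 2) = 0

theorem flip_state (c : P → ZMod 3 → V) (V' : Finset V) (s : P → ZMod 3) (C : Finset P)
    (hC : EvenOn c V' s C) (r : P → ZMod 3) (hr : IsState c V' r) (hrs : ∀ t, r t ≠ s t) :
    IsState c V' (flipOn s C r) := by
  classical
  have key : ∀ (a b : ZMod 3), a ≠ b →
      (b + 1 = a ∧ b + 2 = -(a + b)) ∨ (b + 2 = a ∧ b + 1 = -(a + b)) := by decide
  have hsub : C.image (fun t => c t (r t)) ⊆ C.image (fun t => c t (uu r s t)) := by
    intro v hv
    obtain ⟨t0, ht0, rfl⟩ := Finset.mem_image.mp hv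
    by_contra hno
    have h0 := hC _ (hr.1 t0)
    have h1 : ∀ t ∈ C, ((if c t (s t + 1) = c t0 (r t0) then 1 else 0) +
        (if c t (s t + 2) = c t0 (r t0) then 1 else 0) : ZMod 2) = if t = t0 then 1 else 0 := by
      intro t ht
      have hu : c t (uu r s t) ≠ c t0 (r t0) := fun h =>
        hno (Finset.mem_image.mpr ⟨t, ht, h⟩)
      have hr' : (c t (r t) = c t0 (r t0)) ↔ t = t0 :=
        ⟨fun h => hr.2 h, fun h => by rw [h]⟩
      unfold uu at hu
      rcases key (r t) (s t) (hrs t) with ⟨h1, h2⟩ | ⟨h1, h2⟩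
      · rw [h1, h2, if_neg hu, add_zero]
        exact if_congr hr' rfl rfl
      · rw [h1, h2, if_neg hu, zero_add]
        exact if_congr hr' rfl rfl
    rw [Finset.sum_congr rfl h1, Finset.sum_ite_eq' C t0, if_pos ht0] at h0
    exact one_ne_zero h0
  have hcard : (C.image (fun t => c t (r t))).card = C.card :=
    Finset.card_image_of_injective C hr.2
  have hle : (C.image (fun t => c t (uu r s t))).card ≤ C.card := Finset.card_image_le
  have heq : C.image (fun t => c t (r t)) = C.image (fun t => c t (uu r s t)) :=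
    Finset.eq_of_subset_of_card_le hsub (by omega)
  have hinj : Set.InjOn (fun t => c t (uu r s t)) (C : Set P) :=
    Finset.card_image_iff.mp (by rw [← heq, hcard])
  have hex : ∀ t ∈ C, ∃ t' ∈ C, c t' (r t') = c t (uu r s t) := by
    intro t ht
    have : c t (uu r s t) ∈ C.image (fun t => c t (r t)) := by
      rw [heq]; exact Finset.mem_image.mpr ⟨t, ht, rfl⟩
    exact Finset.mem_image.mp this
  refine ⟨fun t => ?_, fun t t' h => ?_⟩
  · by_cases ht : t ∈ C
    · obtain ⟨t', -, h⟩ := hex t ht
      simp only [flipOn, if_pos ht]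
      rw [← h]; exact hr.1 t'
    · simp only [flipOn, if_neg ht]
      exact hr.1 t
  · by_cases ht : t ∈ C <;> by_cases ht' : t' ∈ C
    · simp only [flipOn, if_pos ht, if_pos ht'] at h
      exact hinj ht ht' h
    · simp only [flipOn, if_pos ht, if_neg ht'] at h
      obtain ⟨t'', h1, h2⟩ := hex t ht
      have : t'' = t' := hr.2 (h2.trans h)
      exact absurd (this ▸ h1) ht'
    · simp only [flipOn, if_neg ht, if_pos ht'] at h
      obtain ⟨t'', h1, h2⟩ := hex t' ht'
      have : t'' = t := hr.2 (h2.trans h.symm)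
      exact absurd (this ▸ h1) ht
    · simp only [flipOn, if_neg ht, if_neg ht'] at h
      exact hr.2 h

theorem claimB_h28_z3 (a b : ZMod 3) (h : a ≠ b) :
    -(a + b) ≠ b ∧ -(-(a + b) + b) = a ∧ eps (-(a + b) - b) = -eps (a - b) ∧ -(a + b) ≠ a ∧
      ((a = b + 1 ∧ -(a + b) = b + 2) ∨ (a = b + 2 ∧ -(a + b) = b + 1)) := by
  revert a b
  decide

theorem claimB_h28_z2 (a : ZMod 2) : (a ≠ 0 → a = 1) := by
  revert a
  decide

theorem claimB_h28_ne (a b ka kb : ZMod 2) (h : a + b = 1 + ka + kb) : a + ka ≠ b + kb := by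
  revert a b ka kb
  decide

theorem claimB_h28_sum_ite {α : Type} [DecidableEq α] (S : Finset α) (y : S → ZMod 2) (a : α) :
    ∑ x : S, (if a = x.1 then (1 : ZMod 2) else 0) * y x = if h : a ∈ S then y ⟨a, h⟩ else 0 := by
  split_ifs with h
  · rw [Finset.sum_eq_single (⟨a, h⟩ : S)]
    · simp
    · intro b _ hb
      have : a ≠ b.1 := fun hh => hb (Subtype.ext hh.symm)
      simp [this]
    · simp
  · apply Finset.sum_eq_zero
    intro x _
    have : a ≠ x.1 := fun hh => h (hh ▸ x.2)
    simp [this]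

theorem sum_zero_of_odd (c : P → ZMod 3 → V) (V' : Finset V) (s : P → ZMod 3) (C : Finset P)
    (hC : EvenOn c V' s C) (hodd : Odd C.card) :
    ∑ r ∈ States c V', ∏ t, eps (r t - s t) = 0 := by
  classical
  have hflip_ne : ∀ r : P → ZMod 3, (∀ t, r t ≠ s t) → ∀ t, flipOn s C r t ≠ s t := by
    intro r hr t
    unfold flipOn uu
    split_ifs
    · exact (claimB_h28_z3 _ _ (hr t)).1
    · exact hr t
  have hzero : ∀ r : P → ZMod 3, ¬ (∀ t, r t ≠ s t) → ∏ t, eps (r t - s t) = 0 := by
    intro r hr
    push Not at hr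
    obtain ⟨t, ht⟩ := hr
    apply Finset.prod_eq_zero (Finset.mem_univ t)
    simp [ht, eps]
  refine Finset.sum_involution
    (fun r _ => if (∀ t, r t ≠ s t) then flipOn s C r else r) ?_ ?_ ?_ ?_
  · intro r _
    by_cases hr : ∀ t, r t ≠ s t
    · simp only [if_pos hr]
      have h1 : ∏ t, eps (flipOn s C r t - s t)
          = ∏ t, ((if t ∈ C then (-1 : ℤ) else 1) * eps (r t - s t)) := by
        apply Finset.prod_congr rfl
        intro t _
        unfold flipOn uu
        split_ifs
        · rw [(claimB_h28_z3 _ _ (hr t)).2.2.1]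
          ring
        · ring
      rw [h1, Finset.prod_mul_distrib, Finset.prod_ite_mem, Finset.univ_inter, Finset.prod_const,
        hodd.neg_one_pow]
      ring
    · simp only [if_neg hr]
      rw [hzero r hr]
      ring
  · intro r _ hne
    have hr : ∀ t, r t ≠ s t := by
      by_contra hcon
      exact hne (hzero r hcon)
    simp only [if_pos hr]
    obtain ⟨t, ht⟩ : C.Nonempty := Finset.card_pos.mp hodd.pos
    intro heq
    have := congrFun heq t
    simp only [flipOn, uu, if_pos ht] at this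
    exact (claimB_h28_z3 _ _ (hr t)).2.2.2.1 this
  · intro r hrS
    by_cases hr : ∀ t, r t ≠ s t
    · simp only [if_pos hr]
      exact (mem_States _ _ _).mpr (flip_state c V' s C hC r ((mem_States _ _ _).mp hrS) hr)
    · simp only [if_neg hr]
      exact hrS
  · intro r _
    by_cases hr : ∀ t, r t ≠ s t
    · simp only [if_pos hr, if_pos (hflip_ne r hr)]
      funext t
      by_cases ht : t ∈ C
      · simp only [flipOn, uu, if_pos ht]
        exact (claimB_h28_z3 _ _ (hr t)).2.1
      · simp only [flipOn, if_neg ht]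
    · simp only [if_neg hr]

theorem claimB (c : P → ZMod 3 → V) (V' : Finset V) (s : P → ZMod 3)
    (hne : ∑ r ∈ States c V', ∏ t, eps (r t - s t) ≠ 0) (κ0 : V → ZMod 2) :
    ∃ κ : V → ZMod 2, (∀ v, v ∉ V' → κ v = κ0 v) ∧ ∀ t, κ (c t (s t + 1)) ≠ κ (c t (s t + 2)) := by
  classical
  let A : Matrix P V' (ZMod 2) := fun t v =>
    (if c t (s t + 1) = v.1 then (1 : ZMod 2) else 0) + (if c t (s t + 2) = v.1 then 1 else 0)
  let k : V → ZMod 2 := fun v => if v ∈ V' then 0 else κ0 v
  let y : P → ZMod 2 := fun t => 1 + k (c t (s t + 1)) + k (c t (s t + 2))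
  obtain ⟨r, hrS, hr0⟩ := Finset.exists_ne_zero_of_sum_ne_zero hne
  have hr : ∀ t, r t ≠ s t := by
    intro t ht
    apply hr0
    apply Finset.prod_eq_zero (Finset.mem_univ t)
    simp [ht, eps]
  have hrS' := (mem_States _ _ _).mp hrS
  have key : ∀ z : P → ZMod 2, Matrix.vecMul z A = 0 → z ⬝ᵥ y = 0 := by
    intro z hz
    let C : Finset P := univ.filter (fun t => z t ≠ 0)
    have hsum : ∀ g : P → ZMod 2, ∑ t, z t * g t = ∑ t ∈ C, g t := by
      intro g
      rw [Finset.sum_filter]
      apply Finset.sum_congr rfl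
      intro t _
      by_cases h : z t ≠ 0
      · rw [if_pos h, claimB_h28_z2 _ h, one_mul]
      · rw [if_neg h, not_not.mp h, zero_mul]
    have hC : EvenOn c V' s C := by
      intro v hv
      have := congrFun hz ⟨v, hv⟩
      simp only [Matrix.vecMul, dotProduct, Pi.zero_apply] at this
      rw [hsum] at this
      exact this
    have heven : Even C.card := by
      by_contra hcon
      exact hne (sum_zero_of_odd c V' s C hC (Nat.not_even_iff_odd.mp hcon))
    have hfl := flip_state c V' s C hC r hrS' hr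
    have hy : ∀ t ∈ C, y t = 1 := by
      intro t ht
      have h1 := hrS'.1 t
      have h2 := hfl.1 t
      simp only [flipOn, uu, if_pos ht] at h2
      rcases (claimB_h28_z3 _ _ (hr t)).2.2.2.2 with ⟨ha, hb⟩ | ⟨ha, hb⟩
      · rw [hb] at h2
        rw [ha] at h1
        simp [y, k, h1, h2]
      · rw [hb] at h2
        rw [ha] at h1
        simp [y, k, h1, h2]
    show ∑ t, z t * y t = 0
    rw [hsum, Finset.sum_congr rfl hy, Finset.sum_const, nsmul_eq_mul, mul_one]
    exact (ZMod.natCast_eq_zero_iff_even).mpr heven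
  obtain ⟨x, hx⟩ := fredholm A y key
  let xe : V → ZMod 2 := fun v => if h : v ∈ V' then x ⟨v, h⟩ else 0
  refine ⟨fun v => xe v + k v, ?_, ?_⟩
  · intro v hv
    simp [xe, k, hv]
  · intro t
    apply claimB_h28_ne
    have := congrFun hx t
    simp only [Matrix.mulVec, dotProduct, A, add_mul, Finset.sum_add_distrib,
      claimB_h28_sum_ite] at this
    exact this

end Crest.Agent.R39
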