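import Crest.Agent.R39.Euler

set_option autoImplicit false

namespace Crest.Agent.R39

open Finset

namespace Tri

variable {B W V : Type} [Fintype B] [Fintype W] [Fintype V]
  [DecidableEq B] [DecidableEq W] [DecidableEq V] (T : Tri B W V)

theorem exists_mu (b0 : B) (i0 : ZMod 3) (s : {t : B // t ≠ b0} → ZMod 3) (κ : V → ZMod 2)
    (h1 : κ (T.c b0 (i0 + 1)) = κ (T.c b0 (i0 + 2))) (h2 : κ (T.c b0 i0) ≠ κ (T.c b0 (i0 + 1)))
    (hbi : ∀ t, κ (T.cp b0 t (s t + 1)) ≠ κ (T.cp b0 t (s t + 2))) :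
    ∃ μ : B → ZMod 3, μ b0 = i0 ∧ Function.Bijective (fun t => T.m (μ t) t) ∧
      ∀ t : {t : B // t ≠ b0}, s t ≠ μ t.1 := by
  have hex : ∀ g : ZMod 3 → ZMod 2, ∃ i, g (i + 1) = g (i + 2) := by decide
  have huniq : ∀ g : ZMod 3 → ZMod 2, ∀ a b i j : ZMod 3, g a ≠ g b →
      g (i + 1) = g (i + 2) → g (j + 1) = g (j + 2) → i = j := by decide
  have hnc : ∀ t : B, ∃ a b : ZMod 3, κ (T.c t a) ≠ κ (T.c t b) := by
    intro t
    by_cases ht : t = b0
    · subst ht
      exact ⟨_, _, h2⟩
    · exact ⟨_, _, hbi ⟨t, ht⟩⟩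
  choose μ hμ using fun t : B => hex (fun j => κ (T.c t j))
  have hu : ∀ t i, κ (T.c t (i + 1)) = κ (T.c t (i + 2)) → μ t = i := by
    intro t i hi
    obtain ⟨a, b, hab⟩ := hnc t
    exact huniq (fun j => κ (T.c t j)) a b _ _ hab (hμ t) hi
  refine ⟨μ, hu b0 i0 h1, ?_, ?_⟩
  · rw [Fintype.bijective_iff_surjective_and_card]
    refine ⟨fun w => ?_, T.card_W.symm⟩
    obtain ⟨i, hi⟩ := hex (fun j => κ (T.d w j))
    have e1 : ∀ i : ZMod 3, i + 1 ≠ i := by decide
    have e2 : ∀ i : ZMod 3, i + 2 ≠ i := by decide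
    have c1 := T.compat i (i + 1) ((T.m i).symm w) (e1 i)
    have c2 := T.compat i (i + 2) ((T.m i).symm w) (e2 i)
    rw [Equiv.apply_symm_apply] at c1 c2
    have hi' : κ (T.c ((T.m i).symm w) (i + 1)) = κ (T.c ((T.m i).symm w) (i + 2)) := by
      rw [← c1, ← c2]; exact hi
    refine ⟨(T.m i).symm w, ?_⟩
    show T.m (μ ((T.m i).symm w)) ((T.m i).symm w) = w
    rw [hu _ i hi', Equiv.apply_symm_apply]
  · intro t ht
    apply hbi t
    have := hμ t.1
    rw [← ht] at this
    exact this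

theorem nB_eq_nW (μ : B → ZMod 3) (hμ : Function.Bijective (fun t => T.m (μ t) t))
    (R : Finset (B ⊕ W)) (hR : ∀ e ∈ T.cut R, e.2 = μ e.1) : nB R = nW R := by
  have hB := T.card_touched_B R
  have hW := T.card_touched_W R
  have hinj : Function.Injective (fun t : B => (t, μ t)) := fun a b h => congrArg Prod.fst h
  have e1 : T.outB R = (univ.filter (fun t : B =>
      Sum.inl t ∈ R ∧ ¬ Sum.inr (T.m (μ t) t) ∈ R)).image (fun t : B => (t, μ t)) := by
    ext ⟨t, i⟩
    rw [outB, mem_filter]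
    simp only [wh, mem_filter, mem_univ, true_and, mem_image, Prod.mk.injEq]
    constructor
    · rintro ⟨h1, h2⟩
      have : i = μ t := hR (t, i) (by
        rw [cut, mem_filter]
        exact ⟨mem_univ _, fun h => h2 (h.1 h1)⟩)
      subst this
      exact ⟨t, ⟨h1, h2⟩, rfl, rfl⟩
    · rintro ⟨t', h, rfl, rfl⟩
      exact h
  have e2 : T.outW R = (univ.filter (fun t : B =>
      Sum.inr (T.m (μ t) t) ∈ R ∧ ¬ Sum.inl t ∈ R)).image (fun t : B => (t, μ t)) := by
    ext ⟨t, i⟩
    rw [outW, mem_filter]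
    simp only [wh, mem_filter, mem_univ, true_and, mem_image, Prod.mk.injEq]
    constructor
    · rintro ⟨h1, h2⟩
      have : i = μ t := hR (t, i) (by
        rw [cut, mem_filter]
        exact ⟨mem_univ _, fun h => h1 (h.2 h2)⟩)
      subst this
      exact ⟨t, ⟨h2, h1⟩, rfl, rfl⟩
    · rintro ⟨t', h, rfl, rfl⟩
      exact ⟨h.2, h.1⟩
  have e3 : nW R = (univ.filter (fun t : B => Sum.inr (T.m (μ t) t) ∈ R)).card := by
    unfold nW
    symm
    refine Finset.card_bij (fun t _ => T.m (μ t) t) ?_ ?_ ?_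
    · intro t ht
      simpa using ht
    · intro a _ b _ h
      exact hμ.1 h
    · intro w hw
      obtain ⟨t, rfl⟩ := hμ.2 w
      exact ⟨t, by simpa using hw, rfl⟩
  have f1 := Finset.card_filter_add_card_filter_not
    (s := univ.filter (fun t : B => Sum.inl t ∈ R)) (fun t : B => Sum.inr (T.m (μ t) t) ∈ R)
  have f2 := Finset.card_filter_add_card_filter_not
    (s := univ.filter (fun t : B => Sum.inr (T.m (μ t) t) ∈ R)) (fun t : B => Sum.inl t ∈ R)
  rw [Finset.filter_filter, Finset.filter_filter] at f1 f2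
  have f3 : (univ.filter (fun t : B => Sum.inl t ∈ R ∧ Sum.inr (T.m (μ t) t) ∈ R)).card =
      (univ.filter (fun t : B => Sum.inr (T.m (μ t) t) ∈ R ∧ Sum.inl t ∈ R)).card := by
    congr 1
    exact Finset.filter_congr (fun t _ => and_comm)
  have g1 := congrArg Finset.card e1
  have g2 := congrArg Finset.card e2
  rw [Finset.card_image_of_injective _ hinj] at g1 g2
  have hn : nB R = (univ.filter (fun t : B => Sum.inl t ∈ R)).card := rfl
  omega

/-- a region containing the root, cut only by matching edges and satisfying the Euler inequality,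
is everything -/
theorem eq_univ_of_closed (b0 : B) (s : {t : B // t ≠ b0} → ZMod 3)
    (hs : IsState (T.cp b0) (T.Vp b0) s) (μ : B → ZMod 3)
    (hμ : Function.Bijective (fun t => T.m (μ t) t)) (hsμ : ∀ t : {t : B // t ≠ b0}, s t ≠ μ t.1)
    (R : Finset (B ⊕ W)) (hb : Sum.inl b0 ∈ R) (hR : ∀ e ∈ T.cut R, e.2 = μ e.1)
    (hEI : (T.VR R).card + R.card ≤ (T.touched R).card + 1) : False := by
  classical
  let D1 : Finset {t : B // t ≠ b0} := univ.filter (fun t => Sum.inl t.1 ∈ R)
  let D2 : Finset {t : B // t ≠ b0} :=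
    univ.filter (fun t => Sum.inl t.1 ∉ R ∧ T.wh (t.1, μ t.1) ∈ R)
  have hdisj : Disjoint D1 D2 := by
    rw [Finset.disjoint_left]
    intro t h1 h2
    simp only [D1, D2, mem_filter, mem_univ, true_and] at h1 h2
    exact h2.1 h1
  have hD : ∀ t ∈ D1 ∪ D2, T.c t.1 (s t) ∈ T.VR R := by
    intro t ht
    simp only [VR, mem_filter, mem_univ, true_and]
    rcases mem_union.mp ht with h | h
    · simp only [D1, mem_filter, mem_univ, true_and] at h
      exact ⟨Sum.inl t.1, h, s t, rfl⟩
    · simp only [D2, mem_filter, mem_univ, true_and] at h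
      refine ⟨T.wh (t.1, μ t.1), h.2, s t, ?_⟩
      exact T.compat (μ t.1) (s t) t.1 (hsμ t)
  have h1 := T.card_le_VR_root b0 s hs R hb (D1 ∪ D2) hD
  rw [card_union_of_disjoint hdisj] at h1
  have h2 : nB R ≤ D1.card + 1 := by
    have hsub : univ.filter (fun t : B => Sum.inl t ∈ R) ⊆ insert b0 (D1.image Subtype.val) := by
      intro t ht
      simp only [mem_filter, mem_univ, true_and] at ht
      by_cases htb : t = b0
      · rw [htb]; exact mem_insert_self _ _
      · refine mem_insert_of_mem (mem_image.mpr ⟨⟨t, htb⟩, ?_, rfl⟩)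
        simp only [D1, mem_filter, mem_univ, true_and]
        exact ht
    calc nB R ≤ (insert b0 (D1.image Subtype.val)).card := card_le_card hsub
      _ ≤ (D1.image Subtype.val).card + 1 := card_insert_le _ _
      _ ≤ D1.card + 1 := Nat.add_le_add_right card_image_le 1
  have h3 : (T.outW R).card ≤ D2.card := by
    have hsub : T.outW R ⊆ D2.image (fun t => (t.1, μ t.1)) := by
      intro e he
      simp only [outW, mem_filter, mem_univ, true_and] at he
      have hcut : e ∈ T.cut R := by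
        simp only [cut, mem_filter, mem_univ, true_and]
        intro h
        exact he.1 (h.mpr he.2)
      have he2 := hR e hcut
      have hne : e.1 ≠ b0 := by
        intro h
        exact he.1 (h ▸ hb)
      have hee : (e.1, μ e.1) = e := by rw [← he2]
      refine mem_image.mpr ⟨⟨e.1, hne⟩, ?_, hee⟩
      simp only [D2, mem_filter, mem_univ, true_and]
      rw [hee]
      exact he
    exact (card_le_card hsub).trans card_image_le
  have h4 := T.nB_eq_nW μ hμ R hR
  have h5 := T.card_touched_B R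
  have h6 := card_eq_nB_add_nW R
  omega

theorem conn_mu (h3 : T.Cut3) (b0 : B) (s : {t : B // t ≠ b0} → ZMod 3)
    (hs : IsState (T.cp b0) (T.Vp b0) s) (μ : B → ZMod 3)
    (hμ : Function.Bijective (fun t => T.m (μ t) t)) (hsμ : ∀ t : {t : B // t ≠ b0}, s t ≠ μ t.1) :
    T.Good μ := by
  classical
  refine ⟨hμ, ?_⟩
  let rel : B ⊕ W → B ⊕ W → Prop := fun x y => ∃ t i, i ≠ μ t ∧ x = Sum.inl t ∧ y = T.wh (t, i)
  let R : Finset (B ⊕ W) := univ.filter (fun x => Relation.EqvGen rel (Sum.inl b0) x)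
  have hmem : ∀ x, x ∈ R ↔ Relation.EqvGen rel (Sum.inl b0) x := by
    intro x
    simp only [R, mem_filter, mem_univ, true_and]
  have hconst : ∀ {α : Type} (g : B ⊕ W → α), (∀ x y, x ∈ R → y ∈ R → rel x y → g x = g y) →
      ∀ x ∈ R, g x = g (Sum.inl b0) := by
    intro α g hg
    have key : ∀ x y, Relation.EqvGen rel x y → (x ∈ R ↔ y ∈ R) ∧ (x ∈ R → g x = g y) := by
      intro x y h
      induction h with
      | rel x y h =>
        have hiff : x ∈ R ↔ y ∈ R := by
          rw [hmem, hmem]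
          exact ⟨fun hx => Relation.EqvGen.trans _ _ _ hx (Relation.EqvGen.rel _ _ h),
            fun hy => Relation.EqvGen.trans _ _ _ hy
              (Relation.EqvGen.symm _ _ (Relation.EqvGen.rel _ _ h))⟩
        exact ⟨hiff, fun hx => hg x y hx (hiff.mp hx) h⟩
      | refl x => exact ⟨Iff.rfl, fun _ => rfl⟩
      | symm x y _ ih => exact ⟨ih.1.symm, fun hy => (ih.2 (ih.1.mpr hy)).symm⟩
      | trans x y z _ _ ih1 ih2 =>
        exact ⟨ih1.1.trans ih2.1, fun hx => (ih1.2 hx).trans (ih2.2 (ih1.1.mp hx))⟩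
    intro x hx
    have hb : (Sum.inl b0 : B ⊕ W) ∈ R := (hmem _).mpr (Relation.EqvGen.refl _)
    exact ((key _ _ ((hmem x).mp hx)).2 hb).symm
  have hb : (Sum.inl b0 : B ⊕ W) ∈ R := (hmem _).mpr (Relation.EqvGen.refl _)
  have hRu : R = univ := by
    by_contra hne
    have hcut : ∀ e ∈ T.cut R, e.2 = μ e.1 := by
      intro e he
      by_contra hc
      simp only [cut, mem_filter, mem_univ, true_and] at he
      apply he
      have hr : rel (Sum.inl e.1) (T.wh e) := ⟨e.1, e.2, hc, rfl, rfl⟩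
      rw [hmem, hmem]
      exact ⟨fun hx => Relation.EqvGen.trans _ _ _ hx (Relation.EqvGen.rel _ _ hr),
        fun hy => Relation.EqvGen.trans _ _ _ hy
          (Relation.EqvGen.symm _ _ (Relation.EqvGen.rel _ _ hr))⟩
    refine T.eq_univ_of_closed b0 s hs μ hμ hsμ R hb hcut (T.EI h3 R hne ?_)
    intro f hf
    have hc := T.cor_const R f hf
    have hg := hconst (fun x => f (T.cor x 0)) (by
      rintro x y hx hy ⟨t, i, -, rfl, rfl⟩
      have hi : i + 1 ≠ i := by
        intro h
        exact absurd (add_eq_left.mp h) (by decide)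
      show f (T.cor (Sum.inl t) 0) = f (T.cor (T.wh (t, i)) 0)
      rw [hc _ hx 0 (i + 1), hc _ hy 0 (i + 1)]
      congr 1
      exact (T.compat i (i + 1) t hi).symm)
    have hall : ∀ u ∈ T.VR R, f u = f (T.cor (Sum.inl b0) 0) := by
      intro u hu
      simp only [VR, mem_filter, mem_univ, true_and] at hu
      obtain ⟨x, hx, j, rfl⟩ := hu
      rw [hc x hx j 0]
      exact hg x hx
    intro u hu v hv
    rw [hall u hu, hall v hv]
  intro f hf x y
  have hg := hconst f (by
    rintro x y - - ⟨t, i, hi, rfl, rfl⟩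
    exact hf t i hi)
  rw [hg x (hRu ▸ mem_univ x), hg y (hRu ▸ mem_univ y)]

end Tri

end Crest.Agent.R39
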