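import Crest.Agent.R39.Basic
import Crest.Agent.R39.LinAlg

set_option autoImplicit false

namespace Crest.Agent.R39

open Finset Matrix Module

namespace Tri

variable {B W V : Type} [Fintype B] [Fintype W] [Fintype V]
  [DecidableEq B] [DecidableEq W] [DecidableEq V] (T : Tri B W V)

/-- boundary of triangles -/
def h4D2 : Matrix (B × ZMod 3) (B ⊕ W) (ZMod 2) :=
  fun e x => (if x = Sum.inl e.1 then 1 else 0) + (if x = T.wh e then 1 else 0)

/-- boundary of sides -/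
def h4D1 : Matrix T.Vall (B × ZMod 3) (ZMod 2) :=
  fun v e => (if T.c e.1 (e.2 + 1) = v.1 then 1 else 0) + (if T.c e.1 (e.2 + 2) = v.1 then 1 else 0)

theorem h4D2_mulVec (y : B ⊕ W → ZMod 2) (e : B × ZMod 3) :
    (T.h4D2 *ᵥ y) e = y (Sum.inl e.1) + y (T.wh e) := by
  simp [Matrix.mulVec, dotProduct, h4D2, add_mul, Finset.sum_add_distrib]

theorem h4_c_mem (t : B) (j : ZMod 3) : T.c t j ∈ T.Vall := by
  simp only [Vall, mem_filter, mem_univ, true_and]
  exact ⟨t, j, rfl⟩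

theorem h4D1T_mulVec (z : T.Vall → ZMod 2) (e : B × ZMod 3) :
    (T.h4D1ᵀ *ᵥ z) e = z ⟨_, T.h4_c_mem e.1 (e.2 + 1)⟩ + z ⟨_, T.h4_c_mem e.1 (e.2 + 2)⟩ := by
  have h : ∀ (u : V) (hu : u ∈ T.Vall),
      ∑ v : T.Vall, (if u = v.1 then (1 : ZMod 2) else 0) * z v = z ⟨u, hu⟩ := by
    intro u hu
    rw [Finset.sum_eq_single (⟨u, hu⟩ : T.Vall)]
    · simp
    · intro v _ hv
      rw [if_neg (fun h => hv (Subtype.ext h.symm)), zero_mul]
    · simp
  simp only [Matrix.mulVec, dotProduct, Matrix.transpose_apply, h4D1, add_mul,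
    Finset.sum_add_distrib]
  rw [h, h]

theorem h4_zmod2 (a b : ZMod 2) : a + b = if ¬ (a = 1 ↔ b = 1) then 1 else 0 := by
  revert a b; decide

theorem h4_zmod2' (a b : ZMod 2) (h : a + b = 0) : a = b := by
  revert a b; decide

theorem h4D2_cut (y : B ⊕ W → ZMod 2) (e : B × ZMod 3) :
    (T.h4D2 *ᵥ y) e = if e ∈ T.cut (univ.filter (fun x => y x = 1)) then 1 else 0 := by
  rw [h4D2_mulVec, h4_zmod2]
  simp [cut]

theorem h4D1_ind (K : Finset (B × ZMod 3))
    (hK : ∀ f : V → ZMod 2, ∑ e ∈ K, (f (T.c e.1 (e.2 + 1)) + f (T.c e.1 (e.2 + 2))) = 0) :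
    T.h4D1 *ᵥ (fun e => if e ∈ K then 1 else 0) = 0 := by
  funext v
  have := hK (fun u => if u = v.1 then 1 else 0)
  simp only [Matrix.mulVec, dotProduct, h4D1, mul_ite, mul_one, mul_zero, Pi.zero_apply]
  rw [← Finset.sum_filter, Finset.filter_mem_eq_inter, Finset.univ_inter]
  exact this

theorem h4D1_mul_D2 : T.h4D1 * T.h4D2 = 0 := by
  apply Matrix.ext_of_mulVec_single
  intro x
  rw [← Matrix.mulVec_mulVec, Matrix.zero_mulVec]
  have : T.h4D2 *ᵥ (Pi.single x 1) =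
      fun e => if e ∈ T.cut (univ.filter (fun x' => (Pi.single x 1 : B ⊕ W → ZMod 2) x' = 1))
        then 1 else 0 := funext fun e => T.h4D2_cut _ e
  rw [this]
  exact T.h4D1_ind _ (T.cut_cycle _)

theorem h4_ker2 (h3 : T.Cut3) : finrank (ZMod 2) (LinearMap.ker T.h4D2.mulVecLin) ≤ 1 := by
  apply finrank_le_one_of _ (fun _ => 1)
  intro y hy
  have hy' : T.h4D2 *ᵥ y = 0 := hy
  have hc := T.const_of_edges h3 y (fun e => h4_zmod2' _ _ (by
    rw [← h4D2_mulVec, hy']; rfl))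
  by_cases hne : Nonempty (B ⊕ W)
  · obtain ⟨x0⟩ := hne
    exact ⟨y x0, funext fun x => by simpa using hc x x0⟩
  · exact ⟨0, funext fun x => absurd ⟨x⟩ hne⟩

theorem h4_ker0 (h3 : T.Cut3) : finrank (ZMod 2) (LinearMap.ker T.h4D1ᵀ.mulVecLin) ≤ 1 := by
  apply finrank_le_one_of _ (fun _ => 1)
  intro z hz
  have hz' : T.h4D1ᵀ *ᵥ z = 0 := hz
  have hc := T.Vall_const h3 (fun u => if h : u ∈ T.Vall then z ⟨u, h⟩ else 0) (fun e => by
    simp only [dif_pos (T.h4_c_mem e.1 _)]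
    exact h4_zmod2' _ _ (by rw [← h4D1T_mulVec, hz']; rfl))
  by_cases hne : Nonempty T.Vall
  · obtain ⟨x0⟩ := hne
    refine ⟨z x0, funext fun x => ?_⟩
    have := hc x.1 x.2 x0.1 x0.2
    simp only [dif_pos x.2, dif_pos x0.2] at this
    simpa using this
  · exact ⟨0, funext fun x => absurd ⟨x⟩ hne⟩

theorem h4_EI_all (h3 : T.Cut3) : T.Vall.card ≤ Fintype.card B + 2 := by
  have h := euler_ineq T.h4D1 T.h4D2 T.h4D1_mul_D2
  have h2 := T.h4_ker2 h3
  have h0 := T.h4_ker0 h3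
  rw [Fintype.card_sum, Fintype.card_coe, Fintype.card_prod, ZMod.card, T.card_W] at h
  omega

theorem h4_exists_cut (h3 : T.Cut3) (hE : T.Euler) (b0 : B) (K : Finset (B × ZMod 3))
    (hK : ∀ f : V → ZMod 2, ∑ e ∈ K, (f (T.c e.1 (e.2 + 1)) + f (T.c e.1 (e.2 + 2))) = 0) :
    ∃ R : Finset (B ⊕ W), Sum.inl b0 ∉ R ∧ T.cut R = K := by
  obtain ⟨y, hy⟩ := exact_of_euler T.h4D1 T.h4D2 T.h4D1_mul_D2 (T.h4_ker2 h3) (T.h4_ker0 h3)
    (by
      rw [Fintype.card_sum, Fintype.card_coe, Fintype.card_prod, ZMod.card, T.card_W]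
      unfold Euler at hE
      omega) _ (T.h4D1_ind K hK)
  have hcut : T.cut (univ.filter (fun x => y x = 1)) = K := by
    ext e
    have := congrFun hy e
    rw [h4D2_cut] at this
    by_cases h1 : e ∈ T.cut (univ.filter (fun x => y x = 1)) <;> by_cases h2 : e ∈ K <;>
      simp_all
  by_cases hb : Sum.inl b0 ∈ univ.filter (fun x => y x = 1)
  · refine ⟨(univ.filter (fun x => y x = 1))ᶜ, by simpa using hb, ?_⟩
    rw [← hcut]
    ext e
    simp only [cut, mem_filter, mem_univ, true_and, mem_compl]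
    tauto
  · exact ⟨_, hb, hcut⟩

end Tri

end Crest.Agent.R39
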