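import Crest.Agent.R39.Basic
import Crest.Agent.R39.LinAlg
import Crest.Agent.R39.EulerH4

set_option autoImplicit false

namespace Crest.Agent.R39

open Finset

theorem euler_h28_sum_ite {α : Type} [DecidableEq α] (S : Finset α) (y : S → ZMod 2) (a : α) :
    ∑ x : S, (if x.1 = a then (1 : ZMod 2) else 0) * y x = if h : a ∈ S then y ⟨a, h⟩ else 0 := by
  split_ifs with h
  · rw [Finset.sum_eq_single (⟨a, h⟩ : S)]
    · simp
    · intro b _ hb
      have : b.1 ≠ a := fun hh => hb (Subtype.ext hh)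
      simp [this]
    · simp
  · apply Finset.sum_eq_zero
    intro x _
    have : x.1 ≠ a := fun hh => h (hh ▸ x.2)
    simp [this]

theorem euler_h28_sum_shift (g : ZMod 3 → ZMod 2) : ∑ i : ZMod 3, (g (i + 1) + g (i + 2)) = 0 := by
  rw [Finset.sum_add_distrib]
  have h1 : ∑ i : ZMod 3, g (i + 1) = ∑ i, g i := Equiv.sum_comp (Equiv.addRight 1) g
  have h2 : ∑ i : ZMod 3, g (i + 2) = ∑ i, g i := Equiv.sum_comp (Equiv.addRight 2) g
  rw [h1, h2]
  exact CharTwo.add_self_eq_zero _

theorem euler_h28_eq_of_add {a b : ZMod 2} (h : a + b = 0) : a = b := by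
  revert a b
  decide

namespace Tri

variable {B W V : Type} [Fintype B] [Fintype W] [Fintype V]
  [DecidableEq B] [DecidableEq W] [DecidableEq V] (T : Tri B W V)

omit [Fintype W] [Fintype V] in
theorem euler_h28_dd (v : V) (x : B ⊕ W) :
    ∑ e : B × ZMod 3,
      ((if v = T.c e.1 (e.2 + 1) then (1 : ZMod 2) else 0)
        + (if v = T.c e.1 (e.2 + 2) then (1 : ZMod 2) else 0)) *
      ((if x = Sum.inl e.1 then (1 : ZMod 2) else 0) + (if x = T.wh e then (1 : ZMod 2) else 0))
      = 0 := by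
  rw [Fintype.sum_prod_type_right]
  cases x with
  | inl t =>
    refine Eq.trans ?_ (euler_h28_sum_shift (fun j => if v = T.c t j then (1 : ZMod 2) else 0))
    apply Finset.sum_congr rfl
    intro i _
    rw [Finset.sum_eq_single t]
    · simp [wh]
    · intro b _ hb
      simp [wh, Ne.symm hb]
    · simp
  | inr w =>
    refine Eq.trans ?_ (euler_h28_sum_shift (fun j => if v = T.d w j then (1 : ZMod 2) else 0))
    apply Finset.sum_congr rfl
    intro i _
    rw [Finset.sum_eq_single ((T.m i).symm w)]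
    · have h1 : T.c ((T.m i).symm w) (i + 1) = T.d w (i + 1) := by
        have := T.compat i (i + 1) ((T.m i).symm w) (by simp)
        simpa using this.symm
      have h2 : T.c ((T.m i).symm w) (i + 2) = T.d w (i + 2) := by
        have := T.compat i (i + 2) ((T.m i).symm w) (by
          intro h
          have h' : (2 : ZMod 3) = 0 := by simpa using h
          exact absurd h' (by decide))
        simpa using this.symm
      simp [wh, h1, h2]
    · intro b _ hb
      have : w ≠ T.m i b := by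
        intro h
        apply hb
        rw [h]
        simp
      simp [wh, this]
    · simp

theorem EI (h3 : T.Cut3) (R : Finset (B ⊕ W)) (hR : R ≠ univ)
    (hc : ∀ f : V → ZMod 2,
      (∀ e ∈ T.touched R, f (T.c e.1 (e.2 + 1)) = f (T.c e.1 (e.2 + 2))) →
        ∀ u ∈ T.VR R, ∀ v ∈ T.VR R, f u = f v) :
    (T.VR R).card + R.card ≤ (T.touched R).card + 1 := by
  let D1 : Matrix (T.VR R) (T.touched R) (ZMod 2) := fun v e =>
    (if v.1 = T.c e.1.1 (e.1.2 + 1) then (1 : ZMod 2) else 0)
      + (if v.1 = T.c e.1.1 (e.1.2 + 2) then (1 : ZMod 2) else 0)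
  let D2 : Matrix (T.touched R) R (ZMod 2) := fun e x =>
    (if x.1 = Sum.inl e.1.1 then (1 : ZMod 2) else 0) + (if x.1 = T.wh e.1 then (1 : ZMod 2) else 0)
  have hD : D1 * D2 = 0 := by
    ext v x
    rw [Matrix.mul_apply, Matrix.zero_apply]
    refine Eq.trans ?_ (T.euler_h28_dd v.1 x.1)
    rw [Finset.sum_coe_sort (T.touched R) (fun e : B × ZMod 3 =>
      ((if v.1 = T.c e.1 (e.2 + 1) then (1 : ZMod 2) else 0)
        + (if v.1 = T.c e.1 (e.2 + 2) then (1 : ZMod 2) else 0)) *
      ((if x.1 = Sum.inl e.1 then (1 : ZMod 2) else 0)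
        + (if x.1 = T.wh e then (1 : ZMod 2) else 0)))]
    apply Finset.sum_subset (Finset.subset_univ _)
    intro e _ he
    have he' : ¬ (Sum.inl e.1 ∈ R ∨ T.wh e ∈ R) := by simpa [touched] using he
    have h1 : x.1 ≠ Sum.inl e.1 := fun h => he' (Or.inl (h ▸ x.2))
    have h2 : x.1 ≠ T.wh e := fun h => he' (Or.inr (h ▸ x.2))
    simp [h1, h2]
  have hk2 : LinearMap.ker D2.mulVecLin = ⊥ := by
    rw [LinearMap.ker_eq_bot']
    intro y hy
    let f : B ⊕ W → ZMod 2 := fun a => if h : a ∈ R then y ⟨a, h⟩ else 0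
    have hf : ∀ e : B × ZMod 3, f (Sum.inl e.1) = f (T.wh e) := by
      intro e
      by_cases he : e ∈ T.touched R
      · apply euler_h28_eq_of_add
        have := congrFun hy ⟨e, he⟩
        simp only [Matrix.mulVecLin_apply, Matrix.mulVec, dotProduct, D2, add_mul,
          Finset.sum_add_distrib, euler_h28_sum_ite, Pi.zero_apply] at this
        exact this
      · have he' : ¬ (Sum.inl e.1 ∈ R ∨ T.wh e ∈ R) := by simpa [touched] using he
        have h1 : Sum.inl e.1 ∉ R := fun h => he' (Or.inl h)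
        have h2 : T.wh e ∉ R := fun h => he' (Or.inr h)
        simp [f, h1, h2]
    obtain ⟨x0, hx0⟩ : ∃ x0, x0 ∉ R := by
      by_contra hcon
      push Not at hcon
      exact hR (Finset.eq_univ_iff_forall.mpr hcon)
    funext x
    have := T.const_of_edges h3 f hf x.1 x0
    simpa [f, hx0, x.2] using this
  have hk0 : Module.finrank (ZMod 2) (LinearMap.ker D1.transpose.mulVecLin) ≤ 1 := by
    apply finrank_le_one_of _ (fun _ => 1)
    intro z hz
    rw [LinearMap.mem_ker] at hz
    let g : V → ZMod 2 := fun a => if h : a ∈ T.VR R then z ⟨a, h⟩ else 0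
    have hg : ∀ e ∈ T.touched R, g (T.c e.1 (e.2 + 1)) = g (T.c e.1 (e.2 + 2)) := by
      intro e he
      apply euler_h28_eq_of_add
      have := congrFun hz ⟨e, he⟩
      simp only [Matrix.mulVecLin_apply, Matrix.mulVec, dotProduct, Matrix.transpose_apply, D1,
        add_mul, Finset.sum_add_distrib, euler_h28_sum_ite, Pi.zero_apply] at this
      exact this
    have hgc := hc g hg
    by_cases hne : (T.VR R).Nonempty
    · obtain ⟨v0, hv0⟩ := hne
      refine ⟨z ⟨v0, hv0⟩, ?_⟩
      funext v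
      have := hgc v.1 v.2 v0 hv0
      simpa [g, hv0, v.2] using this
    · refine ⟨0, ?_⟩
      funext v
      exact absurd ⟨v.1, v.2⟩ hne
  have := euler_ineq D1 D2 hD
  rw [hk2, finrank_bot] at this
  simp only [Fintype.card_coe] at this
  omega

theorem EI_all (h3 : T.Cut3) : T.Vall.card ≤ Fintype.card B + 2 := by
  exact T.h4_EI_all h3

theorem exists_cut (h3 : T.Cut3) (hE : T.Euler) (b0 : B) (K : Finset (B × ZMod 3))
    (hK : ∀ f : V → ZMod 2, ∑ e ∈ K, (f (T.c e.1 (e.2 + 1)) + f (T.c e.1 (e.2 + 2))) = 0) :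
    ∃ R : Finset (B ⊕ W), Sum.inl b0 ∉ R ∧ T.cut R = K := by
  exact T.h4_exists_cut h3 hE b0 K hK

theorem Euler24_sum_ind (U : Finset V) (z : {v // v ∈ U} → ZMod 2) (u : V) :
    ∑ v : {v // v ∈ U}, (if v.1 = u then (1 : ZMod 2) else 0) * z v
      = if h : u ∈ U then z ⟨u, h⟩ else 0 := by
  split_ifs with h
  · rw [Finset.sum_eq_single ⟨u, h⟩]
    · simp
    · intro b _ hb
      rw [if_neg (fun k => hb (Subtype.ext k)), zero_mul]
    · simp
  · refine Finset.sum_eq_zero fun v _ => ?_
    rw [if_neg (fun (k : v.1 = u) => h (k ▸ v.2)), zero_mul]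

theorem Euler24_cut_single (x : B ⊕ W) (e : B × ZMod 3) :
    ((if x = Sum.inl e.1 then 1 else 0) + (if x = T.wh e then 1 else 0) : ZMod 2)
      = if e ∈ T.cut {x} then 1 else 0 := by
  have hne : (Sum.inl e.1 : B ⊕ W) ≠ T.wh e := by simp [wh]
  simp only [cut, mem_filter, mem_univ, true_and, mem_singleton]
  by_cases h1 : x = Sum.inl e.1
  · subst h1
    simp [hne, hne.symm]
  · by_cases h2 : x = T.wh e
    · subst h2
      simp [hne, hne.symm]
    · simp [h1, h2, Ne.symm h1, Ne.symm h2]

theorem dualEI (h3 : T.Cut3) (U : Finset V) (hU : U ⊆ T.Vall) (v0 : V) (hv0 : v0 ∈ T.Vall)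
    (hv0U : v0 ∉ U) (rep : B ⊕ W → B ⊕ W)
    (hrep : ∀ f : B ⊕ W → ZMod 2, (∀ e, e ∉ T.EY U → f (Sum.inl e.1) = f (T.wh e)) →
      ∀ x, f x = f (rep x)) :
    U.card + (T.EY U).card ≤ Fintype.card B + (univ.image rep).card := by
  classical
  let D2 : Matrix {e : B × ZMod 3 // e ∉ T.EY U} (B ⊕ W) (ZMod 2) := fun e x =>
    (if x = Sum.inl e.1.1 then 1 else 0) + (if x = T.wh e.1 then 1 else 0)
  let D1 : Matrix {v // v ∈ U} {e : B × ZMod 3 // e ∉ T.EY U} (ZMod 2) := fun v e =>
    (if v.1 = T.c e.1.1 (e.1.2 + 1) then 1 else 0) + (if v.1 = T.c e.1.1 (e.1.2 + 2) then 1 else 0)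
  have hD : D1 * D2 = 0 := by
    ext v x
    rw [Matrix.mul_apply, Matrix.zero_apply]
    let g : B × ZMod 3 → ZMod 2 := fun e =>
      ((if v.1 = T.c e.1 (e.2 + 1) then 1 else 0) + (if v.1 = T.c e.1 (e.2 + 2) then 1 else 0)) *
        (if e ∈ T.cut {x} then 1 else 0)
    have h1 : ∑ e, D1 v e * D2 e x = ∑ e : {e : B × ZMod 3 // e ∉ T.EY U}, g e.1 := by
      refine Finset.sum_congr rfl fun e _ => ?_
      simp only [D1, D2, g, Euler24_cut_single]
    have h2 : ∑ e : {e : B × ZMod 3 // e ∉ T.EY U}, g e.1 = ∑ e, g e := by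
      rw [← Finset.sum_subtype (univ.filter fun e => e ∉ T.EY U) (by simp) g, Finset.sum_filter]
      refine Finset.sum_congr rfl fun e _ => ?_
      split_ifs with he
      · simp only [EY, mem_filter, mem_univ, true_and] at he
        have a1 : v.1 ≠ T.c e.1 (e.2 + 1) := fun k => he.1 (k ▸ v.2)
        have a2 : v.1 ≠ T.c e.1 (e.2 + 2) := fun k => he.2 (k ▸ v.2)
        simp [g, a1, a2]
      · rfl
    have h3' := T.cut_cycle {x} (fun u => if v.1 = u then 1 else 0)
    rw [h1, h2, ← h3']
    simp only [g, mul_ite, mul_one, mul_zero]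
    rw [← Finset.sum_filter]
    congr 1
    ext e
    simp
  have hk2 : Module.finrank (ZMod 2) (LinearMap.ker D2.mulVecLin) ≤ (univ.image rep).card := by
    refine finrank_le_card_of_rep _ rep fun y hy x => hrep y (fun e he => ?_) x
    have h := congrFun (LinearMap.mem_ker.1 hy) ⟨e, he⟩
    simp only [Matrix.mulVecLin_apply, Matrix.mulVec, dotProduct, D2, add_mul, ite_mul, one_mul,
      zero_mul, Finset.sum_add_distrib, Finset.sum_ite_eq', mem_univ, if_true, Pi.zero_apply] at h
    have := (CharTwo.add_eq_zero (R := ZMod 2)).1 h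
    exact this
  have hk0 : LinearMap.ker D1.transpose.mulVecLin = ⊥ := by
    rw [eq_bot_iff]
    intro z hz
    let zt : V → ZMod 2 := fun u => if h : u ∈ U then z ⟨u, h⟩ else 0
    have hzt : ∀ e : B × ZMod 3, zt (T.c e.1 (e.2 + 1)) = zt (T.c e.1 (e.2 + 2)) := by
      intro e
      by_cases he : e ∈ T.EY U
      · simp only [EY, mem_filter, mem_univ, true_and] at he
        simp [zt, he.1, he.2]
      · have h := congrFun (LinearMap.mem_ker.1 hz) ⟨e, he⟩
        simp only [Matrix.mulVecLin_apply, Matrix.mulVec, dotProduct, Matrix.transpose_apply, D1,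
          add_mul, Finset.sum_add_distrib, Euler24_sum_ind, Pi.zero_apply] at h
        exact (CharTwo.add_eq_zero (R := ZMod 2)).1 h
    rw [Submodule.mem_bot]
    ext v
    have h := T.Vall_const h3 zt hzt v.1 (hU v.2) v0 hv0
    simpa [zt, v.2, hv0U] using h
  have hE := euler_ineq D1 D2 hD
  rw [hk0, finrank_bot, Fintype.card_sum, T.card_W, Fintype.card_coe,
    Fintype.card_subtype_compl, Fintype.card_coe, Fintype.card_prod, ZMod.card] at hE
  have hle : (T.EY U).card ≤ Fintype.card B * 3 := by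
    have := Finset.card_le_univ (T.EY U)
    rwa [Fintype.card_prod, ZMod.card] at this
  omega

theorem card_Vp (h3 : T.Cut3) (hE : T.Euler) (b0 : B) :
    (T.Vp b0).card = Fintype.card {t : B // t ≠ b0} := by
  have hinj : Function.Injective (T.c b0) := fun i j h => T.colour b0 b0 i j h
  have h2 : ((univ : Finset (ZMod 3)).image (T.c b0)).card = 3 := by
    rw [Finset.card_image_of_injective _ hinj, Finset.card_univ, ZMod.card]
  have hV : T.Vall.card = Fintype.card B + 2 := le_antisymm (T.EI_all h3) hE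
  have hsub : (univ : Finset (ZMod 3)).image (T.c b0) ⊆ T.Vall := by
    intro v hv
    obtain ⟨j, _, rfl⟩ := Finset.mem_image.1 hv
    simp only [Vall, Finset.mem_filter, Finset.mem_univ, true_and]
    exact ⟨b0, j, rfl⟩
  have hVp : T.Vp b0 = T.Vall \ (univ : Finset (ZMod 3)).image (T.c b0) := by
    ext v
    simp only [Vp, Finset.mem_filter, Finset.mem_sdiff, Finset.mem_image, Finset.mem_univ,
      true_and, not_exists]
  have h4 : Fintype.card {t : B // t ≠ b0} = Fintype.card B - 1 := by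
    rw [Fintype.card_subtype_compl, Fintype.card_subtype_eq]
  have h5 : 1 ≤ Fintype.card B := Fintype.card_pos_iff.2 ⟨b0⟩
  rw [hVp, Finset.card_sdiff_of_subset hsub, h2, hV, h4]
  omega

end Tri

end Crest.Agent.R39
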