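import Mathlib
import Crest.Prelude.Def_PlanarMap

set_option autoImplicit false

namespace Crest.Agent.R39.Pre22

open SimpleGraph

/-- A connected 2-regular spanning subgraph gives a Hamiltonian cycle. -/
theorem isHamiltonian_of_two_regular {V : Type*} [Fintype V] [DecidableEq V]
    {G H : SimpleGraph V} (hle : H ≤ G) (hconn : H.Connected)
    (h2 : ∀ v, (H.neighborSet v).ncard = 2) : G.IsHamiltonian := by
  refine IsHamiltonian.mono hle ?_
  intro _
  obtain ⟨v⟩ := hconn.nonempty
  have hcyc : H.IsCycles := fun v _ => h2 v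
  have hn : (H.neighborSet v).Nonempty := Set.nonempty_of_ncard_ne_zero (by rw [h2]; norm_num)
  obtain ⟨p, hp, hv⟩ := hcyc.exists_cycle_toSubgraph_verts_eq_connectedComponentSupp
    (c := H.connectedComponentMk v) (v := v) (by simp) hn
  refine ⟨v, p, hp, ?_⟩
  rw [hp.isPath_tail.isHamiltonian_iff]
  intro w
  have hw : w ∈ p.support := by
    rw [← Walk.mem_verts_toSubgraph, hv]
    simp only [ConnectedComponent.mem_supp_iff, ConnectedComponent.eq]
    exact hconn.preconnected w v
  rw [Walk.support_tail_of_not_nil _ hp.not_nil]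
  by_cases hwv : w = v
  · subst hwv
    exact Walk.end_mem_tail_support hp.not_nil
  · rw [← Walk.cons_tail_support] at hw
    rcases List.mem_cons.mp hw with h | h
    · exact absurd h hwv
    · exact h

/-- In a cubic 3-connected graph, every nontrivial vertex cut has at least three darts. -/
theorem three_le_cut {V : Type*} [Fintype V] [DecidableEq V] {G : SimpleGraph V}
    [DecidableRel G.Adj] (hcubic : G.IsRegularOfDegree 3)
    (hconn : Crest.CombinatoricsR.PlanarMap.IsThreeConnected G)
    (S : Set V) (hS : S.Nonempty) (hSc : Sᶜ.Nonempty) :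
    3 ≤ {d : G.Dart | d.fst ∈ S ∧ d.snd ∉ S}.ncard := by
  classical
  by_contra hlt
  push Not at hlt
  set C : Finset G.Dart := Finset.univ.filter (fun d : G.Dart => d.fst ∈ S ∧ d.snd ∉ S) with hC
  have hCc : C.card ≤ 2 := by
    have : {d : G.Dart | d.fst ∈ S ∧ d.snd ∉ S} = (C : Set G.Dart) := by
      ext d; simp [hC]
    rw [this, Set.ncard_coe_finset] at hlt
    omega
  set T : Finset V := C.image (fun d => d.fst) with hT
  have hTc : T.card ≤ 2 := le_trans Finset.card_image_le hCc
  -- there is a vertex of `S` outside `T`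
  have hex : ∃ v ∈ S, v ∉ T := by
    by_contra hno
    push Not at hno
    set SF : Finset V := Finset.univ.filter (fun v => v ∈ S) with hSF
    have hSFT : SF ⊆ T := by
      intro v hv
      exact hno v (by simpa [hSF] using hv)
    have hSF2 : SF.card ≤ 2 := le_trans (Finset.card_le_card hSFT) hTc
    have hSF1 : 1 ≤ SF.card := by
      obtain ⟨v, hv⟩ := hS
      exact Finset.card_pos.mpr ⟨v, by simpa [hSF] using hv⟩
    have hsum : C.card = ∑ v ∈ SF, (C.filter (fun d => d.fst = v)).card := by
      apply Finset.card_eq_sum_card_fiberwise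
      intro d hd
      simp only [hC, Finset.coe_filter, Finset.mem_univ, true_and, Set.mem_setOf_eq] at hd
      simpa [hSF] using hd.1
    have hlow : ∀ v ∈ SF, 4 - SF.card ≤ (C.filter (fun d => d.fst = v)).card := by
      intro v hv
      have hvS : v ∈ S := by simpa [hSF] using hv
      have h1 : (G.neighborFinset v \ SF.erase v).card ≤ (C.filter (fun d => d.fst = v)).card := by
        apply Finset.card_le_card_of_surjOn (fun d : G.Dart => d.snd)
        intro w hw
        simp only [Finset.coe_sdiff, Set.mem_diff, Finset.mem_coe, mem_neighborFinset,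
          Finset.mem_erase, not_and] at hw
        obtain ⟨hadj, hw2⟩ := hw
        refine ⟨⟨(v, w), hadj⟩, ?_, rfl⟩
        have hwS : w ∉ S := fun h => hw2 hadj.ne' (by simpa [hSF] using h)
        simp [hC, hvS, hwS]
      have h2 : (G.neighborFinset v).card - (SF.erase v).card ≤
          (G.neighborFinset v \ SF.erase v).card := Finset.le_card_sdiff _ _
      have h3 : (G.neighborFinset v).card = 3 := hcubic v
      have h4 : (SF.erase v).card = SF.card - 1 := Finset.card_erase_of_mem hv
      omega
    have := Finset.card_nsmul_le_sum SF _ _ hlow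
    rw [← hsum, smul_eq_mul] at this
    have h12 : SF.card = 1 ∨ SF.card = 2 := by omega
    rcases h12 with h | h <;> rw [h] at this <;> omega
  obtain ⟨v, hvS, hvT⟩ := hex
  obtain ⟨w, hwS⟩ := hSc
  have hwT : w ∉ T := by
    intro hw
    obtain ⟨d, hd, rfl⟩ := Finset.mem_image.mp hw
    simp only [hC, Finset.mem_filter, Finset.mem_univ, true_and] at hd
    exact hwS hd.1
  have hc := (hconn.2 T hTc).preconnected ⟨v, by simpa using hvT⟩ ⟨w, by simpa using hwT⟩
  obtain ⟨p⟩ := hc
  obtain ⟨d, -, hd1, hd2⟩ := p.exists_boundary_dart {x | x.1 ∈ S} hvS hwS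
  have hadj : G.Adj d.fst.1 d.snd.1 := d.adj
  have hmem : (⟨(d.fst.1, d.snd.1), hadj⟩ : G.Dart) ∈ C := by
    simp only [hC, Finset.mem_filter, Finset.mem_univ, true_and]
    exact ⟨hd1, hd2⟩
  have : d.fst.1 ∈ T := Finset.mem_image.mpr ⟨_, hmem, rfl⟩
  have h2 := d.fst.2
  simp only [Set.mem_compl_iff, Finset.mem_coe] at h2
  exact h2 this

end Crest.Agent.R39.Pre22
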