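import Crest.Agent.R39.Defs
import Crest.Agent.R39.Pre22

set_option autoImplicit false

namespace Crest.Agent.R39

theorem GraphH23_three (i j : ZMod 3) (h : i ≠ j) : i = j + 1 ∨ i = j + 2 := by
  revert i j; decide

theorem GraphH23_ne1 (j : ZMod 3) : j + 1 ≠ j := by revert j; decide

theorem GraphH23_ne2 (j : ZMod 3) : j + 2 ≠ j := by revert j; decide

theorem GraphH23_ne12 (j : ZMod 3) : j + 1 ≠ j + 2 := by revert j; decide

/-- A good matching gives a Hamiltonian cycle (unbundled form). -/
theorem GraphH23_ham {V : Type} [Fintype V] [DecidableEq V] {G : SimpleGraph V}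
    (col : V → Fin 2) {F : Type}
    (T : Tri {v : V // col v = 0} {v : V // col v ≠ 0} F)
    (hadj : ∀ i t, G.Adj t.1 (T.m i t).1) (hinj : ∀ t i j, T.m i t = T.m j t → i = j) [Nonempty V]
    (μ : {v : V // col v = 0} → ZMod 3)
    (hbij : Function.Bijective (fun t => T.m (μ t) t))
    (hcon : ∀ f : {v : V // col v = 0} ⊕ {v : V // col v ≠ 0} → ZMod 2,
      (∀ t i, i ≠ μ t → f (Sum.inl t) = f (Sum.inr (T.m i t))) → ∀ x y, f x = f y) :
    G.IsHamiltonian := by
  classical
  let H : SimpleGraph V := SimpleGraph.fromRel
    (fun u v => ∃ (t : {v : V // col v = 0}) (i : ZMod 3), i ≠ μ t ∧ u = t.1 ∧ v = (T.m i t).1)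
  have hne : ∀ (t : {v : V // col v = 0}) (w : {v : V // col v ≠ 0}), t.1 ≠ w.1 := by
    intro t w h
    exact w.2 (h ▸ t.2)
  have hH : ∀ (t : {v : V // col v = 0}) (i : ZMod 3), i ≠ μ t → H.Adj t.1 (T.m i t).1 := by
    intro t i hi
    exact (SimpleGraph.fromRel_adj _ _ _).2 ⟨hne _ _, Or.inl ⟨t, i, hi, rfl, rfl⟩⟩
  refine Pre22.isHamiltonian_of_two_regular (H := H) ?_ ?_ ?_
  · intro u v huv
    obtain ⟨-, h | h⟩ := (SimpleGraph.fromRel_adj _ _ _).1 huv
    · obtain ⟨t, i, -, rfl, rfl⟩ := h
      exact hadj i t
    · obtain ⟨t, i, -, rfl, rfl⟩ := h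
      exact (hadj i t).symm
  · obtain ⟨v0⟩ := ‹Nonempty V›
    let val : {v : V // col v = 0} ⊕ {v : V // col v ≠ 0} → V := Sum.elim Subtype.val Subtype.val
    have hval : ∀ u, ∃ x, val x = u := by
      intro u
      by_cases hu : col u = 0
      · exact ⟨Sum.inl ⟨u, hu⟩, rfl⟩
      · exact ⟨Sum.inr ⟨u, hu⟩, rfl⟩
    have key := hcon (fun x => if H.Reachable v0 (val x) then 1 else 0) (by
      intro t i hi
      have h := (hH t i hi).reachable
      have : H.Reachable v0 (val (Sum.inl t)) ↔ H.Reachable v0 (val (Sum.inr (T.m i t))) :=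
        ⟨fun a => a.trans h, fun a => a.trans h.symm⟩
      simp only [this])
    have hr : ∀ u, H.Reachable v0 u := by
      intro u
      obtain ⟨x, hx⟩ := hval u
      obtain ⟨y, hy⟩ := hval v0
      have := key x y
      simp only [hx, hy, SimpleGraph.Reachable.refl, if_true] at this
      by_contra hn
      rw [if_neg hn] at this
      exact absurd this (by decide)
    exact (SimpleGraph.connected_iff_exists_forall_reachable H).2 ⟨v0, hr⟩
  · intro v
    by_cases hv : col v = 0
    · let t : {v : V // col v = 0} := ⟨v, hv⟩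
      have : H.neighborSet v = {(T.m (μ t + 1) t).1, (T.m (μ t + 2) t).1} := by
        ext w
        simp only [SimpleGraph.mem_neighborSet, Set.mem_insert_iff, Set.mem_singleton_iff]
        constructor
        · intro hw
          obtain ⟨-, h | h⟩ := (SimpleGraph.fromRel_adj _ _ _).1 hw
          · obtain ⟨t', i, hi, h1, h2⟩ := h
            have ht : t' = t := Subtype.ext h1.symm
            subst ht
            rcases GraphH23_three _ _ hi with h | h
            · left; rw [h2, h]
            · right; rw [h2, h]
          · obtain ⟨t', i, -, -, h2⟩ := h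
            exact absurd (h2 ▸ hv) (T.m i t').2
        · rintro (rfl | rfl)
          · exact hH t _ (GraphH23_ne1 _)
          · exact hH t _ (GraphH23_ne2 _)
      rw [this]
      refine Set.ncard_pair ?_
      intro h
      exact GraphH23_ne12 _ (hinj t _ _ (Subtype.ext h))
    · let w : {v : V // col v ≠ 0} := ⟨v, hv⟩
      obtain ⟨t0, ht0⟩ := hbij.2 w
      have ht0' : T.m (μ t0) t0 = w := ht0
      have hgood : ∀ i, i ≠ μ t0 → H.Adj v ((T.m i).symm w).1 := by
        intro i hi
        have h1 : i ≠ μ ((T.m i).symm w) := by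
          intro h
          have h2 : T.m (μ ((T.m i).symm w)) ((T.m i).symm w) = w := by
            rw [← h, Equiv.apply_symm_apply]
          have h3 : (T.m i).symm w = t0 := hbij.1 (h2.trans ht0'.symm)
          rw [h3] at h
          exact hi h
        have := hH _ i h1
        rw [Equiv.apply_symm_apply] at this
        exact this.symm
      have : H.neighborSet v = {((T.m (μ t0 + 1)).symm w).1, ((T.m (μ t0 + 2)).symm w).1} := by
        ext u
        simp only [SimpleGraph.mem_neighborSet, Set.mem_insert_iff, Set.mem_singleton_iff]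
        constructor
        · intro hu
          obtain ⟨-, h | h⟩ := (SimpleGraph.fromRel_adj _ _ _).1 hu
          · obtain ⟨t', i, -, h1, -⟩ := h
            exact absurd (h1 ▸ t'.2) hv
          · obtain ⟨t', i, hi, h1, h2⟩ := h
            have h3 : T.m i t' = w := Subtype.ext h2.symm
            have h4 : t' = (T.m i).symm w := by rw [← h3, Equiv.symm_apply_apply]
            have h5 : i ≠ μ t0 := by
              intro h
              have : t' = t0 := by
                apply (T.m i).injective
                rw [h3, h, ht0']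
              rw [this] at hi
              exact hi h
            rcases GraphH23_three _ _ h5 with h | h
            · left; rw [h1, h4, h]
            · right; rw [h1, h4, h]
        · rintro (rfl | rfl)
          · exact hgood _ (GraphH23_ne1 _)
          · exact hgood _ (GraphH23_ne2 _)
      rw [this]
      refine Set.ncard_pair ?_
      intro h
      have h1 : (T.m (μ t0 + 1)).symm w = (T.m (μ t0 + 2)).symm w := Subtype.ext h
      refine GraphH23_ne12 (μ t0) (hinj ((T.m (μ t0 + 1)).symm w) _ _ ?_)
      rw [Equiv.apply_symm_apply, h1, Equiv.apply_symm_apply]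

end Crest.Agent.R39
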