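import Crest.Prelude.Def_PlanarMap
import Crest.Agent.R39.GraphH23
import Crest.Agent.R39.Basic
import Crest.Agent.R39.LinAlg
import Crest.Agent.R39.Pre22

set_option autoImplicit false

namespace Crest.Agent.R39

open Finset Crest.CombinatoricsR.PlanarMap

variable {V : Type} [Fintype V] [DecidableEq V] {G : SimpleGraph V} [DecidableRel G.Adj]

abbrev Face (R : RotationSystem G) : Type :=
  Quotient (Equiv.Perm.SameCycle.setoid ((dartSwap G).trans R.rot))

def face (R : RotationSystem G) (δ : G.Dart) : Face R := Quotient.mk _ δ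

theorem face_step (R : RotationSystem G) (δ : G.Dart) : face R (R.rot δ.symm) = face R δ := by
  refine Quotient.sound (Equiv.Perm.SameCycle.symm ⟨1, ?_⟩)
  rfl

theorem face_rot (R : RotationSystem G) (δ : G.Dart) : face R (R.rot δ) = face R δ.symm := by
  have h := face_step R δ.symm
  rwa [SimpleGraph.Dart.symm_symm] at h

theorem face_surj (R : RotationSystem G) (f : Face R) : ∃ δ, face R δ = f := by
  exact Quotient.exists_rep f

theorem rot_three (hcubic : G.IsRegularOfDegree 3) (R : RotationSystem G) (δ δ' : G.Dart)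
    (h : δ'.fst = δ.fst) : δ' = δ ∨ δ' = R.rot δ ∨ δ' = R.rot (R.rot δ) := by
  by_contra hne
  push Not at hne
  obtain ⟨h0, h1, h2⟩ := hne
  have hcard : (univ.filter (fun d : G.Dart => d.fst = δ.fst)).card = 3 := by
    rw [← hcubic δ.fst]
    exact G.dart_fst_fiber_card_eq_degree δ.fst
  have hper : R.rot δ = δ ∨ R.rot (R.rot δ) = δ := by
    by_contra hc
    push Not at hc
    obtain ⟨c1, c2⟩ := hc
    have c3 : R.rot (R.rot δ) ≠ R.rot δ := fun e => c1 (R.rot.injective e)
    have hsub : ({δ', δ, R.rot δ, R.rot (R.rot δ)} : Finset G.Dart)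
        ⊆ univ.filter (fun d : G.Dart => d.fst = δ.fst) := by
      intro d hd
      simp only [mem_insert, mem_singleton] at hd
      rcases hd with rfl | rfl | rfl | rfl <;> simp [h, R.rot_fst]
    have hle := card_le_card hsub
    rw [hcard, card_insert_of_notMem (by simp [h0, h1, h2]),
      card_insert_of_notMem (by simp [c1.symm, c2.symm]),
      card_insert_of_notMem (by rw [mem_singleton]; exact c3.symm), card_singleton] at hle
    omega
  have hpow : ∀ k : ℕ, (R.rot ^ k) δ = δ ∨ (R.rot ^ k) δ = R.rot δ := by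
    intro k
    induction k with
    | zero => left; rfl
    | succ k ih =>
      rw [pow_succ', Equiv.Perm.mul_apply]
      rcases ih with e | e
      · right; rw [e]
      · rcases hper with e' | e'
        · right; rw [e, e', e']
        · left; rw [e, e']
  obtain ⟨k, -, hk⟩ := (R.rot_sameCycle δ δ' h.symm).exists_pow_eq'
  rcases hpow k with e | e
  · exact h0 (hk.symm.trans e)
  · exact h1 (hk.symm.trans e)

/-- half of the darts start at colour `0` -/
theorem card_black_darts (col : G.Coloring (Fin 2)) :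
    Fintype.card {δ : G.Dart // col δ.fst = 0} = Nat.card G.edgeSet := by
  rw [← Nat.card_eq_fintype_card]
  refine Nat.card_congr (Equiv.ofBijective (fun δ => ⟨δ.1.edge, δ.1.edge_mem⟩) ⟨?_, ?_⟩)
  · rintro ⟨d, hd⟩ ⟨d', hd'⟩ he
    have he' : d.edge = d'.edge := congrArg Subtype.val he
    rcases (SimpleGraph.dart_edge_eq_iff d d').1 he' with e | e
    · exact Subtype.ext e
    · exfalso
      have h1 : col d'.snd = 0 := by rw [e] at hd; exact hd
      exact col.valid d'.adj (hd'.trans h1.symm)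
  · rintro ⟨e, he⟩
    induction e using Sym2.ind with
    | _ u v =>
      have hadj : G.Adj u v := he
      have hne := col.valid hadj
      by_cases hu : col u = 0
      · exact ⟨⟨⟨(u, v), hadj⟩, hu⟩, rfl⟩
      · have hv : col v = 0 := by
          revert hne hu
          generalize col u = a
          generalize col v = b
          revert a b
          decide
        exact ⟨⟨⟨(v, u), hadj.symm⟩, hv⟩, Subtype.ext Sym2.eq_swap⟩

omit [Fintype V] [DecidableEq V] [DecidableRel G.Adj] in
theorem Graph_h5_col_ne (col : G.Coloring (Fin 2)) {u v : V} (h : G.Adj u v) :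
    col v = 0 ↔ ¬ col u = 0 := by
  have h1 := col.valid h
  generalize col u = a at h1
  generalize col v = b at h1
  revert a b
  decide

omit [DecidableEq V] in
theorem Graph_h5_sum_darts (col : G.Coloring (Fin 2)) (h : G.Dart → ZMod 3) :
    ∑ d : {δ : G.Dart // col δ.fst = 0}, (h d.1 + h d.1.symm) = ∑ δ, h δ := by
  rw [← Fintype.sum_subtype_add_sum_subtype (fun δ : G.Dart => col δ.fst = 0) h, sum_add_distrib]
  congr 1
  let e : {δ : G.Dart // col δ.fst = 0} ≃ {δ : G.Dart // ¬ col δ.fst = 0} :=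
    { toFun := fun d => ⟨d.1.symm, fun h0 => (Graph_h5_col_ne col d.1.adj).mp h0 d.2⟩
      invFun := fun d => ⟨d.1.symm, (Graph_h5_col_ne col d.1.adj).mpr d.2⟩
      left_inv := fun d => Subtype.ext (SimpleGraph.Dart.symm_symm _)
      right_inv := fun d => Subtype.ext (SimpleGraph.Dart.symm_symm _) }
  exact Fintype.sum_equiv e _ _ (fun d => rfl)

omit [Fintype V] [DecidableEq V] [DecidableRel G.Adj] in
theorem Graph_h5_const (hG : G.Connected) {α : Type} (f : V → α)
    (hf : ∀ u v, G.Adj u v → f u = f v) (u v : V) : f u = f v := by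
  obtain ⟨p⟩ := hG.preconnected u v
  induction p with
  | nil => rfl
  | cons h _ ih => exact (hf _ _ h).trans ih

omit [DecidableEq V] in
theorem Graph_h5_dart_const (hG : G.Connected) (R : RotationSystem G) {α : Type}
    (φ : G.Dart → α) (h1 : ∀ δ, φ δ.symm = φ δ) (h2 : ∀ δ, φ (R.rot δ) = φ δ)
    (δ δ' : G.Dart) : φ δ = φ δ' := by
  have hpow : ∀ (i : ℕ) (d : G.Dart), φ ((R.rot ^ i) d) = φ d := by
    intro i
    induction i with
    | zero => intro d; rfl
    | succ n ih => intro d; rw [pow_succ', Equiv.Perm.mul_apply, h2, ih]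
  have hsame : ∀ d d' : G.Dart, d.fst = d'.fst → φ d = φ d' := by
    intro d d' h
    obtain ⟨i, -, hi⟩ := (R.rot_sameCycle d d' h).exists_pow_eq'
    rw [← hi, hpow]
  have key : ∀ (u v : V) (p : G.Walk u v) (d d' : G.Dart), d.fst = u → d'.fst = v →
      φ d = φ d' := by
    intro u v p
    induction p with
    | nil => intro d d' e1 e2; exact hsame d d' (e1.trans e2.symm)
    | @cons a b c h _ ih =>
      intro d d' e1 e2
      have k1 : φ d = φ (⟨(a, b), h⟩ : G.Dart) := hsame _ _ e1
      rw [k1, ← h1]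
      exact ih _ _ rfl e2
  obtain ⟨p⟩ := hG.preconnected δ.fst δ'.fst
  exact key _ _ p δ δ' rfl rfl

/-- the faces of a cubic bipartite plane map are 3-colourable -/
theorem exists_fc (hcubic : G.IsRegularOfDegree 3) (col : G.Coloring (Fin 2)) (hG : G.Connected)
    (R : RotationSystem G)
    (hE : (Fintype.card V : ℤ) - (Nat.card G.edgeSet : ℤ) + (R.numFaces : ℤ) = 2) :
    ∃ fc : Face R → ZMod 3, ∀ δ : G.Dart, col δ.fst = 0 →
      fc (face R δ.symm) = fc (face R δ) + 1 := by
  classical
  let _ : Fintype (Face R) := Fintype.ofFinite _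
  let sg : V → ZMod 3 := fun v => if col v = 0 then 1 else -1
  have hsg : ∀ u v, G.Adj u v → sg v = - sg u := by
    intro u v h
    have := Graph_h5_col_ne col h
    by_cases hu : col u = 0
    · have hv : ¬ col v = 0 := fun hv => this.mp hv hu
      simp [sg, hu, hv]
    · have hv : col v = 0 := this.mpr hu
      simp [sg, hu, hv]
  have hsq : ∀ v, sg v * sg v = 1 := by
    intro v
    by_cases hv : col v = 0 <;> simp [sg, hv]
  let D2 : Matrix {δ : G.Dart // col δ.fst = 0} (Face R) (ZMod 3) := fun d f =>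
    (if f = face R d.1.symm then 1 else 0) - (if f = face R d.1 then 1 else 0)
  let D1 : Matrix V {δ : G.Dart // col δ.fst = 0} (ZMod 3) := fun v d =>
    (if v = d.1.fst then 1 else 0) + (if v = d.1.snd then 1 else 0)
  have hD2 : ∀ (y : Face R → ZMod 3) d,
      (D2.mulVec y) d = y (face R d.1.symm) - y (face R d.1) := by
    intro y d
    simp [D2, Matrix.mulVec, dotProduct, sub_mul, sum_sub_distrib]
  have hD1 : ∀ (g : G.Dart → ZMod 3), (∀ δ, g δ.symm = g δ) → ∀ v,
      (D1.mulVec (fun d => g d.1)) v = ∑ δ : G.Dart, if v = δ.fst then g δ else 0 := by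
    intro g hg v
    rw [← Graph_h5_sum_darts col]
    simp only [D1, Matrix.mulVec, dotProduct]
    refine sum_congr rfl fun d _ => ?_
    have : d.1.symm.fst = d.1.snd := rfl
    rw [hg, this, add_mul]
    simp
  have hD1T : ∀ (f : V → ZMod 3) d, (D1.transpose.mulVec f) d = f d.1.fst + f d.1.snd := by
    intro f d
    show ∑ x, ((if x = d.1.fst then (1 : ZMod 3) else 0) + (if x = d.1.snd then 1 else 0)) * f x
      = _
    simp [add_mul, sum_add_distrib]
  have hmul : D1 * D2 = 0 := by
    have hv : ∀ y : Face R → ZMod 3, (D1 * D2).mulVec y = 0 := by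
      intro y
      rw [← Matrix.mulVec_mulVec]
      let g : G.Dart → ZMod 3 := fun δ => sg δ.fst * (y (face R δ.symm) - y (face R δ))
      have hg : ∀ δ, g δ.symm = g δ := by
        intro δ
        have e1 : δ.symm.fst = δ.snd := rfl
        simp only [g, SimpleGraph.Dart.symm_symm, e1, hsg _ _ δ.adj]
        ring
      have e2 : D2.mulVec y = fun d => g d.1 := by
        funext d
        rw [hD2]
        have : sg d.1.fst = 1 := by simp [sg, d.2]
        simp only [g, this, one_mul]
      funext v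
      rw [e2, hD1 g hg v]
      have e3 : ∀ δ : G.Dart, (if v = δ.fst then g δ else 0)
          = (if v = (R.rot δ).fst then sg v * y (face R (R.rot δ)) else 0)
            - (if v = δ.fst then sg v * y (face R δ) else 0) := by
        intro δ
        rw [R.rot_fst, face_rot]
        by_cases h : v = δ.fst
        · rw [if_pos h, if_pos h, if_pos h]
          simp only [g, ← h]
          ring
        · simp [h]
      rw [sum_congr rfl (fun δ _ => e3 δ), sum_sub_distrib,
        Equiv.sum_comp R.rot (fun δ => if v = δ.fst then sg v * y (face R δ) else 0)]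
      simp
    ext v f
    have := congrFun (hv (Pi.single f 1)) v
    simpa using this
  have h2 : Module.finrank (ZMod 3) (LinearMap.ker D2.mulVecLin) ≤ 1 := by
    refine finrank_le_one_of _ (fun _ => 1) fun y hy => ?_
    have hy0 : ∀ d : {δ : G.Dart // col δ.fst = 0}, y (face R d.1.symm) = y (face R d.1) := by
      intro d
      have := congrFun (LinearMap.mem_ker.mp hy) d
      rw [Matrix.mulVecLin_apply, hD2] at this
      exact sub_eq_zero.mp this
    have hy1 : ∀ δ : G.Dart, y (face R δ.symm) = y (face R δ) := by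
      intro δ
      by_cases h : col δ.fst = 0
      · exact hy0 ⟨δ, h⟩
      · have := hy0 ⟨δ.symm, (Graph_h5_col_ne col δ.adj).mpr h⟩
        simpa using this.symm
    have hc := Graph_h5_dart_const hG R (fun δ => y (face R δ)) hy1
      (fun δ => by rw [face_rot]; exact hy1 δ)
    by_cases hne : Nonempty (Face R)
    · obtain ⟨f0⟩ := hne
      refine ⟨y f0, funext fun f => ?_⟩
      obtain ⟨δ0, rfl⟩ := face_surj R f0
      obtain ⟨δ, rfl⟩ := face_surj R f
      simpa using hc δ δ0
    · exact ⟨0, funext fun f => absurd ⟨f⟩ hne⟩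
  have h0 : Module.finrank (ZMod 3) (LinearMap.ker D1.transpose.mulVecLin) ≤ 1 := by
    refine finrank_le_one_of _ sg fun f hf => ?_
    have hf0 : ∀ d : {δ : G.Dart // col δ.fst = 0}, f d.1.fst + f d.1.snd = 0 := by
      intro d
      have := congrFun (LinearMap.mem_ker.mp hf) d
      rwa [Matrix.mulVecLin_apply, hD1T] at this
    have hf1 : ∀ u v, G.Adj u v → f u + f v = 0 := by
      intro u v h
      by_cases hu : col u = 0
      · exact hf0 ⟨⟨(u, v), h⟩, hu⟩
      · rw [add_comm]
        exact hf0 ⟨⟨(v, u), h.symm⟩, (Graph_h5_col_ne col h).mpr hu⟩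
    have hc := Graph_h5_const hG (fun v => sg v * f v) (fun u v h => by
      have e := hf1 u v h
      rw [hsg u v h]
      linear_combination (sg u) * e)
    obtain ⟨v0⟩ := hG.nonempty
    refine ⟨sg v0 * f v0, funext fun v => ?_⟩
    rw [Pi.smul_apply, smul_eq_mul, ← hc v v0]
    linear_combination (-(f v)) * hsq v
  have hc : Fintype.card {δ : G.Dart // col δ.fst = 0} + 2
      ≤ Fintype.card (Face R) + Fintype.card V := by
    have e1 := card_black_darts col
    have e2 : R.numFaces = Fintype.card (Face R) := Nat.card_eq_fintype_card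
    omega
  have hz : D1.mulVec (fun _ => (1 : ZMod 3)) = 0 := by
    funext v
    have e1 := hD1 (fun _ => 1) (fun _ => rfl) v
    have e2 : (univ.filter (fun δ : G.Dart => δ.fst = v)).card = 3 :=
      (G.dart_fst_fiber_card_eq_degree v).trans (hcubic v)
    rw [e1, Pi.zero_apply, ← sum_filter, sum_const, nsmul_eq_mul, mul_one]
    simp only [eq_comm (a := v)]
    rw [e2]
    decide
  obtain ⟨y, hy⟩ := exact_of_euler D1 D2 hmul h2 h0 hc _ hz
  refine ⟨y, fun δ hδ => ?_⟩
  have := congrFun hy ⟨δ, hδ⟩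
  rw [hD2] at this
  linear_combination this

/-- `D v i` is the dart at `v` of colour `i` -/
structure DartCol (col : G.Coloring (Fin 2)) (R : RotationSystem G) (fc : Face R → ZMod 3)
    (D : V → ZMod 3 → G.Dart) : Prop where
  fst : ∀ v i, (D v i).fst = v
  surj : ∀ δ : G.Dart, ∃ i, D δ.fst i = δ
  symm : ∀ v i, D (D v i).snd i = (D v i).symm
  black : ∀ v i, col v = 0 → R.rot (D v i) = D v (i + 1) ∧ fc (face R (D v i)) = i + 1
  white : ∀ v i, col v ≠ 0 → R.rot (D v i) = D v (i - 1) ∧ fc (face R (D v i)) = i - 1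

theorem exists_dartCol (hcubic : G.IsRegularOfDegree 3) (col : G.Coloring (Fin 2))
    (R : RotationSystem G) (fc : Face R → ZMod 3)
    (hfc : ∀ δ : G.Dart, col δ.fst = 0 → fc (face R δ.symm) = fc (face R δ) + 1) :
    ∃ D, DartCol col R fc D := by
  classical
  let k : G.Dart → ZMod 3 := fun δ =>
    if col δ.fst = 0 then fc (face R δ) - 1 else fc (face R δ) + 1
  have hcol : ∀ δ : G.Dart, col δ.fst = 0 ↔ col δ.snd ≠ 0 := by
    intro δ
    have h := col.valid δ.adj
    revert h
    generalize col δ.fst = a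
    generalize col δ.snd = b
    revert a b
    decide
  have hw : ∀ δ : G.Dart, col δ.fst ≠ 0 → fc (face R δ) = fc (face R δ.symm) + 1 := by
    intro δ h
    have h1 : col δ.symm.fst = 0 := by
      by_contra h2
      exact h ((hcol δ).mpr h2)
    have := hfc δ.symm h1
    rwa [SimpleGraph.Dart.symm_symm] at this
  have e1 : ∀ a : ZMod 3, a + 1 + 1 = a - 1 := by decide
  have e2 : ∀ a : ZMod 3, a - 1 = a + 1 + 1 := by decide
  have e3 : ∀ a : ZMod 3, a + 1 - 1 = a - 1 + 1 := by decide
  have ksymm : ∀ δ : G.Dart, k δ.symm = k δ := by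
    intro δ
    by_cases h : col δ.fst = 0
    · have h1 : ¬ col δ.symm.fst = 0 := (hcol δ).mp h
      simp only [k, if_pos h, if_neg h1]
      rw [hfc δ h, e1]
    · have h1 : col δ.symm.fst = 0 := by
        by_contra h2
        exact h ((hcol δ).mpr h2)
      simp only [k, if_pos h1, if_neg h]
      rw [hw δ h, e2]
  have krb : ∀ δ : G.Dart, col δ.fst = 0 → k (R.rot δ) = k δ + 1 := by
    intro δ h
    have h1 : col (R.rot δ).fst = 0 := by rw [R.rot_fst]; exact h
    simp only [k, if_pos h, if_pos h1]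
    rw [face_rot, hfc δ h, e3]
  have krw : ∀ δ : G.Dart, col δ.fst ≠ 0 → k (R.rot δ) = k δ - 1 := by
    intro δ h
    have h1 : ¬ col (R.rot δ).fst = 0 := by rw [R.rot_fst]; exact h
    simp only [k, if_neg h, if_neg h1]
    rw [face_rot, hw δ h]
    generalize fc (face R δ.symm) = a
    revert a
    decide
  have uniq : ∀ δ δ' : G.Dart, δ'.fst = δ.fst → k δ' = k δ → δ' = δ := by
    intro δ δ' h hk
    have n1 : ∀ a : ZMod 3, a + 1 ≠ a := by decide
    have n2 : ∀ a : ZMod 3, a + 1 + 1 ≠ a := by decide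
    have n3 : ∀ a : ZMod 3, a - 1 ≠ a := by decide
    have n4 : ∀ a : ZMod 3, a - 1 - 1 ≠ a := by decide
    rcases rot_three hcubic R δ δ' h with h1 | h1 | h1
    · exact h1
    · exfalso
      rw [h1] at hk
      by_cases hb : col δ.fst = 0
      · rw [krb δ hb] at hk; exact n1 _ hk
      · rw [krw δ hb] at hk; exact n3 _ hk
    · exfalso
      rw [h1] at hk
      by_cases hb : col δ.fst = 0
      · rw [krb _ (by rw [R.rot_fst]; exact hb), krb δ hb] at hk; exact n2 _ hk
      · rw [krw _ (by rw [R.rot_fst]; exact hb), krw δ hb] at hk; exact n4 _ hk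
  have ex : ∀ (v : V) (i : ZMod 3), ∃ δ : G.Dart, δ.fst = v ∧ k δ = i := by
    intro v i
    have hd : 0 < G.degree v := by rw [hcubic v]; norm_num
    obtain ⟨w, hw'⟩ := (G.degree_pos_iff_exists_adj v).mp hd
    let δ : G.Dart := ⟨(v, w), hw'⟩
    have hδ : δ.fst = v := rfl
    have c1 : ∀ a b : ZMod 3, a = b ∨ a + 1 = b ∨ a + 1 + 1 = b := by decide
    have c2 : ∀ a b : ZMod 3, a = b ∨ a - 1 = b ∨ a - 1 - 1 = b := by decide
    by_cases hb : col δ.fst = 0
    · rcases c1 (k δ) i with h | h | h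
      · exact ⟨δ, hδ, h⟩
      · exact ⟨R.rot δ, by rw [R.rot_fst], by rw [krb δ hb, h]⟩
      · exact ⟨R.rot (R.rot δ), by rw [R.rot_fst, R.rot_fst],
          by rw [krb _ (by rw [R.rot_fst]; exact hb), krb δ hb, h]⟩
    · rcases c2 (k δ) i with h | h | h
      · exact ⟨δ, hδ, h⟩
      · exact ⟨R.rot δ, by rw [R.rot_fst], by rw [krw δ hb, h]⟩
      · exact ⟨R.rot (R.rot δ), by rw [R.rot_fst, R.rot_fst],
          by rw [krw _ (by rw [R.rot_fst]; exact hb), krw δ hb, h]⟩
  choose D hD1 hD2 using ex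
  refine ⟨D, hD1, fun δ => ⟨k δ, uniq _ _ (hD1 _ _) (hD2 _ _)⟩, fun v i => ?_,
    fun v i h => ⟨?_, ?_⟩, fun v i h => ⟨?_, ?_⟩⟩
  · exact uniq _ _ (hD1 _ _) (by rw [hD2, ksymm, hD2])
  · have hb : col (D v i).fst = 0 := by rw [hD1]; exact h
    exact uniq _ _ (by rw [R.rot_fst, hD1, hD1]) (by rw [krb _ hb, hD2, hD2])
  · have hb : col (D v i).fst = 0 := by rw [hD1]; exact h
    have := hD2 v i
    simp only [k, if_pos hb] at this
    exact sub_eq_iff_eq_add.mp this
  · have hb : ¬ col (D v i).fst = 0 := by rw [hD1]; exact h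
    exact uniq _ _ (by rw [R.rot_fst, hD1, hD1]) (by rw [krw _ hb, hD2, hD2])
  · have hb : ¬ col (D v i).fst = 0 := by rw [hD1]; exact h
    have := hD2 v i
    simp only [k, if_neg hb] at this
    exact eq_sub_of_add_eq this

/-- `T` describes the graph `G` -/
structure Models (col : G.Coloring (Fin 2)) {F : Type}
    (T : Tri {v : V // col v = 0} {v : V // col v ≠ 0} F) : Prop where
  adj : ∀ i t, G.Adj t.1 (T.m i t).1
  surj : ∀ (t : {v : V // col v = 0}) w, G.Adj t.1 w → ∃ i, (T.m i t).1 = w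
  inj : ∀ t i j, T.m i t = T.m j t → i = j

theorem Graph_h11_fin2 : ∀ a b : Fin 2, a ≠ b → a ≠ 0 → b = 0 := by decide

theorem Graph_h11_z3 : ∀ i j : ZMod 3, j ≠ i →
    (j + 1 = i - 1 ∧ j - 1 = i) ∨ (j + 1 = i ∧ j - 1 = i + 1) := by decide

theorem exists_tri (col : G.Coloring (Fin 2)) (R : RotationSystem G) (fc : Face R → ZMod 3)
    (D : V → ZMod 3 → G.Dart) (hD : DartCol col R fc D) :
    ∃ T : Tri {v : V // col v = 0} {v : V // col v ≠ 0} (Face R), Models col T ∧
      ∀ f : Face R, ∃ t j, T.c t j = f := by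
  have hadj : ∀ v i, G.Adj v (D v i).snd := by
    intro v i
    have := (D v i).adj
    rwa [hD.fst] at this
  have hb : ∀ v i, col v = 0 → col (D v i).snd ≠ 0 := by
    intro v i h h'
    exact col.valid (hadj v i) (h.trans h'.symm)
  have hw : ∀ v i, col v ≠ 0 → col (D v i).snd = 0 := fun v i h =>
    Graph_h11_fin2 _ _ (col.valid (hadj v i)) h
  have hinv : ∀ v i, (D (D v i).snd i).snd = v := by
    intro v i
    rw [hD.symm]
    exact hD.fst v i
  let m : ZMod 3 → {v : V // col v = 0} ≃ {v : V // col v ≠ 0} := fun i =>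
    { toFun := fun t => ⟨(D t.1 i).snd, hb _ _ t.2⟩
      invFun := fun w => ⟨(D w.1 i).snd, hw _ _ w.2⟩
      left_inv := fun t => Subtype.ext (hinv _ _)
      right_inv := fun w => Subtype.ext (hinv _ _) }
  have hblack : ∀ δ : G.Dart, col δ.fst = 0 →
      ∃ (t : {v : V // col v = 0}) (j : ZMod 3), face R (D t.1 (j - 1)) = face R δ := by
    intro δ h
    obtain ⟨i, hi⟩ := hD.surj δ
    exact ⟨⟨δ.fst, h⟩, i + 1, by rw [add_sub_cancel_right]; exact congrArg _ hi⟩
  refine ⟨⟨m, fun t j => face R (D t.1 (j - 1)), fun w j => face R (D w.1 (j + 1)), ?_, ?_⟩,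
    ⟨?_, ?_, ?_⟩, ?_⟩
  · intro i j t hj
    show face R (D (D t.1 i).snd (j + 1)) = face R (D t.1 (j - 1))
    rcases Graph_h11_z3 i j hj with ⟨h1, h2⟩ | ⟨h1, h2⟩
    · rw [h1, h2, ← (hD.white _ i (hb _ i t.2)).1, hD.symm, face_step]
    · rw [h1, h2, hD.symm, ← (hD.black _ i t.2).1, face_rot]
  · intro t t' i j h
    have h1 := (hD.black _ (i - 1) t.2).2
    have h2 := (hD.black _ (j - 1) t'.2).2
    have h3 : fc (face R (D t.1 (i - 1))) = fc (face R (D t'.1 (j - 1))) := congrArg fc h
    rw [h1, h2, sub_add_cancel, sub_add_cancel] at h3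
    exact h3
  · intro i t
    exact hadj _ _
  · intro t w h
    obtain ⟨i, hi⟩ := hD.surj ⟨(t.1, w), h⟩
    refine ⟨i, ?_⟩
    show (D t.1 i).snd = w
    have hi' : D t.1 i = ⟨(t.1, w), h⟩ := hi
    rw [hi']
  · intro t i j h
    have h1 : (D t.1 i).snd = (D t.1 j).snd := congrArg Subtype.val h
    have h2 : D t.1 i = D t.1 j := by
      apply SimpleGraph.Dart.ext
      exact Prod.ext ((hD.fst _ _).trans (hD.fst _ _).symm) h1
    have h3 := (hD.black _ i t.2).2
    rw [h2, (hD.black _ j t.2).2] at h3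
    exact (add_right_cancel h3).symm
  · intro f
    obtain ⟨δ, rfl⟩ := face_surj R f
    by_cases h : col δ.fst = 0
    · exact hblack δ h
    · rw [← face_step R δ]
      apply hblack
      rw [R.rot_fst]
      exact Graph_h11_fin2 _ _ (col.valid δ.adj) h

theorem card_faces (hcubic : G.IsRegularOfDegree 3) (col : G.Coloring (Fin 2))
    (R : RotationSystem G)
    (hE : (Fintype.card V : ℤ) - (Nat.card G.edgeSet : ℤ) + (R.numFaces : ℤ) = 2)
    (e : {v : V // col v = 0} ≃ {v : V // col v ≠ 0}) :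
    Nat.card (Face R) = Fintype.card {v : V // col v = 0} + 2 := by
  have h1 : Fintype.card V = 2 * Fintype.card {v : V // col v = 0} := by
    have h2 := Fintype.card_congr e
    have h3 := Fintype.card_subtype_compl (fun v : V => col v = 0)
    have h4 := Fintype.card_subtype_le (fun v : V => col v = 0)
    have h5 : Fintype.card {v : V // col v ≠ 0} = Fintype.card {v : V // ¬ col v = 0} := by
      congr
    omega
  have h2 : 3 * Fintype.card V = 2 * Nat.card G.edgeSet := by
    have h3 := G.sum_degrees_eq_twice_card_edges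
    rw [Finset.sum_congr rfl (fun v _ => hcubic v), sum_const, card_univ, smul_eq_mul] at h3
    rw [Nat.card_eq_fintype_card, ← G.edgeFinset_card]
    omega
  have h3 : R.numFaces = Nat.card (Face R) := rfl
  rw [h3] at hE
  omega

theorem three_edge_conn (hcubic : G.IsRegularOfDegree 3) (hconn : IsThreeConnected G)
    (S : Finset V) (hS : S.Nonempty) (hS' : S ≠ univ) :
    3 ≤ (univ.filter (fun δ : G.Dart => δ.fst ∈ S ∧ δ.snd ∉ S)).card := by
  have h := Pre22.three_le_cut hcubic hconn (↑S : Set V) (by simpa using hS) (by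
    obtain ⟨b, hb⟩ : ∃ b, b ∉ S := by
      by_contra hc
      push Not at hc
      exact hS' (Finset.eq_univ_iff_forall.2 hc)
    exact ⟨b, by simpa using hb⟩)
  rw [← Set.ncard_coe_finset]
  convert h using 2
  ext δ
  simp

theorem cut3_of_models (hcubic : G.IsRegularOfDegree 3) (hconn : IsThreeConnected G)
    (col : G.Coloring (Fin 2)) {F : Type} [Fintype F] [DecidableEq F]
    (T : Tri {v : V // col v = 0} {v : V // col v ≠ 0} F) (hT : Models col T) : T.Cut3 := by
  classical
  intro R hR hR'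
  let tri : V → {v : V // col v = 0} ⊕ {v : V // col v ≠ 0} := fun v =>
    if h : col v = 0 then Sum.inl ⟨v, h⟩ else Sum.inr ⟨v, h⟩
  have hl : ∀ t : {v : V // col v = 0}, tri t.1 = Sum.inl t := fun t => by simp [tri, t.2]
  have hr : ∀ w : {v : V // col v ≠ 0}, tri w.1 = Sum.inr w := fun w => by simp [tri, w.2]
  have hsurj : ∀ x, ∃ v, tri v = x := by
    rintro (t | w)
    · exact ⟨_, hl t⟩
    · exact ⟨_, hr w⟩
  have h := three_edge_conn hcubic hconn (univ.filter fun v => tri v ∈ R) (by
    obtain ⟨x, hx⟩ := hR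
    obtain ⟨v, rfl⟩ := hsurj x
    exact ⟨v, by simpa using hx⟩) (by
    intro hc
    apply hR'
    rw [Finset.eq_univ_iff_forall] at hc ⊢
    intro x
    obtain ⟨v, rfl⟩ := hsurj x
    simpa using hc v)
  let φ : {v : V // col v = 0} × ZMod 3 → G.Dart := fun e =>
    if Sum.inl e.1 ∈ R then ⟨(e.1.1, (T.m e.2 e.1).1), hT.adj e.2 e.1⟩
    else ⟨((T.m e.2 e.1).1, e.1.1), (hT.adj e.2 e.1).symm⟩
  refine h.trans ((Finset.card_le_card (t := (T.cut R).image φ) ?_).trans Finset.card_image_le)
  intro δ hδ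
  simp only [mem_filter, mem_univ, true_and] at hδ
  obtain ⟨h1, h2⟩ := hδ
  rw [Finset.mem_image]
  by_cases h0 : col δ.fst = 0
  · obtain ⟨i, hi⟩ := hT.surj ⟨δ.fst, h0⟩ δ.snd δ.adj
    have a1 : Sum.inl (⟨δ.fst, h0⟩ : {v : V // col v = 0}) ∈ R := hl ⟨δ.fst, h0⟩ ▸ h1
    have a2 : T.wh (⟨δ.fst, h0⟩, i) ∉ R := by
      rw [← hi, hr] at h2; exact h2
    refine ⟨(⟨δ.fst, h0⟩, i), by simp [Tri.cut, a1, a2], ?_⟩
    simp only [φ, a1, if_true]
    exact SimpleGraph.Dart.ext _ _ (Prod.ext rfl hi)
  · have h0' : col δ.snd = 0 := by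
      have := col.valid δ.adj
      omega
    obtain ⟨i, hi⟩ := hT.surj ⟨δ.snd, h0'⟩ δ.fst δ.adj.symm
    have a1 : Sum.inl (⟨δ.snd, h0'⟩ : {v : V // col v = 0}) ∉ R := hl ⟨δ.snd, h0'⟩ ▸ h2
    have a2 : T.wh (⟨δ.snd, h0'⟩, i) ∈ R := by
      rw [← hi, hr] at h1; exact h1
    refine ⟨(⟨δ.snd, h0'⟩, i), by simp [Tri.cut, a1, a2], ?_⟩
    simp only [φ, a1, if_false]
    exact SimpleGraph.Dart.ext _ _ (Prod.ext hi rfl)

theorem ham_of_two_regular (H : SimpleGraph V) (hle : H ≤ G)
    (h2 : ∀ v, (H.neighborSet v).ncard = 2) (hH : H.Connected) : G.IsHamiltonian :=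
  Pre22.isHamiltonian_of_two_regular hle hH h2

theorem ham_of_good (col : G.Coloring (Fin 2)) {F : Type} [Fintype F] [DecidableEq F]
    (T : Tri {v : V // col v = 0} {v : V // col v ≠ 0} F) (hT : Models col T) [Nonempty V]
    (μ : {v : V // col v = 0} → ZMod 3) (hμ : T.Good μ) : G.IsHamiltonian :=
  GraphH23_ham (fun v => col v) T hT.adj hT.inj μ hμ.1 hμ.2

end Crest.Agent.R39
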