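import Crest.Agent.R39.Euler

set_option autoImplicit false

namespace Crest.Agent.R39

open Finset

section
variable {P V : Type} [Fintype P] [DecidableEq P] [Fintype V] [DecidableEq V]

theorem gadget (c : P → ZMod 3 → V) (V' : Finset V) (hcard : V'.card = Fintype.card P)
    (h : ∀ U ⊆ V', 2 * U.card ≤ ∑ t, min 2 (univ.filter (fun j => c t j ∈ U)).card) :
    ∃ u : P → ZMod 3, (∀ t j, j ≠ u t → c t j ∈ V') ∧
      ∀ v, (univ.filter (fun e : P × ZMod 3 => e.2 ≠ u e.1 ∧ c e.1 e.2 = v)).card ≤ 2 := by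
  classical
  let N : ({v // v ∈ V'} × Bool) ⊕ P → Finset (P × ZMod 3) := fun x =>
    Sum.elim (fun y : {v // v ∈ V'} × Bool => univ.filter (fun e : P × ZMod 3 => c e.1 e.2 = y.1.1))
      (fun t : P => univ.filter (fun e : P × ZMod 3 => e.1 = t)) x
  have hall : ∀ A : Finset (({v // v ∈ V'} × Bool) ⊕ P), A.card ≤ (A.biUnion N).card := by
    intro A
    let U0 : Finset {v // v ∈ V'} := univ.filter (fun v => ∃ b, Sum.inl (v, b) ∈ A)
    let U : Finset V := U0.map (Function.Embedding.subtype _)
    let A2 : Finset P := univ.filter (fun t => Sum.inr t ∈ A)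
    have hU : U ⊆ V' := by
      intro v hv
      obtain ⟨w, _, rfl⟩ := Finset.mem_map.mp hv
      exact w.2
    have hA : A.card ≤ 2 * U.card + A2.card := by
      have hsub : A ⊆ (U0 ×ˢ (univ : Finset Bool)).disjSum A2 := by
        rintro (⟨v, b⟩ | t) hx
        · rw [Finset.inl_mem_disjSum, Finset.mem_product]
          exact ⟨mem_filter.mpr ⟨mem_univ _, b, hx⟩, mem_univ _⟩
        · rw [Finset.inr_mem_disjSum]
          exact mem_filter.mpr ⟨mem_univ _, hx⟩
      have := Finset.card_le_card hsub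
      rw [Finset.card_disjSum, Finset.card_product, Finset.card_univ, Fintype.card_bool] at this
      have hUc : U.card = U0.card := Finset.card_map _
      omega
    have hS : univ.filter (fun e : P × ZMod 3 => c e.1 e.2 ∈ U ∨ e.1 ∈ A2) ⊆ A.biUnion N := by
      intro e he
      rw [Finset.mem_biUnion]
      rcases (mem_filter.mp he).2 with h1 | h1
      · obtain ⟨w, hw, hw2⟩ := Finset.mem_map.mp h1
        obtain ⟨b, hb⟩ := (mem_filter.mp hw).2
        exact ⟨Sum.inl (w, b), hb, mem_filter.mpr ⟨mem_univ _, hw2.symm⟩⟩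
      · exact ⟨Sum.inr e.1, (mem_filter.mp h1).2, mem_filter.mpr ⟨mem_univ _, rfl⟩⟩
    have hS2 : (univ.filter (fun e : P × ZMod 3 => c e.1 e.2 ∈ U ∨ e.1 ∈ A2)).card
        = ∑ t, (univ.filter (fun j : ZMod 3 => c t j ∈ U ∨ t ∈ A2)).card := by
      simp only [Finset.card_filter]
      rw [Fintype.sum_prod_type]
    have hS3 : ∑ t, min 2 (univ.filter (fun j => c t j ∈ U)).card + A2.card
        ≤ ∑ t, (univ.filter (fun j : ZMod 3 => c t j ∈ U ∨ t ∈ A2)).card := by
      have hA2 : A2.card = ∑ t : P, if t ∈ A2 then 1 else 0 := by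
        rw [← Finset.card_filter]
        congr 1
        ext t
        simp
      rw [hA2, ← Finset.sum_add_distrib]
      apply Finset.sum_le_sum
      intro t _
      by_cases ht : t ∈ A2
      · have : (univ.filter (fun j : ZMod 3 => c t j ∈ U ∨ t ∈ A2)) = univ := by
          ext j
          simp [ht]
        rw [this, Finset.card_univ, ZMod.card, if_pos ht]
        omega
      · have : (univ.filter (fun j : ZMod 3 => c t j ∈ U ∨ t ∈ A2))
            = univ.filter (fun j => c t j ∈ U) := by
          ext j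
          simp [ht]
        rw [this, if_neg ht]
        omega
    have h1 := h U hU
    have h2 := Finset.card_le_card hS
    omega
  obtain ⟨f, hfi, hfN⟩ := (Finset.all_card_le_biUnion_card_iff_exists_injective N).mp hall
  have hbij : Function.Bijective f := by
    rw [Fintype.bijective_iff_injective_and_card]
    refine ⟨hfi, ?_⟩
    simp only [Fintype.card_sum, Fintype.card_prod, Fintype.card_coe, Fintype.card_bool, ZMod.card]
    omega
  have key : ∀ t j, j ≠ (f (Sum.inr t)).2 →
      ∃ y : {v // v ∈ V'} × Bool, f (Sum.inl y) = (t, j) ∧ c t j = y.1.1 := by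
    intro t j hj
    obtain ⟨x, hx⟩ := hbij.2 (t, j)
    rcases x with y | t'
    · refine ⟨y, hx, ?_⟩
      have := (mem_filter.mp (hfN (Sum.inl y))).2
      rw [hx] at this
      exact this
    · exfalso
      have := (mem_filter.mp (hfN (Sum.inr t'))).2
      rw [hx] at this
      have ht : t = t' := this
      subst ht
      apply hj
      rw [hx]
  refine ⟨fun t => (f (Sum.inr t)).2, ?_, ?_⟩
  · intro t j hj
    obtain ⟨y, _, hy⟩ := key t j hj
    rw [hy]
    exact y.1.2
  · intro v
    by_cases hv : v ∈ V'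
    · have hsub : univ.filter (fun e : P × ZMod 3 => e.2 ≠ (f (Sum.inr e.1)).2 ∧ c e.1 e.2 = v)
          ⊆ (univ : Finset Bool).image (fun b => f (Sum.inl (⟨v, hv⟩, b))) := by
        rintro ⟨t, j⟩ he
        obtain ⟨h1, h2⟩ := (mem_filter.mp he).2
        obtain ⟨⟨⟨w, hw⟩, b⟩, hy1, hy2⟩ := key t j h1
        have hwv : w = v := hy2.symm.trans h2
        subst hwv
        exact Finset.mem_image.mpr ⟨b, mem_univ _, hy1⟩
      have h1 := Finset.card_le_card hsub
      have h2 : ((univ : Finset Bool).image (fun b => f (Sum.inl (⟨v, hv⟩, b)))).card ≤ 2 := by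
        refine Finset.card_image_le.trans ?_
        simp
      exact h1.trans h2
    · have : univ.filter (fun e : P × ZMod 3 => e.2 ≠ (f (Sum.inr e.1)).2 ∧ c e.1 e.2 = v) = ∅ := by
        apply Finset.filter_eq_empty_iff.mpr
        rintro ⟨t, j⟩ _ ⟨h1, h2⟩
        obtain ⟨y, _, hy⟩ := key t j h1
        apply hv
        rw [← h2]
        show c t j ∈ V'
        rw [hy]
        exact y.1.2
      rw [this]
      simp

theorem Hall_h11_third : ∀ a b : ZMod 3, b ≠ a → -(a + b) ≠ a ∧ b ≠ -(a + b) := by decide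

theorem Hall_h11_two : ∀ a : ZMod 3, (univ.filter (fun j => j ≠ a)).card = 2 := by decide

theorem split_two (c : P → ZMod 3 → V) (V' : Finset V) (hcard : V'.card = Fintype.card P)
    (u : P → ZMod 3) (h1 : ∀ t j, j ≠ u t → c t j ∈ V')
    (h2 : ∀ v, (univ.filter (fun e : P × ZMod 3 => e.2 ≠ u e.1 ∧ c e.1 e.2 = v)).card ≤ 2) :
    ∃ r s, IsState c V' r ∧ IsState c V' s ∧ ∀ t, r t ≠ s t := by
  have hall : ∀ A : Finset P, A.card ≤
      (A.biUnion (fun t => (univ.filter (fun j => j ≠ u t)).image (c t))).card := by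
    intro A
    set E : Finset (P × ZMod 3) := univ.filter (fun e => e.1 ∈ A ∧ e.2 ≠ u e.1) with hE
    have e1 : E.card = 2 * A.card := by
      rw [card_eq_sum_card_fiberwise (f := Prod.fst) (t := A) (s := E)
        (fun e he => (mem_filter.1 he).2.1), mul_comm, ← smul_eq_mul, ← sum_const]
      refine sum_congr rfl fun t ht => ?_
      rw [← Hall_h11_two (u t)]
      refine card_bij' (fun e _ => e.2) (fun j _ => (t, j)) ?_ ?_ ?_ ?_
      · intro e he
        simp only [hE, mem_filter, mem_univ, true_and] at he ⊢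
        rw [← he.2]; exact he.1.2
      · intro j hj
        simp only [hE, mem_filter, mem_univ, true_and] at hj ⊢
        exact ⟨⟨ht, hj⟩, trivial⟩
      · intro e he
        simp only [hE, mem_filter, mem_univ, true_and] at he
        rw [← he.2]
      · intro j _
        rfl
    have e2 : E.card ≤ 2 *
        (A.biUnion (fun t => (univ.filter (fun j => j ≠ u t)).image (c t))).card := by
      refine card_le_mul_card_image_of_maps_to (f := fun e : P × ZMod 3 => c e.1 e.2) ?_ 2 ?_
      · intro e he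
        simp only [hE, mem_filter, mem_univ, true_and] at he
        simp only [mem_biUnion, mem_image, mem_filter, mem_univ, true_and]
        exact ⟨e.1, he.1, e.2, he.2, rfl⟩
      · intro v _
        refine le_trans (card_le_card ?_) (h2 v)
        intro e he
        simp only [hE, mem_filter, mem_univ, true_and] at he ⊢
        exact ⟨he.1.2, he.2⟩
    omega
  obtain ⟨f, hf, hm⟩ := (all_card_le_biUnion_card_iff_exists_injective _).1 hall
  have hm' : ∀ t, ∃ j, j ≠ u t ∧ c t j = f t := by
    intro t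
    simpa only [mem_image, mem_filter, mem_univ, true_and] using hm t
  choose r hr hrf using hm'
  have hrinj : Function.Injective (fun t => c t (r t)) := by
    intro t t' h
    apply hf
    rw [← hrf t, ← hrf t']; exact h
  have hsurj : ∀ v ∈ V', ∃ t, c t (r t) = v := by
    intro v hv
    have : univ.image (fun t => c t (r t)) = V' := by
      apply eq_of_subset_of_card_le
      · intro x hx
        obtain ⟨t, -, rfl⟩ := mem_image.1 hx
        exact h1 t _ (hr t)
      · rw [card_image_of_injective _ hrinj, hcard, card_univ]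
    rw [← this] at hv
    obtain ⟨t, -, ht⟩ := mem_image.1 hv
    exact ⟨t, ht⟩
  refine ⟨r, fun t => -(u t + r t), ⟨fun t => h1 t _ (hr t), hrinj⟩,
    ⟨fun t => h1 t _ (Hall_h11_third _ _ (hr t)).1, ?_⟩, fun t => (Hall_h11_third _ _ (hr t)).2⟩
  intro t t' h
  by_contra hne
  obtain ⟨t0, ht0⟩ := hsurj _ (h1 t _ (Hall_h11_third _ _ (hr t)).1)
  have h3 : 2 < (univ.filter (fun e : P × ZMod 3 =>
      e.2 ≠ u e.1 ∧ c e.1 e.2 = c t (-(u t + r t)))).card := by
    rw [two_lt_card_iff]
    refine ⟨(t, -(u t + r t)), (t', -(u t' + r t')), (t0, r t0), ?_, ?_, ?_, ?_, ?_, ?_⟩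
    · simp only [mem_filter, mem_univ, true_and]
      exact ⟨(Hall_h11_third _ _ (hr t)).1, trivial⟩
    · simp only [mem_filter, mem_univ, true_and]
      exact ⟨(Hall_h11_third _ _ (hr t')).1, h.symm⟩
    · simp only [mem_filter, mem_univ, true_and]
      exact ⟨hr t0, ht0⟩
    · intro e; exact hne (congrArg Prod.fst e)
    · intro e
      obtain ⟨e1, e2⟩ := Prod.mk.inj e
      rw [← e1] at e2
      exact (Hall_h11_third _ _ (hr t)).2 e2.symm
    · intro e
      obtain ⟨e1, e2⟩ := Prod.mk.inj e
      rw [← e1] at e2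
      exact (Hall_h11_third _ _ (hr t')).2 e2.symm
  exact absurd (h2 _) (not_le.2 h3)

end

namespace Tri

variable {B W V : Type} [Fintype B] [Fintype W] [Fintype V]
  [DecidableEq B] [DecidableEq W] [DecidableEq V] (T : Tri B W V)

theorem region_bound (h3 : T.Cut3) (b0 : B) (hb : T.Base b0) (Q : Finset (B ⊕ W))
    (hne : Q.Nonempty) (hQ : Sum.inl b0 ∉ Q) :
    6 ≤ (T.outB Q).card + 2 * (T.outW Q).card ∨ ∃ t, Q = {Sum.inl t} := by
  have hu : Q ≠ univ := fun h => hQ (h ▸ mem_univ _)
  have a1 := T.card_touched_B Q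
  have a2 := T.card_touched_W Q
  have a3 := T.card_cut Q
  have a4 := h3 Q hne hu
  by_cases h : 6 ≤ (T.outB Q).card + 2 * (T.outW Q).card
  · exact Or.inl h
  right
  have hx : (T.outB Q).card = 3 := by omega
  have hy : (T.outW Q).card = 0 := by omega
  have a5 := hb Q hQ hx hy
  have a6 : Q.card = nB Q + nW Q := card_eq_nB_add_nW Q
  have hB : nB Q = 1 := by omega
  have hc : Q.card = 1 := by omega
  obtain ⟨x, rfl⟩ := card_eq_one.mp hc
  have hn : (univ.filter (fun t : B => Sum.inl t ∈ ({x} : Finset (B ⊕ W)))).Nonempty := by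
    rw [← card_pos]
    unfold nB at hB
    omega
  obtain ⟨t, ht⟩ := hn
  have ht' : Sum.inl t = x := mem_singleton.mp (mem_filter.mp ht).2
  exact ⟨t, by rw [ht']⟩

theorem region_sum (h3 : T.Cut3) (b0 : B) (hb : T.Base b0) (U : Finset V)
    (rep : B ⊕ W → B ⊕ W) (h1 : ∀ e, e ∉ T.EY U → rep (Sum.inl e.1) = rep (T.wh e))
    (h2 : ∀ x, rep x = rep (Sum.inl b0) → x = Sum.inl b0) :
    2 * (univ.image rep).card
      ≤ (T.EY U).card + (univ.filter (fun t => ∀ j, T.c t j ∉ U)).card := by
  have key : ∀ z ∈ univ.image rep,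
      6 ≤ ((T.EY U).filter (fun e => rep (Sum.inl e.1) = z)).card
        + 2 * ((T.EY U).filter (fun e => rep (T.wh e) = z)).card
        + 3 * ((univ.filter (fun t => ∀ j, T.c t j ∉ U)).filter
            (fun t => rep (Sum.inl t) = z)).card := by
    intro z hz
    obtain ⟨x0, -, hx0⟩ := mem_image.mp hz
    obtain ⟨Q, hQ⟩ : ∃ Q : Finset (B ⊕ W), ∀ x, x ∈ Q ↔ rep x = z :=
      ⟨univ.filter (fun x => rep x = z), fun x => by simp⟩
    have hsing : ∀ t, Q = {Sum.inl t} →
        6 ≤ ((T.EY U).filter (fun e => rep (Sum.inl e.1) = z)).card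
        + 2 * ((T.EY U).filter (fun e => rep (T.wh e) = z)).card
        + 3 * ((univ.filter (fun t => ∀ j, T.c t j ∉ U)).filter
            (fun t => rep (Sum.inl t) = z)).card := by
      intro t ht
      have htz : rep (Sum.inl t) = z := (hQ _).mp (by rw [ht]; exact mem_singleton_self _)
      have hE : ∀ i, (t, i) ∈ T.EY U := by
        intro i
        by_contra hn
        have e1 := h1 (t, i) hn
        have e2 : T.wh (t, i) ∈ Q := (hQ _).mpr (by rw [← e1]; exact htz)
        rw [ht, mem_singleton] at e2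
        exact Sum.inr_ne_inl e2
      have b1 : 3 ≤ ((T.EY U).filter (fun e => rep (Sum.inl e.1) = z)).card := by
        have : (univ.image (fun i : ZMod 3 => (t, i))) ⊆
            (T.EY U).filter (fun e => rep (Sum.inl e.1) = z) := by
          intro e he
          obtain ⟨i, -, rfl⟩ := mem_image.mp he
          exact mem_filter.mpr ⟨hE i, htz⟩
        have hc := card_le_card this
        rw [card_image_of_injective _ (fun i j hij => (Prod.ext_iff.mp hij).2), card_univ,
          ZMod.card] at hc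
        exact hc
      have b2 : 1 ≤ ((univ.filter (fun t => ∀ j, T.c t j ∉ U)).filter
            (fun t => rep (Sum.inl t) = z)).card := by
        refine card_pos.mpr ⟨t, mem_filter.mpr ⟨mem_filter.mpr ⟨mem_univ _, fun j => ?_⟩, htz⟩⟩
        have := (mem_filter.mp (hE (j - 1))).2.1
        simpa using this
      omega
    by_cases hb0 : Sum.inl b0 ∈ Q
    · refine hsing b0 ?_
      ext x
      rw [mem_singleton]
      constructor
      · intro hx
        exact h2 x (((hQ _).mp hx).trans ((hQ _).mp hb0).symm)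
      · rintro rfl
        exact hb0
    · rcases T.region_bound h3 b0 hb Q ⟨x0, (hQ _).mpr hx0⟩ hb0 with h | ⟨t, ht⟩
      · have c1 : T.outB Q ⊆ (T.EY U).filter (fun e => rep (Sum.inl e.1) = z) := by
          intro e he
          obtain ⟨p1, p2⟩ := (mem_filter.mp he).2
          refine mem_filter.mpr ⟨?_, (hQ _).mp p1⟩
          by_contra hn
          exact p2 ((hQ _).mpr ((h1 e hn).symm.trans ((hQ _).mp p1)))
        have c2 : T.outW Q ⊆ (T.EY U).filter (fun e => rep (T.wh e) = z) := by
          intro e he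
          obtain ⟨p1, p2⟩ := (mem_filter.mp he).2
          refine mem_filter.mpr ⟨?_, (hQ _).mp p2⟩
          by_contra hn
          exact p1 ((hQ _).mpr ((h1 e hn).trans ((hQ _).mp p2)))
        have d1 := card_le_card c1
        have d2 := card_le_card c2
        omega
      · exact hsing t ht
  have s1 : (T.EY U).card = ∑ z ∈ univ.image rep,
      ((T.EY U).filter (fun e => rep (Sum.inl e.1) = z)).card :=
    card_eq_sum_card_fiberwise (fun e _ => mem_coe.mpr (mem_image_of_mem rep (mem_univ _)))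
  have s2 : (T.EY U).card = ∑ z ∈ univ.image rep,
      ((T.EY U).filter (fun e => rep (T.wh e) = z)).card :=
    card_eq_sum_card_fiberwise (fun e _ => mem_coe.mpr (mem_image_of_mem rep (mem_univ _)))
  have s3 : (univ.filter (fun t => ∀ j, T.c t j ∉ U)).card = ∑ z ∈ univ.image rep,
      ((univ.filter (fun t => ∀ j, T.c t j ∉ U)).filter
            (fun t => rep (Sum.inl t) = z)).card :=
    card_eq_sum_card_fiberwise (fun e _ => mem_coe.mpr (mem_image_of_mem rep (mem_univ _)))
  have s4 := sum_le_sum key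
  rw [sum_const, smul_eq_mul, sum_add_distrib, sum_add_distrib, ← mul_sum, ← mul_sum,
    ← s1, ← s2, ← s3] at s4
  omega

theorem Hall_h11_bool : ∀ b : ZMod 3 → Bool,
    min 2 (univ.filter (fun j => b j = true)).card
      + (univ.filter (fun i => ¬ b (i + 1) = true ∧ ¬ b (i + 2) = true)).card
      = 2 + if (∀ j, ¬ b j = true) then 1 else 0 := by decide

theorem min_sum (U : Finset V) :
    ∑ t, min 2 (univ.filter (fun j => T.c t j ∈ U)).card + (T.EY U).card
      = 2 * Fintype.card B + (univ.filter (fun t => ∀ j, T.c t j ∉ U)).card := by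
  have e1 : (T.EY U).card = ∑ t : B,
      (univ.filter (fun i : ZMod 3 => T.c t (i + 1) ∉ U ∧ T.c t (i + 2) ∉ U)).card := by
    rw [EY, card_filter, Fintype.sum_prod_type]
    exact sum_congr rfl fun t _ => (card_filter _ _).symm
  rw [e1, ← sum_add_distrib, card_filter, ← card_univ, mul_comm, ← smul_eq_mul, ← sum_const,
    ← sum_add_distrib]
  refine sum_congr rfl fun t _ => ?_
  simpa using Hall_h11_bool (fun j => decide (T.c t j ∈ U))

theorem hall_ineq (h3 : T.Cut3) (b0 : B) (hb : T.Base b0) (U : Finset V) (hU : U ⊆ T.Vp b0) :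
    2 * U.card ≤ ∑ t : {t : B // t ≠ b0}, min 2 (univ.filter (fun j => T.cp b0 t j ∈ U)).card := by
  obtain ⟨rep, hrep1, hrep2⟩ := exists_rep
    (fun x y : B ⊕ W => ∃ e, e ∉ T.EY U ∧ x = Sum.inl e.1 ∧ y = T.wh e)
  have hroot : ∀ j, T.c b0 j ∉ U := by
    intro j hj
    have := hU hj
    simp only [Vp, mem_filter] at this
    exact this.2 j rfl
  have hUall : U ⊆ T.Vall := fun v hv => (mem_filter.mp (hU hv)).1
  have hEY : ∀ e : B × ZMod 3, e.1 = b0 → e ∈ T.EY U := by
    intro e he
    simp only [EY, mem_filter, mem_univ, true_and, he]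
    exact ⟨hroot _, hroot _⟩
  have hiso : ∀ x y : B ⊕ W, Relation.EqvGen
      (fun x y : B ⊕ W => ∃ e, e ∉ T.EY U ∧ x = Sum.inl e.1 ∧ y = T.wh e) x y →
      (x = Sum.inl b0 ↔ y = Sum.inl b0) := by
    intro x y h
    induction h with
    | rel x y h =>
      obtain ⟨e, he, rfl, rfl⟩ := h
      constructor
      · intro h
        exact absurd (hEY e (Sum.inl.inj h)) he
      · intro h
        simp [wh] at h
    | refl x => exact Iff.rfl
    | symm x y _ ih => exact ih.symm
    | trans x y z _ _ ih1 ih2 => exact ih1.trans ih2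
  have h1 : ∀ e, e ∉ T.EY U → rep (Sum.inl e.1) = rep (T.wh e) :=
    fun e he => hrep1 _ _ ⟨e, he, rfl, rfl⟩
  have h2 : ∀ x, rep x = rep (Sum.inl b0) → x = Sum.inl b0 := by
    intro x hx
    have a1 := (hiso _ _ (hrep2 (Sum.inl b0))).1 rfl
    exact (hiso _ _ (hrep2 x)).2 (hx.trans a1)
  have hf : ∀ f : B ⊕ W → ZMod 2, (∀ e, e ∉ T.EY U → f (Sum.inl e.1) = f (T.wh e)) →
      ∀ x, f x = f (rep x) := by
    intro f hf x
    have : ∀ x y : B ⊕ W, Relation.EqvGen
        (fun x y : B ⊕ W => ∃ e, e ∉ T.EY U ∧ x = Sum.inl e.1 ∧ y = T.wh e) x y → f x = f y := by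
      intro x y h
      induction h with
      | rel x y h =>
        obtain ⟨e, he, rfl, rfl⟩ := h
        exact hf e he
      | refl x => rfl
      | symm x y _ ih => exact ih.symm
      | trans x y z _ _ ih1 ih2 => exact ih1.trans ih2
    exact this _ _ (hrep2 x)
  have e1 := T.dualEI h3 U hUall (T.c b0 0) (T.cor_mem_Vall (Sum.inl b0) 0) (hroot 0) rep hf
  have e2 := T.region_sum h3 b0 hb U rep h1 h2
  have e3 := T.min_sum U
  have e4 : ∑ t, min 2 (univ.filter (fun j => T.c t j ∈ U)).card
      = ∑ t : {t : B // t ≠ b0}, min 2 (univ.filter (fun j => T.cp b0 t j ∈ U)).card := by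
    rw [← Finset.add_sum_erase univ _ (mem_univ b0)]
    have z : (univ.filter (fun j => T.c b0 j ∈ U)).card = 0 := by
      rw [card_eq_zero, filter_eq_empty_iff]
      intro j _
      exact hroot j
    rw [z, Finset.sum_subtype (univ.erase b0) (p := fun t => t ≠ b0) (F := inferInstance) (by simp)]
    simp [cp]
  omega

theorem exists_pair (h3 : T.Cut3) (hE : T.Euler) (b0 : B) (hb : T.Base b0) :
    ∃ r s, IsState (T.cp b0) (T.Vp b0) r ∧ IsState (T.cp b0) (T.Vp b0) s ∧ ∀ t, r t ≠ s t := by
  obtain ⟨u, h1, h2⟩ := gadget (T.cp b0) (T.Vp b0) (T.card_Vp h3 hE b0) (T.hall_ineq h3 b0 hb)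
  exact split_two (T.cp b0) (T.Vp b0) (T.card_Vp h3 hE b0) u h1 h2

end Tri

end Crest.Agent.R39
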