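import Crest.Agent.R39.Euler

set_option autoImplicit false

namespace Crest.Agent.R39

open Finset

theorem state_surj {P V : Type} [Fintype P] (c : P → ZMod 3 → V) (V' : Finset V)
    (hcard : V'.card = Fintype.card P) (s : P → ZMod 3) (hs : IsState c V' s) :
    ∀ v ∈ V', ∃ t, c t (s t) = v := by
  classical
  have hsub : (univ : Finset P).image (fun t => c t (s t)) ⊆ V' := by
    intro v hv
    obtain ⟨t, _, rfl⟩ := Finset.mem_image.1 hv
    exact hs.1 t
  have hc : ((univ : Finset P).image (fun t => c t (s t))).card = V'.card := by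
    rw [Finset.card_image_of_injective _ hs.2, Finset.card_univ, hcard]
  have heq := Finset.eq_of_subset_of_card_le hsub hc.ge
  intro v hv
  rw [← heq] at hv
  obtain ⟨t, _, ht⟩ := Finset.mem_image.1 hv
  exact ⟨t, ht⟩

namespace Tri

variable {B W V : Type} [Fintype B] [Fintype W] [Fintype V]
  [DecidableEq B] [DecidableEq W] [DecidableEq V] (T : Tri B W V)

/-- the data of a loop `γ` of the paired states `r`, `s` -/
structure LoopData (b0 : B) (r s : {t : B // t ≠ b0} → ZMod 3) (γ : Finset {t : B // t ≠ b0}) :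
    Prop where
  h3 : T.Cut3
  hE : T.Euler
  hr : IsState (T.cp b0) (T.Vp b0) r
  hs : IsState (T.cp b0) (T.Vp b0) s
  hrs : ∀ t, r t ≠ s t
  hγ : IsLoop (T.cp b0) r s γ

/-- the cut of `R` is the set of sides `(t, u t)`, `t ∈ γ` -/
def LoopCut (b0 : B) (r s : {t : B // t ≠ b0} → ZMod 3) (γ : Finset {t : B // t ≠ b0})
    (R : Finset (B ⊕ W)) : Prop :=
  ∀ e : B × ZMod 3, e ∈ T.cut R ↔ ∃ t ∈ γ, e = (t.1, uu r s t)

variable {T} {b0 : B} {r s : {t : B // t ≠ b0} → ZMod 3} {γ : Finset {t : B // t ≠ b0}}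

theorem Loop_h19_inj (u : {t : B // t ≠ b0} → ZMod 3) :
    Function.Injective (fun t : {t : B // t ≠ b0} => ((t.1, u t) : B × ZMod 3)) :=
  fun _ _ h => Subtype.ext (Prod.mk.inj h).1

theorem Loop_h19_ends (g : ZMod 3 → ZMod 2) (a b : ZMod 3) (hab : a ≠ b) :
    g (-(a + b) + 1) + g (-(a + b) + 2) = g a + g b := by
  have key : ∀ a b : ZMod 3, a ≠ b →
      (-(a + b) + 1 = a ∧ -(a + b) + 2 = b) ∨ (-(a + b) + 1 = b ∧ -(a + b) + 2 = a) := by decide
  rcases key a b hab with ⟨h1, h2⟩ | ⟨h1, h2⟩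
  · rw [h1, h2]
  · rw [h1, h2, add_comm]

theorem exists_loopCut (h : T.LoopData b0 r s γ) :
    ∃ R : Finset (B ⊕ W), Sum.inl b0 ∉ R ∧ T.LoopCut b0 r s γ R := by
  have hcard := T.card_Vp h.h3 h.hE b0
  have himg : γ.image (fun t => T.cp b0 t (r t)) = γ.image (fun t => T.cp b0 t (s t)) := by
    ext v
    simp only [Finset.mem_image]
    constructor
    · rintro ⟨t, ht, rfl⟩
      obtain ⟨t', ht'⟩ := state_surj (T.cp b0) (T.Vp b0) hcard s h.hs _ (h.hr.1 t)
      exact ⟨t', (h.hγ.closed t t' ht'.symm).1 ht, ht'⟩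
    · rintro ⟨t', ht', rfl⟩
      obtain ⟨t, ht⟩ := state_surj (T.cp b0) (T.Vp b0) hcard r h.hr _ (h.hs.1 t')
      exact ⟨t, (h.hγ.closed t t' ht).2 ht', ht⟩
  obtain ⟨R, hb, hR⟩ := T.exists_cut h.h3 h.hE b0 (γ.image (fun t => (t.1, uu r s t))) (by
    intro f
    rw [Finset.sum_image (fun a _ b _ hab => Loop_h19_inj (uu r s) hab)]
    have h1 : ∀ t ∈ γ, f (T.c t.1 (uu r s t + 1)) + f (T.c t.1 (uu r s t + 2))
        = f (T.cp b0 t (r t)) + f (T.cp b0 t (s t)) :=
      fun t _ => Loop_h19_ends (fun j => f (T.c t.1 j)) (r t) (s t) (h.hrs t)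
    rw [Finset.sum_congr rfl h1, Finset.sum_add_distrib]
    have h2 : ∑ t ∈ γ, f (T.cp b0 t (r t)) = ∑ v ∈ γ.image (fun t => T.cp b0 t (r t)), f v :=
      (Finset.sum_image (fun a _ b _ hab => h.hr.2 hab)).symm
    have h3 : ∑ t ∈ γ, f (T.cp b0 t (s t)) = ∑ v ∈ γ.image (fun t => T.cp b0 t (s t)), f v :=
      (Finset.sum_image (fun a _ b _ hab => h.hs.2 hab)).symm
    rw [h2, h3, himg]
    exact CharTwo.add_self_eq_zero _)
  refine ⟨R, hb, fun e => ?_⟩
  rw [hR, Finset.mem_image]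
  constructor
  · rintro ⟨t, ht, rfl⟩
    exact ⟨t, ht, rfl⟩
  · rintro ⟨t, ht, rfl⟩
    exact ⟨t, ht, rfl⟩

theorem loop_h22_third (a b : ZMod 3) (hab : a ≠ b) :
    (-(a + b) + 1 = a ∧ -(a + b) + 2 = b) ∨ (-(a + b) + 1 = b ∧ -(a + b) + 2 = a) := by
  revert a b; decide

theorem loop_h22_ne (a b : ZMod 3) (hab : a ≠ b) : a ≠ -(a + b) := by
  revert a b; decide

theorem loop_EI (h : T.LoopData b0 r s γ) (R : Finset (B ⊕ W)) (hR : T.LoopCut b0 r s γ R) :
    (T.VR R).card + R.card ≤ (T.touched R).card + 1 := by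
  obtain ⟨t0, ht0⟩ := h.hγ.ne
  have hRne : R ≠ univ := by
    intro hu
    have : (t0.1, uu r s t0) ∈ T.cut R := (hR _).2 ⟨t0, ht0, rfl⟩
    simp [cut, hu] at this
  apply T.EI h.h3 R hRne
  intro f hf u hu v hv
  have hct : ∀ e ∈ T.cut R, e ∈ T.touched R := by
    intro e he
    simp only [cut, touched, mem_filter, mem_univ, true_and] at he ⊢
    tauto
  have key : ∀ t ∈ γ, f (T.c t.1 (r t)) = f (T.c t.1 (s t)) := by
    intro t ht
    have h1 := hf _ (hct _ ((hR _).2 ⟨t, ht, rfl⟩))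
    simp only [uu] at h1
    rcases loop_h22_third (r t) (s t) (h.hrs t) with ⟨ha, hb⟩ | ⟨ha, hb⟩
    · rw [ha, hb] at h1; exact h1
    · rw [ha, hb] at h1; exact h1.symm
  have hconst : ∀ t ∈ γ, f (T.c t.1 (r t)) = f (T.c t0.1 (r t0)) := by
    intro t ht
    have := h.hγ.conn (fun t => if t ∈ γ then (((f (T.c t.1 (r t))).val : ℕ) : ℤ) else 0) (by
      intro t t' htt'
      have hiff := h.hγ.closed t t' htt'
      by_cases hm : t ∈ γ
      · have hm' := hiff.1 hm
        simp only [hm, hm', if_true]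
        rw [key t' hm']
        simp only [cp] at htt'
        rw [htt']
      · have hm' : t' ∉ γ := fun hh => hm (hiff.2 hh)
        simp only [hm, hm', if_false]) t ht t0 ht0
    simp only [ht, ht0, if_true, Nat.cast_inj] at this
    exact ZMod.val_injective 2 this
  have hall := T.conn_of_cut h.h3 R hRne f (f (T.c t0.1 (r t0))) hf (by
    intro e he
    obtain ⟨t, ht, rfl⟩ := (hR e).1 he
    simp only [uu]
    rcases loop_h22_third (r t) (s t) (h.hrs t) with ⟨ha, -⟩ | ⟨ha, -⟩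
    · rw [ha]; exact hconst t ht
    · rw [ha, ← key t ht]; exact hconst t ht)
  rw [hall u hu, hall v hv]

theorem loopCut_compl (R : Finset (B ⊕ W)) (hR : T.LoopCut b0 r s γ R) :
    T.LoopCut b0 r s γ Rᶜ := by
  intro e
  rw [← hR e]
  simp only [cut, mem_filter, mem_univ, true_and, mem_compl]
  tauto

theorem loop_out (R : Finset (B ⊕ W)) (hR : T.LoopCut b0 r s γ R) :
    (T.outB R).card = (γ.filter (fun t => Sum.inl t.1 ∈ R)).card ∧
      (T.outW R).card = (γ.filter (fun t => Sum.inl t.1 ∉ R)).card := by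
  have hcut : ∀ e : B × ZMod 3, e ∈ T.cut R ↔ ¬ (Sum.inl e.1 ∈ R ↔ T.wh e ∈ R) := by
    intro e
    simp only [cut, mem_filter, mem_univ, true_and]
  constructor
  · rw [← Finset.card_image_of_injective _ (Loop_h19_inj (uu r s))]
    congr 1
    ext e
    simp only [outB, mem_filter, mem_univ, true_and, mem_image]
    constructor
    · rintro ⟨h1, h2⟩
      obtain ⟨t, ht, rfl⟩ := (hR e).1 ((hcut e).2 (fun h => h2 (h.1 h1)))
      exact ⟨t, ⟨ht, h1⟩, rfl⟩
    · rintro ⟨t, ⟨ht, h1⟩, rfl⟩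
      have := (hcut _).1 ((hR _).2 ⟨t, ht, rfl⟩)
      exact ⟨h1, fun h2 => this ⟨fun _ => h2, fun _ => h1⟩⟩
  · rw [← Finset.card_image_of_injective _ (Loop_h19_inj (uu r s))]
    congr 1
    ext e
    simp only [outW, mem_filter, mem_univ, true_and, mem_image]
    constructor
    · rintro ⟨h1, h2⟩
      obtain ⟨t, ht, rfl⟩ := (hR e).1 ((hcut e).2 (fun h => h1 (h.2 h2)))
      exact ⟨t, ⟨ht, h1⟩, rfl⟩
    · rintro ⟨t, ⟨ht, h1⟩, rfl⟩
      have := (hcut _).1 ((hR _).2 ⟨t, ht, rfl⟩)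
      refine ⟨h1, by_contra fun h2 => this ⟨fun h => absurd h h1, fun h => absurd h h2⟩⟩

theorem loop_VR (h : T.LoopData b0 r s γ) (R : Finset (B ⊕ W)) (hR : T.LoopCut b0 r s γ R) :
    (Sum.inl b0 ∉ R → nB R + (T.outW R).card ≤ (T.VR R).card) ∧
      (Sum.inl b0 ∈ R → nB R + (T.outW R).card + 2 ≤ (T.VR R).card) := by
  set D1 : Finset {t : B // t ≠ b0} := univ.filter (fun t => Sum.inl t.1 ∈ R) with hD1
  set D2 : Finset {t : B // t ≠ b0} := γ.filter (fun t => Sum.inl t.1 ∉ R) with hD2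
  have hdisj : Disjoint D1 D2 := by
    rw [Finset.disjoint_left]
    intro t h1 h2
    simp only [hD1, hD2, mem_filter, mem_univ, true_and] at h1 h2
    exact h2.2 h1
  have hcard : (D1 ∪ D2).card = D1.card + (T.outW R).card := by
    rw [card_union_of_disjoint hdisj, (loop_out R hR).2]
  have hD : ∀ t ∈ D1 ∪ D2, T.c t.1 (r t) ∈ T.VR R := by
    intro t ht
    simp only [VR, mem_filter, mem_univ, true_and]
    rcases mem_union.1 ht with h1 | h2
    · simp only [hD1, mem_filter, mem_univ, true_and] at h1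
      exact ⟨Sum.inl t.1, h1, r t, rfl⟩
    · simp only [hD2, mem_filter] at h2
      have he : (t.1, uu r s t) ∈ T.cut R := (hR _).2 ⟨t, h2.1, rfl⟩
      simp only [cut, mem_filter, mem_univ, true_and] at he
      have hw : T.wh (t.1, uu r s t) ∈ R := by
        by_contra hn
        exact he ⟨fun hh => absurd hh h2.2, fun hh => absurd hh hn⟩
      refine ⟨_, hw, r t, ?_⟩
      simp only [wh, cor, Sum.elim_inr]
      exact T.compat _ _ _ (loop_h22_ne (r t) (s t) (h.hrs t))
  have hmap : D1.map (Function.Embedding.subtype _) =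
      (univ.filter (fun t : B => Sum.inl t ∈ R)).erase b0 := by
    ext t
    simp only [hD1, mem_map, mem_filter, mem_univ, true_and, Function.Embedding.subtype_apply,
      mem_erase]
    constructor
    · rintro ⟨a, ha, rfl⟩
      exact ⟨a.2, ha⟩
    · rintro ⟨h1, h2⟩
      exact ⟨⟨t, h1⟩, h2, rfl⟩
  have hc1 : D1.card = ((univ.filter (fun t : B => Sum.inl t ∈ R)).erase b0).card := by
    rw [← hmap, card_map]
  constructor
  · intro hb
    have h1 := T.card_le_VR b0 r h.hr R _ hD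
    rw [erase_eq_of_notMem (by simpa using hb)] at hc1
    unfold nB
    omega
  · intro hb
    have h1 := T.card_le_VR_root b0 r h.hr R hb _ hD
    have h2 := card_erase_add_one
      (show b0 ∈ univ.filter (fun t : B => Sum.inl t ∈ R) by simpa using hb)
    unfold nB
    omega

theorem loop_count (h : T.LoopData b0 r s γ) (R : Finset (B ⊕ W)) (hb : Sum.inl b0 ∉ R)
    (hR : T.LoopCut b0 r s γ R) :
    nW R = nB R + 1 ∧ γ.card = 2 * (γ.filter (fun t => Sum.inl t.1 ∈ R)).card + 3 := by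
  have hR' := loopCut_compl R hR
  have e1 := loop_EI h R hR
  have e2 := loop_EI h Rᶜ hR'
  have v1 := (loop_VR h R hR).1 hb
  have v2 := (loop_VR h Rᶜ hR').2 (Finset.mem_compl.2 hb)
  have t1 := T.card_touched_B R
  have t1' := T.card_touched_W R
  have t2 := T.card_touched_B Rᶜ
  have c1 := card_eq_nB_add_nW R
  have c2 := card_eq_nB_add_nW Rᶜ
  have n1 := nB_add_compl R
  have n2 := nW_add_compl R
  have n3 := T.card_W
  obtain ⟨o1, o2⟩ := loop_out R hR
  have g := Finset.card_filter_add_card_filter_not (s := γ) (fun t => Sum.inl t.1 ∈ R)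
  omega

theorem Loop_h20_reindex (T : Tri B W V) (R : Finset (B ⊕ W)) (v : V) (k : ZMod 3) (hk : k ≠ 0) :
    ∑ e ∈ univ.filter (fun e : B × ZMod 3 => T.c e.1 e.2 = v),
        (if T.wh (e.1, e.2 + k) ∈ R then (1 : ℤ) else 0)
      = ∑ e ∈ univ.filter (fun e : W × ZMod 3 => T.d e.1 e.2 = v),
        (if Sum.inr e.1 ∈ R then (1 : ℤ) else 0) := by
  have hne : ∀ j : ZMod 3, j ≠ j + k := fun j hj => hk (by simpa using hj.symm)
  refine Finset.sum_bij' (fun e _ => (T.m (e.2 + k) e.1, e.2))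
    (fun e _ => ((T.m (e.2 + k)).symm e.1, e.2)) ?_ ?_ ?_ ?_ ?_
  · intro e he
    simp only [mem_filter, mem_univ, true_and] at he ⊢
    rw [T.compat _ _ _ (hne e.2), he]
  · intro e he
    simp only [mem_filter, mem_univ, true_and] at he ⊢
    rw [← T.compat (e.2 + k) _ _ (hne e.2), Equiv.apply_symm_apply, he]
  · intro e _
    simp
  · intro e _
    simp
  · intro e _
    rfl

theorem jump_sum (T : Tri B W V) (R : Finset (B ⊕ W)) (v : V) :
    ∑ e ∈ univ.filter (fun e : B × ZMod 3 => T.c e.1 e.2 = v), T.jump R e.1 e.2 = 0 := by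
  unfold jump
  rw [Finset.sum_sub_distrib, Loop_h20_reindex T R v 1 (by decide),
    Loop_h20_reindex T R v 2 (by decide), sub_self]

theorem Loop_h20_aux : ∀ (x : Bool) (a b : ZMod 3), a ≠ b →
    let F : ZMod 3 → ℤ := fun i => if (i = -(a + b) ↔ x = false) then 1 else 0
    let J : ZMod 3 → ℤ := fun j => F (j + 1) - F (j + 2)
    J b = -J a ∧ J (-(a + b)) = 0 ∧ (J a = 1 ∨ J a = -1) ∧
      eps (a - b) = (if x = true then -1 else 1) * J a := by
  decide

theorem jump_local (hrs : ∀ t, r t ≠ s t) (R : Finset (B ⊕ W)) (hR : T.LoopCut b0 r s γ R) :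
    (∀ t ∈ γ, T.jump R t.1 (s t) = -T.jump R t.1 (r t) ∧ T.jump R t.1 (uu r s t) = 0 ∧
      (T.jump R t.1 (r t) = 1 ∨ T.jump R t.1 (r t) = -1) ∧
      eps (r t - s t) = (if Sum.inl t.1 ∈ R then -1 else 1) * T.jump R t.1 (r t)) ∧
    (∀ t : B, (∀ t' ∈ γ, t'.1 ≠ t) → ∀ j, T.jump R t j = 0) := by
  constructor
  · intro t ht
    have key : ∀ i : ZMod 3, T.wh (t.1, i) ∈ R ↔
        (i = -(r t + s t) ↔ decide (Sum.inl t.1 ∈ R) = false) := by
      intro i
      have h1 := hR (t.1, i)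
      have h2 : (∃ t' ∈ γ, (t.1, i) = (t'.1, uu r s t')) ↔ i = -(r t + s t) := by
        constructor
        · rintro ⟨t', _, h⟩
          have h3 : t = t' := Subtype.ext (congrArg Prod.fst h)
          subst h3
          exact congrArg Prod.snd h
        · intro h
          exact ⟨t, ht, by rw [h]; rfl⟩
      rw [h2] at h1
      simp only [cut, mem_filter, mem_univ, true_and] at h1
      simp only [decide_eq_false_iff_not]
      tauto
    have aux := Loop_h20_aux (decide (Sum.inl t.1 ∈ R)) (r t) (s t) (hrs t)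
    simp only [decide_eq_true_eq] at aux
    simp only [jump, key, uu]
    exact aux
  · intro t ht j
    have key : ∀ i : ZMod 3, T.wh (t, i) ∈ R ↔ Sum.inl t ∈ R := by
      intro i
      have h1 := hR (t, i)
      have h2 : ¬ ∃ t' ∈ γ, (t, i) = (t'.1, uu r s t') := by
        rintro ⟨t', ht', h⟩
        exact ht t' ht' (congrArg Prod.fst h).symm
      have h3 : (t, i) ∉ T.cut R := fun h => h2 (h1.1 h)
      simp only [cut, mem_filter, mem_univ, true_and, not_not] at h3
      exact h3.symm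
    simp only [jump, key, sub_self]

theorem Loop_h29_three {a b j : ZMod 3} (hab : a ≠ b) (hj : j ≠ -(a + b)) : j = a ∨ j = b := by
  revert a b j
  decide

theorem Loop_h29_sum3 {a b : ZMod 3} (hab : a ≠ b) (g : ZMod 3 → ℝ) :
    ∑ j, g j = g a + g b + g (-(a + b)) := by
  have hu : (univ : Finset (ZMod 3)) = {a, b, -(a + b)} := by
    revert a b
    decide
  have h1 : a ∉ ({b, -(a + b)} : Finset (ZMod 3)) := by
    revert a b
    decide
  have h2 : b ∉ ({-(a + b)} : Finset (ZMod 3)) := by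
    revert a b
    decide
  rw [hu, Finset.sum_insert h1, Finset.sum_insert h2, Finset.sum_singleton, add_assoc]

theorem loop_sigma (h : T.LoopData b0 r s γ) (R : Finset (B ⊕ W)) (hR : T.LoopCut b0 r s γ R) :
    ∃ σ : ℤ, (σ = 1 ∨ σ = -1) ∧ ∀ t ∈ γ, T.jump R t.1 (r t) = σ := by
  obtain ⟨hin, hout⟩ := jump_local h.hrs R hR
  have hoff : ∀ t : {t : B // t ≠ b0}, t ∉ γ → ∀ j, T.jump R t.1 j = 0 := by
    intro t ht
    refine hout t.1 fun t' ht' k => ht ?_
    have : t' = t := Subtype.ext k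
    exact this ▸ ht'
  have key : ∀ t t' : {t : B // t ≠ b0}, T.cp b0 t (r t) = T.cp b0 t' (s t') →
      T.jump R t.1 (r t) = T.jump R t'.1 (r t') := by
    intro t t' htt
    by_cases ht : t ∈ γ
    · have ht' : t' ∈ γ := (h.hγ.closed t t' htt).1 ht
      have hsum := T.jump_sum R (T.c t.1 (r t))
      have hne : ((t.1, r t) : B × ZMod 3) ≠ (t'.1, s t') := by
        intro k
        obtain ⟨k1, k2⟩ := Prod.mk.inj k
        have k3 : t = t' := Subtype.ext k1
        subst k3
        exact h.hrs t k2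
      rw [Finset.sum_eq_add_of_mem ((t.1, r t) : B × ZMod 3) (t'.1, s t')
        (by simp) (by simpa [cp] using htt.symm) hne] at hsum
      · have := (hin t' ht').1
        simp only at hsum
        linarith
      · rintro ⟨x, j⟩ hx ⟨hx1, hx2⟩
        simp only [Finset.mem_filter, Finset.mem_univ, true_and] at hx
        by_contra hj0
        simp only at hj0
        have hxγ : ∃ t'' ∈ γ, t''.1 = x := by
          by_contra hno
          exact hj0 (hout x (fun t'' h'' k => hno ⟨t'', h'', k⟩) j)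
        obtain ⟨t'', ht'', rfl⟩ := hxγ
        have hju : j ≠ -(r t'' + s t'') := by
          intro k
          apply hj0
          rw [k]
          exact (hin t'' ht'').2.1
        rcases Loop_h29_three (h.hrs t'') hju with rfl | rfl
        · have : t'' = t := h.hr.2 hx
          subst this
          exact hx1 rfl
        · have : t'' = t' := h.hs.2 (hx.trans htt)
          subst this
          exact hx2 rfl
    · have ht' : t' ∉ γ := fun k => ht ((h.hγ.closed t t' htt).2 k)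
      rw [hoff t ht, hoff t' ht']
  obtain ⟨t0, ht0⟩ := h.hγ.ne
  exact ⟨T.jump R t0.1 (r t0), (hin t0 ht0).2.2.1,
    fun t ht => h.hγ.conn (fun t => T.jump R t.1 (r t)) key t ht t0 ht0⟩

theorem exists_lam (T : Tri B W V) (h3 : T.Cut3) (b0 : B) :
    ∃ lam : B → ZMod 3 → ℝ, ∀ R : Finset (B ⊕ W), T.wh (b0, 0) ∉ R →
      ∑ t, ∑ j, (T.jump R t j : ℝ) * lam t j = nW R := by
  classical
  let A : Matrix W (B × ZMod 3) ℝ := fun w e =>
    (if w = T.m (e.2 + 1) e.1 then 1 else 0) - (if w = T.m (e.2 + 2) e.1 then 1 else 0)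
  let y : W → ℝ := fun w => if w = T.m 0 b0 then 1 - (Fintype.card W : ℝ) else 1
  have hA : ∀ (z : W → ℝ) (e : B × ZMod 3),
      ∑ w, z w * A w e = z (T.m (e.2 + 1) e.1) - z (T.m (e.2 + 2) e.1) := by
    intro z e
    simp only [A, mul_sub, Finset.sum_sub_distrib, mul_ite, mul_one, mul_zero,
      Finset.sum_ite_eq', Finset.mem_univ, if_true]
  obtain ⟨x, hx⟩ := fredholm A y (by
    intro z hz
    have hz' : ∀ (t : B) (j : ZMod 3), z (T.m (j + 1) t) = z (T.m (j + 2) t) := by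
      intro t j
      have h1 := congrFun hz (t, j)
      simp only [Matrix.vecMul, dotProduct, Pi.zero_apply] at h1
      rw [hA z (t, j)] at h1
      exact sub_eq_zero.mp h1
    have hz0 : ∀ (t : B) (i : ZMod 3), z (T.m 0 t) = z (T.m i t) := by
      intro t i
      have h01 : z (T.m 0 t) = z (T.m 1 t) := hz' t 2
      have h12 : z (T.m 1 t) = z (T.m 2 t) := hz' t 0
      have hi : i = 0 ∨ i = 1 ∨ i = 2 := by revert i; decide
      rcases hi with rfl | rfl | rfl
      · rfl
      · exact h01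
      · exact h01.trans h12
    have hc := T.const_of_edges h3 (Sum.elim (fun t => z (T.m 0 t)) z)
      (fun e => hz0 e.1 e.2)
    have hw : ∀ w, z w = z (T.m 0 b0) := fun w => hc (Sum.inr w) (Sum.inr (T.m 0 b0))
    have hy : ∑ w, y w = 0 := by
      have : ∀ w, y w = 1 - (if w = T.m 0 b0 then (Fintype.card W : ℝ) else 0) := by
        intro w
        simp only [y]
        split_ifs <;> simp
      simp only [this, Finset.sum_sub_distrib, Finset.sum_ite_eq', Finset.mem_univ, if_true,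
        Finset.sum_const, Finset.card_univ, nsmul_eq_mul, mul_one, sub_self]
    simp only [dotProduct]
    rw [Finset.sum_congr rfl (fun w _ => by rw [hw w]), ← Finset.mul_sum, hy, mul_zero])
  refine ⟨fun t j => x (t, j), fun R hR => ?_⟩
  let z : W → ℝ := fun w => if Sum.inr w ∈ R then 1 else 0
  have hj : ∀ e : B × ZMod 3, (T.jump R e.1 e.2 : ℝ) = ∑ w, z w * A w e := by
    intro e
    rw [hA z e]
    simp only [jump, wh, z]
    push_cast
    split_ifs <;> simp
  have h1 : ∑ t, ∑ j, (T.jump R t j : ℝ) * x (t, j) = ∑ e : B × ZMod 3, (∑ w, z w * A w e) * x e := by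
    rw [Fintype.sum_prod_type]
    refine Finset.sum_congr rfl fun t _ => Finset.sum_congr rfl fun j _ => ?_
    rw [← hj (t, j)]
  rw [h1]
  have h2 : ∑ e : B × ZMod 3, (∑ w, z w * A w e) * x e = ∑ w, z w * y w := by
    simp only [Finset.sum_mul]
    rw [Finset.sum_comm]
    refine Finset.sum_congr rfl fun w _ => ?_
    rw [← congrFun hx w]
    simp only [Matrix.mulVec, dotProduct, Finset.mul_sum, mul_assoc]
  rw [h2]
  have h3' : ∀ w, z w * y w = if Sum.inr w ∈ R then 1 else 0 := by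
    intro w
    simp only [z, y]
    by_cases hw : Sum.inr w ∈ R
    · have : w ≠ T.m 0 b0 := by
        rintro rfl
        exact hR hw
      simp [hw, this]
    · simp [hw]
  simp only [h3', nW, Finset.card_filter]
  push_cast
  rfl

theorem loop_delta (h : T.LoopData b0 r s γ) (R : Finset (B ⊕ W)) (hb : Sum.inl b0 ∉ R)
    (hR : T.LoopCut b0 r s γ R) (σ : ℤ) (hσ : σ = 1 ∨ σ = -1)
    (hj : ∀ t ∈ γ, T.jump R t.1 (r t) = σ) (lam : B → ZMod 3 → ℝ)
    (hlam : ∀ R : Finset (B ⊕ W), T.wh (b0, 0) ∉ R →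
      ∑ t, ∑ j, (T.jump R t j : ℝ) * lam t j = nW R) :
    ∑ t ∈ γ, (lam t.1 (r t) - lam t.1 (s t)) = σ * nW R := by
  obtain ⟨hin, hout⟩ := jump_local h.hrs R hR
  have hw : T.wh (b0, 0) ∉ R := by
    intro hw
    have hc : ((b0, 0) : B × ZMod 3) ∈ T.cut R := by
      simp only [cut, Finset.mem_filter, Finset.mem_univ, true_and]
      intro k
      exact hb (k.2 hw)
    obtain ⟨t, _, ht⟩ := (hR _).1 hc
    exact t.2 (Prod.mk.inj ht).1.symm
  have h1 := hlam R hw
  have h2 : ∑ t, ∑ j, (T.jump R t j : ℝ) * lam t j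
      = ∑ t ∈ γ.map (Function.Embedding.subtype _), ∑ j, (T.jump R t j : ℝ) * lam t j := by
    symm
    apply Finset.sum_subset (Finset.subset_univ _)
    intro x _ hx
    apply Finset.sum_eq_zero
    intro j _
    rw [hout x (fun t' ht' k => hx (Finset.mem_map.2 ⟨t', ht', k⟩)) j]
    simp
  have h3 : ∑ t ∈ γ.map (Function.Embedding.subtype _), ∑ j, (T.jump R t j : ℝ) * lam t j
      = σ * ∑ t ∈ γ, (lam t.1 (r t) - lam t.1 (s t)) := by
    rw [Finset.sum_map, Finset.mul_sum]
    apply Finset.sum_congr rfl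
    intro t ht
    obtain ⟨a1, a2, -, -⟩ := hin t ht
    have a3 : T.jump R t.1 (-(r t + s t)) = 0 := a2
    simp only [Function.Embedding.coe_subtype]
    rw [Loop_h29_sum3 (h.hrs t), a1, a3, hj t ht]
    push_cast
    ring
  rw [h2, h3] at h1
  rw [← h1, ← mul_assoc]
  rcases hσ with rfl | rfl <;> simp

theorem loopSign (T : Tri B W V) (h3 : T.Cut3) (hE : T.Euler) (b0 : B) :
    ∃ lam : {t : B // t ≠ b0} → ZMod 3 → ℝ, LoopSign (T.cp b0) (T.Vp b0) lam := by
  classical
  obtain ⟨lam, hlam⟩ := T.exists_lam h3 b0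
  refine ⟨fun t j => lam t.1 j, ?_⟩
  intro r s hr hs hrs γ hγ
  have h : T.LoopData b0 r s γ := ⟨h3, hE, hr, hs, hrs, hγ⟩
  obtain ⟨R, hb, hR⟩ := exists_loopCut h
  obtain ⟨hW, hcard⟩ := loop_count h R hb hR
  obtain ⟨σ, hσ, hj⟩ := loop_sigma h R hR
  have hd := loop_delta h R hb hR σ hσ hj lam hlam
  have hl := (jump_local hrs R hR).1
  refine ⟨(γ.filter (fun t => Sum.inl t.1 ∈ R)).card, hcard, ?_⟩
  have hp : ∏ t ∈ γ, (eps (r t - s t) : ℝ)
      = (-1 : ℝ) ^ (γ.filter (fun t => Sum.inl t.1 ∈ R)).card * (σ : ℝ) ^ γ.card := by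
    have : ∀ t ∈ γ, (eps (r t - s t) : ℝ)
        = (if Sum.inl t.1 ∈ R then (-1 : ℝ) else 1) * (σ : ℝ) := by
      intro t ht
      rw [(hl t ht).2.2.2, hj t ht]
      push_cast
      split_ifs <;> simp
    rw [Finset.prod_congr rfl this, Finset.prod_mul_distrib, Finset.prod_const,
      Finset.prod_ite, Finset.prod_const, Finset.prod_const_one, mul_one]
  rw [hp, hd, hcard]
  set a := (γ.filter (fun t => Sum.inl t.1 ∈ R)).card
  have hpos : (0 : ℝ) < nW R := by
    rw [hW]
    positivity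
  have hσ2 : (σ : ℝ) ^ 2 = 1 := by
    rcases hσ with rfl | rfl <;> norm_num
  have hm : ((-1 : ℝ) ^ a) ^ 2 = 1 := by
    rw [← pow_mul, mul_comm, pow_mul]
    norm_num
  have : (-1 : ℝ) ^ a * ((-1 : ℝ) ^ a * (σ : ℝ) ^ (2 * a + 3) * ((σ : ℝ) * (nW R : ℝ)))
      = ((-1 : ℝ) ^ a) ^ 2 * ((σ : ℝ) ^ 2) ^ (a + 2) * (nW R : ℝ) := by
    ring
  rw [this, hm, hσ2, one_pow]
  simpa using hpos

end Tri

end Crest.Agent.R39
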