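import Crest.Agent.R39.Euler

set_option autoImplicit false

namespace Crest.Agent.R39

open Finset

namespace Tri

variable {B W V : Type} [Fintype B] [Fintype W] [Fintype V]
  [DecidableEq B] [DecidableEq W] [DecidableEq V] (T : Tri B W V)

/-- a separating triangle with corners `p j`; the cut edges are `(tt i, i)` -/
structure TriCut (R : Finset (B ⊕ W)) (tt : ZMod 3 → B) (p : ZMod 3 → V) : Prop where
  mem : ∀ i, Sum.inl (tt i) ∈ R
  cut_iff : ∀ e : B × ZMod 3, e ∈ T.cut R ↔ e.1 = tt e.2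
  corner : ∀ i j, j ≠ i → T.c (tt i) j = p j

/-- `R` contracted to a black vertex -/
structure IsLeft (R : Finset (B ⊕ W)) (tt : ZMod 3 → B) (p : ZMod 3 → V)
    (T1 : Tri (Option {t : B // Sum.inl t ∉ R}) {w : W // Sum.inr w ∉ R} V) : Prop where
  m_some : ∀ i t, (T1.m i (some t)).1 = T.m i t.1
  m_none : ∀ i, (T1.m i none).1 = T.m i (tt i)
  c_some : ∀ t j, T1.c (some t) j = T.c t.1 j
  c_none : ∀ j, T1.c none j = p j

/-- the complement of `R` contracted to a white vertex -/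
structure IsRight (R : Finset (B ⊕ W)) (tt : ZMod 3 → B)
    (T2 : Tri {t : B // Sum.inl t ∈ R} (Option {w : W // Sum.inr w ∈ R}) V) : Prop where
  m_some : ∀ i t w, T2.m i t = some w ↔ T.m i t.1 = w.1
  m_none : ∀ i t, T2.m i t = none ↔ t.1 = tt i
  c_eq : ∀ t j, T2.c t j = T.c t.1 j

theorem exists_triCut (R : Finset (B ⊕ W)) (hx : (T.outB R).card = 3) (hy : (T.outW R).card = 0) :
    ∃ tt p, T.TriCut R tt p := by
  have hW : T.outW R = ∅ := Finset.card_eq_zero.mp hy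
  have hk : ∀ i : ZMod 3, ((T.outB R).filter (fun e => e.2 = i)).card + nW R = nB R := by
    intro i
    have := T.card_out_colour R i
    rw [hW] at this
    simpa using this
  have hsum : (T.outB R).card = ∑ i : ZMod 3, ((T.outB R).filter (fun e => e.2 = i)).card :=
    Finset.card_eq_sum_card_fiberwise (fun e _ => Finset.mem_coe.mpr (mem_univ _))
  have huniv : ∀ j : ZMod 3, (univ : Finset (ZMod 3)) = {j, j + 1, j + 2} := by decide
  have hsum3 : ∀ {M : Type} [AddCommMonoid M] (g : ZMod 3 → M) (j : ZMod 3),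
      ∑ i, g i = g j + g (j + 1) + g (j + 2) := by
    intro M _ g j
    have h1 : j ∉ ({j + 1, j + 2} : Finset (ZMod 3)) := by revert j; decide
    have h2 : j + 1 ≠ j + 2 := by revert j; decide
    rw [huniv j, Finset.sum_insert h1, Finset.sum_pair h2, add_assoc]
  have hone : ∀ i : ZMod 3, ((T.outB R).filter (fun e => e.2 = i)).card = 1 := by
    intro i
    rw [hsum3 _ i, hx] at hsum
    have h0 := hk i
    have h1 := hk (i + 1)
    have h2 := hk (i + 2)
    omega
  choose ee hee using fun i => Finset.card_eq_one.mp (hone i)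
  have hmem : ∀ i, ee i ∈ T.outB R ∧ (ee i).2 = i := by
    intro i
    have : ee i ∈ (T.outB R).filter (fun e => e.2 = i) := by
      rw [hee i]; exact Finset.mem_singleton_self _
    exact mem_filter.mp this
  have hcut : ∀ e : B × ZMod 3, e ∈ T.cut R ↔ e.1 = (ee e.2).1 := by
    intro e
    have hnW : ¬ (Sum.inl e.1 ∉ R ∧ T.wh e ∈ R) := by
      intro h
      have : e ∈ T.outW R := mem_filter.mpr ⟨mem_univ _, h⟩
      rw [hW] at this
      simp at this
    constructor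
    · intro he
      have he' := (mem_filter.mp he).2
      have hB : e ∈ T.outB R := by
        refine mem_filter.mpr ⟨mem_univ _, ?_⟩
        tauto
      have : e ∈ (T.outB R).filter (fun e' => e'.2 = e.2) := mem_filter.mpr ⟨hB, rfl⟩
      rw [hee e.2, Finset.mem_singleton] at this
      exact congrArg Prod.fst this
    · intro he
      have h1 : e = ee e.2 := Prod.ext he (hmem e.2).2.symm
      have h2 := (mem_filter.mp (hmem e.2).1).2
      rw [← h1] at h2
      refine mem_filter.mpr ⟨mem_univ _, ?_⟩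
      tauto
  refine ⟨fun i => (ee i).1, fun j => T.c (ee (j + 1)).1 j, ?_, hcut, ?_⟩
  · intro i
    exact (mem_filter.mp (hmem i).1).2.1
  · intro i j hji
    have hij : i = j + 1 ∨ i = j + 2 := by revert i j; decide
    rcases hij with rfl | rfl
    · rfl
    · by_contra hne
      let f : V → ZMod 2 := fun v => if v = T.c (ee (j + 1)).1 j then 1 else 0
      have hc := T.cut_cycle R f
      have himg : T.cut R = (univ : Finset (ZMod 3)).image (fun i => ((ee i).1, i)) := by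
        ext e
        rw [hcut e, Finset.mem_image]
        constructor
        · intro he
          exact ⟨e.2, mem_univ _, Prod.ext he.symm rfl⟩
        · rintro ⟨i, _, rfl⟩
          rfl
      rw [himg, Finset.sum_image (fun a _ b _ h => (Prod.mk.inj h).2), hsum3 _ j] at hc
      have hf0 : ∀ t k, k ≠ j → f (T.c t k) = 0 := by
        intro t k hk
        exact if_neg (fun h => hk (T.colour _ _ _ _ h))
      have e0 : ∀ j : ZMod 3, j + 1 ≠ j ∧ j + 2 ≠ j ∧ j + 1 + 1 ≠ j ∧ j + 1 + 2 = j ∧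
          j + 2 + 1 = j ∧ j + 2 + 2 ≠ j := by decide
      obtain ⟨e1, e2, e3, e4, e5, e6⟩ := e0 j
      simp only at hc
      rw [hf0 _ _ e1, hf0 _ _ e2, hf0 _ _ e3, hf0 _ _ e6, e4, e5] at hc
      have a1 : f (T.c (ee (j + 1)).1 j) = 1 := if_pos rfl
      have a2 : f (T.c (ee (j + 2)).1 j) = 0 := if_neg hne
      rw [a1, a2] at hc
      revert hc
      decide

variable {T} {R : Finset (B ⊕ W)} {tt : ZMod 3 → B} {p : ZMod 3 → V}

theorem exists_left (h : T.TriCut R tt p) : ∃ T1, T.IsLeft R tt p T1 := by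
  have hc : ∀ i t, ¬ (Sum.inl t ∈ R ↔ Sum.inr (T.m i t) ∈ R) ↔ t = tt i := fun i t => by
    simpa [cut, wh] using h.cut_iff (t, i)
  have hp : ∀ j, p j = T.c (tt (j + 1)) j := fun j => (h.corner (j + 1) j (by
    revert j; decide)).symm
  have h1 : ∀ i (t : {t : B // Sum.inl t ∉ R}), Sum.inr (T.m i t.1) ∉ R := by
    intro i t hw
    have : t.1 = tt i := (hc i t.1).1 fun k => t.2 (k.2 hw)
    exact t.2 (this ▸ h.mem i)
  have h2 : ∀ i, Sum.inr (T.m i (tt i)) ∉ R := fun i hw =>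
    (hc i (tt i)).2 rfl ⟨fun _ => hw, fun _ => h.mem i⟩
  let f : ZMod 3 → Option {t : B // Sum.inl t ∉ R} → {w : W // Sum.inr w ∉ R} := fun i o =>
    match o with
    | none => ⟨T.m i (tt i), h2 i⟩
    | some t => ⟨T.m i t.1, h1 i t⟩
  have hf : ∀ i, Function.Bijective (f i) := by
    intro i
    constructor
    · rintro (_ | t) (_ | t') e
      · rfl
      · have e' : tt i = t'.1 := (T.m i).injective (congrArg Subtype.val e)
        exact absurd (e' ▸ h.mem i) t'.2
      · have e' : t.1 = tt i := (T.m i).injective (congrArg Subtype.val e)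
        exact absurd (e' ▸ h.mem i) t.2
      · exact congrArg some (Subtype.ext ((T.m i).injective (congrArg Subtype.val e)))
    · intro w
      by_cases ht : Sum.inl ((T.m i).symm w.1) ∈ R
      · have : (T.m i).symm w.1 = tt i := (hc i _).1 fun k => w.2 (by simpa using k.1 ht)
        exact ⟨none, Subtype.ext (by simp [f, ← this])⟩
      · exact ⟨some ⟨_, ht⟩, Subtype.ext (by simp [f])⟩
  let c1 : Option {t : B // Sum.inl t ∉ R} → ZMod 3 → V := fun o j =>
    match o with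
    | none => p j
    | some t => T.c t.1 j
  have hc1 : ∀ o j, ∃ t, c1 o j = T.c t j := by
    rintro (_ | t) j
    · exact ⟨_, hp j⟩
    · exact ⟨_, rfl⟩
  refine ⟨⟨fun i => Equiv.ofBijective (f i) (hf i), c1, fun w => T.d w.1, ?_, ?_⟩,
    fun _ _ => rfl, fun _ => rfl, fun _ _ => rfl, fun _ => rfl⟩
  · rintro i j (_ | t) hji
    · exact (T.compat i j (tt i) hji).trans (h.corner i j hji)
    · exact T.compat i j t.1 hji
  · intro o o' i j e
    obtain ⟨t, ht⟩ := hc1 o i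
    obtain ⟨t', ht'⟩ := hc1 o' j
    exact T.colour t t' i j (ht.symm.trans (e.trans ht'))

theorem exists_right (h : T.TriCut R tt p) : ∃ T2, T.IsRight R tt T2 := by
  have hc : ∀ i t, ¬ (Sum.inl t ∈ R ↔ Sum.inr (T.m i t) ∈ R) ↔ t = tt i := fun i t => by
    simpa [cut, wh] using h.cut_iff (t, i)
  let f : ZMod 3 → {t : B // Sum.inl t ∈ R} → Option {w : W // Sum.inr w ∈ R} := fun i t =>
    if hw : Sum.inr (T.m i t.1) ∈ R then some ⟨_, hw⟩ else none
  have hsome : ∀ i t w, f i t = some w ↔ T.m i t.1 = w.1 := by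
    intro i t w
    by_cases hw : Sum.inr (T.m i t.1) ∈ R
    · simp only [f, dif_pos hw, Option.some.injEq]
      exact Subtype.ext_iff
    · simp only [f, dif_neg hw, reduceCtorEq, false_iff]
      exact fun e => hw (e ▸ w.2)
  have hnone : ∀ i t, f i t = none ↔ t.1 = tt i := by
    intro i t
    rw [← hc]
    by_cases hw : Sum.inr (T.m i t.1) ∈ R
    · simp [f, hw, t.2]
    · simp [f, hw, t.2]
  have hf : ∀ i, Function.Bijective (f i) := by
    intro i
    constructor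
    · intro t t' e
      rcases ho : f i t' with _ | w
      · exact Subtype.ext (((hnone i t).1 (e.trans ho)).trans ((hnone i t').1 ho).symm)
      · exact Subtype.ext ((T.m i).injective
          (((hsome i t w).1 (e.trans ho)).trans ((hsome i t' w).1 ho).symm))
    · rintro (_ | w)
      · exact ⟨⟨tt i, h.mem i⟩, (hnone i _).2 rfl⟩
      · have ht : Sum.inl ((T.m i).symm w.1) ∈ R := by
          by_contra ht
          have : (T.m i).symm w.1 = tt i := (hc i _).1 fun k => ht (k.2 (by simpa using w.2))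
          exact ht (this ▸ h.mem i)
        exact ⟨⟨_, ht⟩, (hsome i _ w).2 (by simp)⟩
  let d2 : Option {w : W // Sum.inr w ∈ R} → ZMod 3 → V := fun o j =>
    match o with
    | none => p j
    | some w => T.d w.1 j
  refine ⟨⟨fun i => Equiv.ofBijective (f i) (hf i), fun t => T.c t.1, d2, ?_,
    fun t t' i j e => T.colour _ _ i j e⟩, hsome, hnone, fun _ _ => rfl⟩
  intro i j t hji
  change d2 (f i t) j = T.c t.1 j
  rcases ho : f i t with _ | w
  · rw [(hnone i t).1 ho]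
    exact (h.corner i j hji).symm
  · have := T.compat i j t.1 hji
    rw [(hsome i t w).1 ho] at this
    exact this

omit [Fintype W] [Fintype V] [DecidableEq V] in
theorem Split_h13_mem_cut (S : Finset (B ⊕ W)) (e : B × ZMod 3) :
    e ∈ T.cut S ↔ ¬ (Sum.inl e.1 ∈ S ↔ T.wh e ∈ S) := by
  unfold cut
  rw [Finset.mem_filter]
  exact ⟨fun h => h.2, fun h => ⟨Finset.mem_univ _, h⟩⟩

omit [Fintype V] [DecidableEq V] in
theorem Split_h13_cut3_of_map {B1 W1 : Type} [Fintype B1] [Fintype W1] [DecidableEq B1]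
    [DecidableEq W1] (T1 : Tri B1 W1 V) (π : B ⊕ W → B1 ⊕ W1) (hs : Function.Surjective π)
    (φ : B → B1)
    (hφ : ∀ e : B × ZMod 3, π (Sum.inl e.1) ≠ π (T.wh e) →
      π (Sum.inl e.1) = Sum.inl (φ e.1) ∧ π (T.wh e) = T1.wh (φ e.1, e.2))
    (hinj : ∀ e e' : B × ZMod 3, π (Sum.inl e.1) ≠ π (T.wh e) → π (Sum.inl e'.1) ≠ π (T.wh e') →
      φ e.1 = φ e'.1 → e.2 = e'.2 → e = e')
    (h3 : T.Cut3) : T1.Cut3 := by
  intro R1 hne hnu
  have key : ∀ e ∈ T.cut (univ.filter (fun x => π x ∈ R1)), π (Sum.inl e.1) ≠ π (T.wh e) := by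
    intro e he heq
    simp only [cut, mem_filter, mem_univ, true_and] at he
    exact he (by rw [heq])
  have h := h3 (univ.filter (fun x => π x ∈ R1)) ?_ ?_
  · refine h.trans (Finset.card_le_card_of_injOn (fun e => (φ e.1, e.2)) ?_ ?_)
    · intro e he
      have he' := Finset.mem_coe.1 he
      obtain ⟨h1, h2⟩ := hφ e (key e he')
      simp only [cut, mem_filter, mem_univ, true_and] at he'
      simp only [cut, coe_filter, mem_univ, true_and, Set.mem_ofPred_eq]
      rw [← h1, ← h2]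
      exact he'
    · intro e he e' he' heq
      have h1 : φ e.1 = φ e'.1 := congrArg Prod.fst heq
      have h2 : e.2 = e'.2 := (Prod.mk.inj heq).2
      exact hinj e e' (key e (Finset.mem_coe.1 he)) (key e' (Finset.mem_coe.1 he')) h1 h2
  · obtain ⟨y, hy⟩ := hne
    obtain ⟨x, rfl⟩ := hs y
    exact ⟨x, by simpa using hy⟩
  · intro hu
    apply hnu
    refine Finset.eq_univ_iff_forall.2 fun y => ?_
    obtain ⟨x, rfl⟩ := hs y
    have : x ∈ univ.filter (fun x => π x ∈ R1) := by rw [hu]; exact mem_univ x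
    simpa using this

omit [Fintype W] [Fintype V] [DecidableEq V] in
theorem Split_h13_out (h : T.TriCut R tt p) (t : B) (i : ZMod 3) (h1 : Sum.inl t ∈ R)
    (h2 : Sum.inr (T.m i t) ∉ R) : t = tt i := by
  exact (h.cut_iff (t, i)).1 ((Split_h13_mem_cut R (t, i)).2 fun hh => h2 (hh.1 h1))

omit [Fintype W] [Fintype V] [DecidableEq V] in
theorem Split_h13_in (h : T.TriCut R tt p) (t : B) (i : ZMod 3) (h1 : Sum.inl t ∉ R) :
    Sum.inr (T.m i t) ∉ R := by
  intro h2
  have : t = tt i :=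
    (h.cut_iff (t, i)).1 ((Split_h13_mem_cut R (t, i)).2 fun hh => h1 (hh.2 h2))
  exact h1 (this ▸ h.mem i)

omit [Fintype W] [Fintype V] [DecidableEq V] in
theorem Split_h13_tt (h : T.TriCut R tt p) (i : ZMod 3) : Sum.inr (T.m i (tt i)) ∉ R := by
  have := (Split_h13_mem_cut R (tt i, i)).1 ((h.cut_iff (tt i, i)).2 rfl)
  intro h2
  exact this ⟨fun _ => h2, fun _ => h.mem i⟩

theorem cut3_left (h3 : T.Cut3) (h : T.TriCut R tt p)
    {T1 : Tri (Option {t : B // Sum.inl t ∉ R}) {w : W // Sum.inr w ∉ R} V}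
    (h1 : T.IsLeft R tt p T1) : T1.Cut3 := by
  let φ : B → Option {t : B // Sum.inl t ∉ R} := fun t =>
    if ht : Sum.inl t ∈ R then none else some ⟨t, ht⟩
  let π : B ⊕ W → Option {t : B // Sum.inl t ∉ R} ⊕ {w : W // Sum.inr w ∉ R} :=
    Sum.elim (fun t => Sum.inl (φ t))
      (fun w => if hw : Sum.inr w ∈ R then Sum.inl none else Sum.inr ⟨w, hw⟩)
  have hedge : ∀ e : B × ZMod 3, π (Sum.inl e.1) ≠ π (T.wh e) →
      ∃ hw : Sum.inr (T.m e.2 e.1) ∉ R, T1.m e.2 (φ e.1) = ⟨T.m e.2 e.1, hw⟩ := by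
    rintro ⟨t, i⟩ hne
    by_cases ht : Sum.inl t ∈ R
    · by_cases hw : Sum.inr (T.m i t) ∈ R
      · exact absurd (by simp [π, φ, wh, ht, hw]) hne
      · refine ⟨hw, Subtype.ext ?_⟩
        have e1 := Split_h13_out h t i ht hw
        simp only [φ, dif_pos ht]
        rw [h1.m_none, ← e1]
    · refine ⟨Split_h13_in h t i ht, Subtype.ext ?_⟩
      simp only [φ, dif_neg ht]
      rw [h1.m_some]
  refine Split_h13_cut3_of_map T1 π ?_ φ ?_ ?_ h3
  · rintro ((_ | ⟨t, ht⟩) | ⟨w, hw⟩)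
    · exact ⟨Sum.inl (tt 0), by simp [π, φ, h.mem 0]⟩
    · exact ⟨Sum.inl t, by simp [π, φ, ht]⟩
    · exact ⟨Sum.inr w, by simp [π, hw]⟩
  · intro e hne
    obtain ⟨hw, hm⟩ := hedge e hne
    refine ⟨rfl, ?_⟩
    simp only [π, wh, Sum.elim_inr, dif_neg hw, hm]
  · rintro ⟨t, i⟩ ⟨t', i'⟩ hne hne' hφ hi
    obtain rfl : i = i' := hi
    obtain ⟨hw, hm⟩ := hedge _ hne
    obtain ⟨hw', hm'⟩ := hedge _ hne'
    simp only at hm hm' hφ
    rw [hφ, hm'] at hm
    have : T.m i t' = T.m i t := congrArg Subtype.val hm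
    rw [(T.m i).injective this]

theorem cut3_right (h3 : T.Cut3) (h : T.TriCut R tt p)
    {T2 : Tri {t : B // Sum.inl t ∈ R} (Option {w : W // Sum.inr w ∈ R}) V}
    (h2 : T.IsRight R tt T2) : T2.Cut3 := by
  let φ : B → {t : B // Sum.inl t ∈ R} := fun t =>
    if ht : Sum.inl t ∈ R then ⟨t, ht⟩ else ⟨tt 0, h.mem 0⟩
  let π : B ⊕ W → {t : B // Sum.inl t ∈ R} ⊕ Option {w : W // Sum.inr w ∈ R} :=
    Sum.elim (fun t => if ht : Sum.inl t ∈ R then Sum.inl ⟨t, ht⟩ else Sum.inr none)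
      (fun w => if hw : Sum.inr w ∈ R then Sum.inr (some ⟨w, hw⟩) else Sum.inr none)
  have hedge : ∀ e : B × ZMod 3, π (Sum.inl e.1) ≠ π (T.wh e) → Sum.inl e.1 ∈ R := by
    rintro ⟨t, i⟩ hne
    by_contra ht
    have hw := Split_h13_in h t i ht
    exact hne (by simp [π, wh, ht, hw])
  refine Split_h13_cut3_of_map T2 π ?_ φ ?_ ?_ h3
  · rintro (⟨t, ht⟩ | (_ | ⟨w, hw⟩))
    · exact ⟨Sum.inl t, by simp [π, ht]⟩
    · exact ⟨Sum.inr (T.m 0 (tt 0)), by simp [π, Split_h13_tt h 0]⟩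
    · exact ⟨Sum.inr w, by simp [π, hw]⟩
  · rintro ⟨t, i⟩ hne
    have ht : Sum.inl t ∈ R := hedge _ hne
    refine ⟨by simp [π, φ, ht], ?_⟩
    by_cases hw : Sum.inr (T.m i t) ∈ R
    · have := (h2.m_some i ⟨t, ht⟩ ⟨T.m i t, hw⟩).2 rfl
      simp only [π, φ, wh, Sum.elim_inr, dif_pos hw, dif_pos ht, this]
    · have := (h2.m_none i ⟨t, ht⟩).2 (Split_h13_out h t i ht hw)
      simp only [π, φ, wh, Sum.elim_inr, dif_neg hw, dif_pos ht, this]
  · rintro ⟨t, i⟩ ⟨t', i'⟩ hne hne' hφ hi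
    obtain rfl : i = i' := hi
    have ht : Sum.inl t ∈ R := hedge _ hne
    have ht' : Sum.inl t' ∈ R := hedge _ hne'
    simp only [φ, dif_pos ht, dif_pos ht'] at hφ
    have : t = t' := congrArg Subtype.val hφ
    rw [this]

theorem euler_split (h3 : T.Cut3) (hE : T.Euler) (h : T.TriCut R tt p)
    {T1 : Tri (Option {t : B // Sum.inl t ∉ R}) {w : W // Sum.inr w ∉ R} V}
    (h1 : T.IsLeft R tt p T1)
    {T2 : Tri {t : B // Sum.inl t ∈ R} (Option {w : W // Sum.inr w ∈ R}) V}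
    (h2 : T.IsRight R tt T2) : T1.Euler ∧ T2.Euler := by
  have a1 := T1.EI_all (cut3_left h3 h h1)
  have a2 := T2.EI_all (cut3_right h3 h h2)
  have hsub : T.Vall ⊆ T1.Vall ∪ T2.Vall := by
    intro v hv
    obtain ⟨t, j, rfl⟩ := (mem_filter.mp hv).2
    rw [Finset.mem_union]
    by_cases ht : Sum.inl t ∈ R
    · right
      exact mem_filter.mpr ⟨mem_univ _, ⟨t, ht⟩, j, h2.c_eq _ _⟩
    · left
      exact mem_filter.mpr ⟨mem_univ _, some ⟨t, ht⟩, j, h1.c_some _ _⟩
  have hne : ∀ j : ZMod 3, j ≠ j + 1 := by decide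
  have hint : (univ : Finset (ZMod 3)).image p ⊆ T1.Vall ∩ T2.Vall := by
    intro v hv
    obtain ⟨j, _, rfl⟩ := Finset.mem_image.mp hv
    rw [Finset.mem_inter]
    constructor
    · exact mem_filter.mpr ⟨mem_univ _, none, j, h1.c_none j⟩
    · refine mem_filter.mpr ⟨mem_univ _, ⟨tt (j + 1), h.mem _⟩, j, ?_⟩
      rw [h2.c_eq]
      exact h.corner _ _ (hne j)
  have hinj : Function.Injective p := by
    intro i j hij
    rw [← h.corner (i + 1) i (hne i), ← h.corner (j + 1) j (hne j)] at hij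
    exact T.colour _ _ _ _ hij
  have hc3 : ((univ : Finset (ZMod 3)).image p).card = 3 := by
    rw [Finset.card_image_of_injective _ hinj, Finset.card_univ, ZMod.card]
  have b1 := Finset.card_le_card hsub
  have b2 := Finset.card_le_card hint
  have b3 := Finset.card_union_add_card_inter T1.Vall T2.Vall
  have b4 : Fintype.card {t : B // Sum.inl t ∉ R}
      = Fintype.card B - Fintype.card {t : B // Sum.inl t ∈ R} :=
    Fintype.card_subtype_compl (fun t : B => Sum.inl t ∈ R)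
  have b5 : Fintype.card {t : B // Sum.inl t ∈ R} ≤ Fintype.card B := Fintype.card_subtype_le _
  unfold Euler at hE ⊢
  rw [Fintype.card_option] at a1 ⊢
  omega

/-- the glued matching -/
def glueMu (R : Finset (B ⊕ W)) (μ1 : Option {t : B // Sum.inl t ∉ R} → ZMod 3)
    (μ2 : {t : B // Sum.inl t ∈ R} → ZMod 3) (t : B) : ZMod 3 :=
  if h : Sum.inl t ∈ R then μ2 ⟨t, h⟩ else μ1 (some ⟨t, h⟩)

omit [Fintype B] [Fintype W] in
theorem Split_h2_glueMu_mem (μ1 : Option {t : B // Sum.inl t ∉ R} → ZMod 3)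
    (μ2 : {t : B // Sum.inl t ∈ R} → ZMod 3) (t : {t : B // Sum.inl t ∈ R}) :
    glueMu R μ1 μ2 t.1 = μ2 t := by
  unfold glueMu
  rw [dif_pos t.2]

omit [Fintype B] [Fintype W] in
theorem Split_h2_glueMu_not_mem (μ1 : Option {t : B // Sum.inl t ∉ R} → ZMod 3)
    (μ2 : {t : B // Sum.inl t ∈ R} → ZMod 3) (t : {t : B // Sum.inl t ∉ R}) :
    glueMu R μ1 μ2 t.1 = μ1 (some t) := by
  unfold glueMu
  rw [dif_neg t.2]

theorem Split_h2_three (i j : ZMod 3) : j = i ∨ j = i + 1 ∨ j = i + 2 := by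
  revert i j; decide

theorem Split_h2_ne2 (i : ZMod 3) : i + 2 ≠ i := by
  revert i; decide

theorem glue_bij (h : T.TriCut R tt p)
    {T1 : Tri (Option {t : B // Sum.inl t ∉ R}) {w : W // Sum.inr w ∉ R} V}
    (h1 : T.IsLeft R tt p T1)
    {T2 : Tri {t : B // Sum.inl t ∈ R} (Option {w : W // Sum.inr w ∈ R}) V}
    (h2 : T.IsRight R tt T2) (μ1 : Option {t : B // Sum.inl t ∉ R} → ZMod 3)
    (μ2 : {t : B // Sum.inl t ∈ R} → ZMod 3) (g1 : T1.Good μ1) (g2 : T2.Good μ2)
    (hμ : μ2 ⟨tt (μ1 none), h.mem _⟩ = μ1 none) :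
    Function.Bijective (fun t => T.m (glueMu R μ1 μ2 t) t) := by
  rw [Fintype.bijective_iff_surjective_and_card]
  refine ⟨fun w => ?_, T.card_W.symm⟩
  by_cases hw : Sum.inr w ∈ R
  · obtain ⟨t, ht⟩ := g2.1.2 (some ⟨w, hw⟩)
    refine ⟨t.1, ?_⟩
    show T.m (glueMu R μ1 μ2 t.1) t.1 = w
    rw [Split_h2_glueMu_mem]
    exact (h2.m_some _ _ _).1 ht
  · obtain ⟨o, ho⟩ := g1.1.2 ⟨w, hw⟩
    have ho' : (T1.m (μ1 o) o).1 = w := congrArg Subtype.val ho
    rcases o with _ | t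
    · refine ⟨tt (μ1 none), ?_⟩
      show T.m (glueMu R μ1 μ2 (tt (μ1 none))) (tt (μ1 none)) = w
      rw [Split_h2_glueMu_mem μ1 μ2 ⟨tt (μ1 none), h.mem _⟩, hμ, ← h1.m_none]
      exact ho'
    · refine ⟨t.1, ?_⟩
      show T.m (glueMu R μ1 μ2 t.1) t.1 = w
      rw [Split_h2_glueMu_not_mem, ← h1.m_some]
      exact ho'

theorem glue (h : T.TriCut R tt p)
    {T1 : Tri (Option {t : B // Sum.inl t ∉ R}) {w : W // Sum.inr w ∉ R} V}
    (h1 : T.IsLeft R tt p T1)
    {T2 : Tri {t : B // Sum.inl t ∈ R} (Option {w : W // Sum.inr w ∈ R}) V}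
    (h2 : T.IsRight R tt T2) (μ1 : Option {t : B // Sum.inl t ∉ R} → ZMod 3)
    (μ2 : {t : B // Sum.inl t ∈ R} → ZMod 3) (g1 : T1.Good μ1) (g2 : T2.Good μ2)
    (hμ : μ2 ⟨tt (μ1 none), h.mem _⟩ = μ1 none) : T.Good (glueMu R μ1 μ2) := by
  refine ⟨glue_bij h h1 h2 μ1 μ2 g1 g2 hμ, fun f hf => ?_⟩
  have hj : ∀ j, j ≠ μ1 none → j ≠ μ2 ⟨tt j, h.mem j⟩ := by
    intro j hji hjj
    have e1 : T2.m (μ2 ⟨tt j, h.mem j⟩) ⟨tt j, h.mem j⟩ = none := by
      rw [← hjj]; exact (h2.m_none _ _).2 rfl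
    have e2 : T2.m (μ2 ⟨tt (μ1 none), h.mem _⟩) ⟨tt (μ1 none), h.mem _⟩ = none := by
      rw [hμ]; exact (h2.m_none _ _).2 rfl
    have e3 := g2.1.1 (e1.trans e2.symm)
    rw [e3, hμ] at hjj
    exact hji hjj
  let f2 : {t : B // Sum.inl t ∈ R} ⊕ Option {w : W // Sum.inr w ∈ R} → ZMod 2 :=
    Sum.elim (fun t => f (Sum.inl t.1))
      (fun o => o.elim (f (Sum.inl (tt (μ1 none + 1)))) (fun w => f (Sum.inr w.1)))
  have hf2 : ∀ t j, j ≠ μ2 t →
      (t, j) ≠ ((⟨tt (μ1 none + 2), h.mem _⟩ : {t : B // Sum.inl t ∈ R}), μ1 none + 2) →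
      f2 (Sum.inl t) = f2 (Sum.inr (T2.m j t)) := by
    intro t j hjt hne
    rcases hm : T2.m j t with _ | w
    · have ht := (h2.m_none _ _).1 hm
      have ht' : t = ⟨tt j, h.mem j⟩ := Subtype.ext ht
      rcases Split_h2_three (μ1 none) j with rfl | rfl | rfl
      · exact absurd (by rw [ht', hμ]) hjt
      · show f (Sum.inl t.1) = f (Sum.inl (tt (μ1 none + 1)))
        rw [ht]
      · exact absurd (by rw [ht']) hne
    · have ht := (h2.m_some _ _ _).1 hm
      show f (Sum.inl t.1) = f (Sum.inr w.1)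
      rw [← ht]
      apply hf
      rw [Split_h2_glueMu_mem]
      exact hjt
  have hf2' : ∀ t j, j ≠ μ2 t → f2 (Sum.inl t) = f2 (Sum.inr (T2.m j t)) := by
    intro t j hjt
    by_cases hne : (t, j) =
        ((⟨tt (μ1 none + 2), h.mem _⟩ : {t : B // Sum.inl t ∈ R}), μ1 none + 2)
    · obtain ⟨rfl, rfl⟩ := Prod.mk.inj hne
      exact T2.parity_edge μ2 g2.1 f2 _ _ hjt hf2
    · exact hf2 t j hjt hne
  have c2 := g2.2 f2 hf2'
  let f1 : Option {t : B // Sum.inl t ∉ R} ⊕ {w : W // Sum.inr w ∉ R} → ZMod 2 :=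
    Sum.elim (fun o => o.elim (f (Sum.inl (tt (μ1 none)))) (fun t => f (Sum.inl t.1)))
      (fun w => f (Sum.inr w.1))
  have hf1 : ∀ o j, j ≠ μ1 o → f1 (Sum.inl o) = f1 (Sum.inr (T1.m j o)) := by
    intro o j hjo
    rcases o with _ | t
    · show f (Sum.inl (tt (μ1 none))) = f (Sum.inr (T1.m j none).1)
      rw [h1.m_none, ← hf (tt j) j]
      · exact c2 (Sum.inl ⟨tt (μ1 none), h.mem _⟩) (Sum.inl ⟨tt j, h.mem _⟩)
      · rw [Split_h2_glueMu_mem μ1 μ2 ⟨tt j, h.mem j⟩]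
        exact hj j hjo
    · show f (Sum.inl t.1) = f (Sum.inr (T1.m j (some t)).1)
      rw [h1.m_some]
      apply hf
      rw [Split_h2_glueMu_not_mem]
      exact hjo
  have c1 := g1.2 f1 hf1
  have key : ∀ x, f x = f (Sum.inl (tt (μ1 none))) := by
    intro x
    by_cases hx : x ∈ R
    · rcases x with t | w
      · exact c2 (Sum.inl ⟨t, hx⟩) (Sum.inl ⟨tt (μ1 none), h.mem _⟩)
      · exact c2 (Sum.inr (some ⟨w, hx⟩)) (Sum.inl ⟨tt (μ1 none), h.mem _⟩)
    · rcases x with t | w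
      · exact c1 (Sum.inl (some ⟨t, hx⟩)) (Sum.inl none)
      · exact c1 (Sum.inr ⟨w, hx⟩) (Sum.inl none)
  intro x y
  rw [key x, key y]

end Tri

end Crest.Agent.R39
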