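import Crest.Agent.R39.Hall
import Crest.Agent.R39.ClaimA
import Crest.Agent.R39.ClaimB
import Crest.Agent.R39.ClaimC
import Crest.Agent.R39.Loop
import Crest.Agent.R39.Split

set_option autoImplicit false

namespace Crest.Agent.R39

open Finset

theorem base_case {B W V : Type} [Fintype B] [Fintype W] [Fintype V]
    [DecidableEq B] [DecidableEq W] [DecidableEq V] (T : Tri B W V)
    (h3 : T.Cut3) (hE : T.Euler) (b0 : B) (hb : T.Base b0) (i0 : ZMod 3) :
    ∃ μ, μ b0 = i0 ∧ T.Good μ := by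
  obtain ⟨lam, hL⟩ := T.loopSign h3 hE b0
  obtain ⟨s, hs, hne⟩ := claimA (T.cp b0) (T.Vp b0) lam hL (T.exists_pair h3 hE b0 hb)
  obtain ⟨κ, hκ0, hκ⟩ := claimB (T.cp b0) (T.Vp b0) s hne
    (fun v => if v = T.c b0 i0 then 1 else 0)
  have hroot : ∀ j, T.c b0 j ∉ T.Vp b0 := by
    intro j hj
    simp only [Tri.Vp, mem_filter] at hj
    exact hj.2 j rfl
  have hne1 : T.c b0 (i0 + 1) ≠ T.c b0 i0 := fun h => by
    have := T.colour _ _ _ _ h
    revert this; generalize i0 = x; revert x; decide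
  have hne2 : T.c b0 (i0 + 2) ≠ T.c b0 i0 := fun h => by
    have := T.colour _ _ _ _ h
    revert this; generalize i0 = x; revert x; decide
  obtain ⟨μ, h0, hμ, hsμ⟩ := T.exists_mu b0 i0 s κ
    (by rw [hκ0 _ (hroot _), hκ0 _ (hroot _)]; simp [hne1, hne2])
    (by rw [hκ0 _ (hroot _), hκ0 _ (hroot _)]; simp [hne1]) hκ
  exact ⟨μ, h0, T.conn_mu h3 b0 s hs μ hμ hsμ⟩

theorem main (n : ℕ) : ∀ (B W V : Type) [Fintype B] [Fintype W] [Fintype V]
    [DecidableEq B] [DecidableEq W] [DecidableEq V] (T : Tri B W V), Fintype.card B = n →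
    T.Cut3 → T.Euler → ∀ (b0 : B) (i0 : ZMod 3), ∃ μ, μ b0 = i0 ∧ T.Good μ := by
  induction n using Nat.strong_induction_on with
  | _ n ih =>
  intro B W V _ _ _ _ _ _ T hn h3 hE b0 i0
  by_cases hb : T.Base b0
  · exact base_case T h3 hE b0 hb i0
  · unfold Tri.Base at hb
    push Not at hb
    obtain ⟨R, hb0, hx, hy, h2⟩ := hb
    obtain ⟨tt, p, h⟩ := T.exists_triCut R hx hy
    obtain ⟨T1, hT1⟩ := Tri.exists_left h
    obtain ⟨T2, hT2⟩ := Tri.exists_right h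
    obtain ⟨hE1, hE2⟩ := Tri.euler_split h3 hE h hT1 hT2
    have hc2 : Fintype.card {t : B // Sum.inl t ∈ R} = nB R := by
      rw [Fintype.card_subtype]; rfl
    have hc1 : Fintype.card {t : B // Sum.inl t ∉ R} = Fintype.card B - nB R := by
      rw [← hc2]; exact Fintype.card_subtype_compl _
    have hlt2 : Fintype.card {t : B // Sum.inl t ∈ R} < Fintype.card B :=
      Fintype.card_subtype_lt (x := b0) hb0
    obtain ⟨μ1, h01, g1⟩ := ih (Fintype.card (Option {t : B // Sum.inl t ∉ R}))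
      (by rw [Fintype.card_option, hc1]; omega) _ _ _ T1 rfl (Tri.cut3_left h3 h hT1) hE1
      (some ⟨b0, hb0⟩) i0
    obtain ⟨μ2, h02, g2⟩ := ih (Fintype.card {t : B // Sum.inl t ∈ R}) (by omega) _ _ _ T2 rfl
      (Tri.cut3_right h3 h hT2) hE2 ⟨tt (μ1 none), h.mem _⟩ (μ1 none)
    refine ⟨Tri.glueMu R μ1 μ2, ?_, Tri.glue h hT1 hT2 μ1 μ2 g1 g2 h02⟩
    simp [Tri.glueMu, hb0, h01]

end Crest.Agent.R39
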